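import Vale.Agent.Lib.P074.Third.Defs

/-!
# P074 / Third: quantisation of measures and couplings

* `exists_quantiser`: a Borel map with finite range in `Y` moving the points of `Y` by at most `η`;
* `eq_sum_dirac`: a measure carried by a finite set is a finite sum of Dirac masses;
* `W1_map_le`: `W_1` between two images of the same measure.
-/

open MeasureTheory Set
open scoped ENNReal NNReal

namespace Vale.Agent.Lib.P074.Third

open Vale.Agent.Lib.P074

variable {d : ℕ}

/-- measurable nearest point selection in a finite set -/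
lemma exists_nearest (t : Finset (E d)) (ht : t.Nonempty) :
    ∃ q : E d → E d, Measurable q ∧ (∀ x, q x ∈ t) ∧ ∀ x, ∀ c ∈ t, ‖q x - x‖ ≤ ‖c - x‖ := by
  classical
  induction ht using Finset.Nonempty.cons_induction with
  | singleton a =>
    refine ⟨fun _ => a, measurable_const, fun x => by simp, fun x c hc => ?_⟩
    rw [Finset.mem_singleton] at hc
    rw [hc]
  | cons a s has hs ih =>
    obtain ⟨q, hq, hmem, hmin⟩ := ih
    refine ⟨fun x => if ‖a - x‖ ≤ ‖q x - x‖ then a else q x, ?_, ?_, ?_⟩
    · refine Measurable.ite ?_ measurable_const hq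
      exact measurableSet_le (by fun_prop) (by fun_prop)
    · intro x
      simp only [Finset.mem_cons]
      split_ifs
      · exact Or.inl rfl
      · exact Or.inr (hmem x)
    · intro x c hc
      rw [Finset.mem_cons] at hc
      show ‖(if ‖a - x‖ ≤ ‖q x - x‖ then a else q x) - x‖ ≤ ‖c - x‖
      split_ifs with h
      · rcases hc with rfl | hc
        · exact le_refl _
        · exact h.trans (hmin x c hc)
      · rcases hc with rfl | hc
        · exact (not_le.mp h).le
        · exact hmin x c hc

lemma exists_quantiser {Y : Set (E d)} (hY : IsCompact Y) (hne : Y.Nonempty) {η : ℝ} (hη : 0 < η) :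
    ∃ (t : Finset (E d)) (q : E d → E d), Measurable q ∧ (∀ x, q x ∈ t) ∧ (↑t ⊆ Y) ∧
      ∀ x ∈ Y, ‖q x - x‖ ≤ η := by
  obtain ⟨t0, ht0Y, ht0f, hcov⟩ := hY.finite_cover_balls hη
  set t : Finset (E d) := ht0f.toFinset with ht
  have htne : t.Nonempty := by
    obtain ⟨x, hx⟩ := hne
    have := hcov hx
    simp only [mem_iUnion] at this
    obtain ⟨c, hc, -⟩ := this
    exact ⟨c, by simpa [ht] using hc⟩
  obtain ⟨q, hq, hmem, hmin⟩ := exists_nearest t htne
  refine ⟨t, q, hq, hmem, ?_, ?_⟩
  · intro x hx
    exact ht0Y (by simpa [ht] using hx)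
  · intro x hx
    have := hcov hx
    simp only [mem_iUnion] at this
    obtain ⟨c, hc, hxc⟩ := this
    have h1 := hmin x c (by simpa [ht] using hc)
    rw [Metric.mem_ball, dist_comm, dist_eq_norm] at hxc
    exact h1.trans hxc.le

/-- a measure carried by a finite set is a finite sum of Dirac masses -/
lemma eq_sum_dirac {α : Type*} [MeasurableSpace α] [MeasurableSingletonClass α] (γ : Measure α)
    (F : Finset α) (hF : γ (↑F)ᶜ = 0) : γ = ∑ p ∈ F, γ {p} • Measure.dirac p := by
  classical
  ext A hA
  have h1 : γ A = γ (A ∩ ↑F) := by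
    apply le_antisymm
    · calc γ A ≤ γ ((A ∩ ↑F) ∪ (↑F)ᶜ) := by
            apply measure_mono
            intro x hx
            by_cases h : x ∈ (↑F : Set α)
            · exact Or.inl ⟨hx, h⟩
            · exact Or.inr h
        _ ≤ γ (A ∩ ↑F) + γ (↑F)ᶜ := measure_union_le _ _
        _ = γ (A ∩ ↑F) := by rw [hF, add_zero]
    · exact measure_mono inter_subset_left
  have h2 : A ∩ ↑F = ⋃ p ∈ F.filter (fun p => p ∈ A), {p} := by
    ext x
    simp only [mem_inter_iff, Finset.mem_coe, Finset.mem_filter, mem_iUnion, mem_singleton_iff,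
      exists_prop]
    constructor
    · rintro ⟨h1, h2⟩; exact ⟨x, ⟨h2, h1⟩, rfl⟩
    · rintro ⟨p, ⟨h1, h2⟩, rfl⟩; exact ⟨h2, h1⟩
  rw [h1, h2, measure_biUnion_finset]
  · rw [Measure.finsetSum_apply, Finset.sum_filter]
    apply Finset.sum_congr rfl
    intro p _
    rw [Measure.smul_apply, Measure.dirac_apply' p hA, smul_eq_mul]
    by_cases hp : p ∈ A
    · simp [hp]
    · simp [hp]
  · intro p _ p' _ hpp
    simpa using hpp
  · intro p _
    exact measurableSet_singleton p

/-- `W_1` between two images of the same measure -/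
lemma W1_map_map_le {Ω : Type*} [MeasurableSpace Ω] (P : Measure Ω) {X X' : Ω → E d}
    (hX : Measurable X) (hX' : Measurable X') :
    W1 (P.map X) (P.map X') ≤ ∫⁻ w, enorm (X w - X' w) ∂P := by
  have hm : Measurable fun w => (X w, X' w) := hX.prodMk hX'
  have h1 : (P.map fun w => (X w, X' w)).map Prod.fst = P.map X := by
    rw [Measure.map_map measurable_fst hm]; rfl
  have h2 : (P.map fun w => (X w, X' w)).map Prod.snd = P.map X' := by
    rw [Measure.map_map measurable_snd hm]; rfl
  have h3 : W1 (P.map X) (P.map X') ≤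
      ∫⁻ p, enorm (p.1 - p.2) ∂(P.map fun w => (X w, X' w)) :=
    iInf_le (fun π : {π : Measure (E d × E d) // π.map Prod.fst = P.map X ∧
      π.map Prod.snd = P.map X'} => ∫⁻ p, enorm (p.1 - p.2) ∂π.1) ⟨_, h1, h2⟩
  rw [lintegral_map (by fun_prop) hm] at h3
  exact h3

end Vale.Agent.Lib.P074.Third
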