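import Vale.Agent.Lib.P074.Third.Defs

/-!
# P074 / Third: a difference of two convex functions with close subgradients is Lipschitz
-/

open MeasureTheory Set
open scoped ENNReal NNReal

namespace Vale.Agent.Lib.P074.Third

open Vale.Agent.Lib.P074

variable {d : ℕ} {ι : Type*} [Fintype ι]

/-- weighted Cauchy-Schwarz -/
theorem cs_weighted (π : ι → ℝ) (hπ : ∀ i, 0 < π i) (u v : ι → E d) :
    ∑ i, inner ℝ (u i) (v i)
      ≤ Real.sqrt (∑ i, ‖u i‖ ^ 2 / π i) * Real.sqrt (∑ i, π i * ‖v i‖ ^ 2) := by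
  have h1 : ∑ i, inner ℝ (u i) (v i)
      ≤ ∑ i, (‖u i‖ / Real.sqrt (π i)) * (Real.sqrt (π i) * ‖v i‖) := by
    apply Finset.sum_le_sum
    intro i _
    have hs : 0 < Real.sqrt (π i) := Real.sqrt_pos.mpr (hπ i)
    have : (‖u i‖ / Real.sqrt (π i)) * (Real.sqrt (π i) * ‖v i‖) = ‖u i‖ * ‖v i‖ := by
      field_simp
    rw [this]
    exact real_inner_le_norm _ _
  refine h1.trans ?_
  have h2 := Real.sum_mul_le_sqrt_mul_sqrt Finset.univ
    (fun i => ‖u i‖ / Real.sqrt (π i)) (fun i => Real.sqrt (π i) * ‖v i‖)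
  have e1 : ∀ i, (‖u i‖ / Real.sqrt (π i)) ^ 2 = ‖u i‖ ^ 2 / π i := by
    intro i
    rw [div_pow, Real.sq_sqrt (hπ i).le]
  have e2 : ∀ i, (Real.sqrt (π i) * ‖v i‖) ^ 2 = π i * ‖v i‖ ^ 2 := by
    intro i
    rw [mul_pow, Real.sq_sqrt (hπ i).le]
  simp only [e1, e2] at h2
  exact h2

/-- one step of the chain -/
theorem lip_step (H0 H1 : (ι → E d) → ℝ)
    (b0 b1 : (ι → E d) → ι → E d)
    (h0 : ∀ y y', H0 y + ∑ i, inner ℝ (b0 y i) (y' i - y i) ≤ H0 y')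
    (h1 : ∀ y y', H1 y + ∑ i, inner ℝ (b1 y i) (y' i - y i) ≤ H1 y') (u v : ι → E d) :
    (H1 u - H0 u) - (H1 v - H0 v) ≤ ∑ i, inner ℝ (b1 u i - b0 v i) (u i - v i) := by
  have a1 := h1 u v
  have a0 := h0 v u
  have e : ∑ i, inner ℝ (b1 u i - b0 v i) (u i - v i)
      = -(∑ i, inner ℝ (b1 u i) (v i - u i)) - ∑ i, inner ℝ (b0 v i) (u i - v i) := by
    rw [← Finset.sum_neg_distrib, ← Finset.sum_sub_distrib]
    apply Finset.sum_congr rfl
    intro i _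
    rw [inner_sub_left, ← neg_sub (u i) (v i), inner_neg_right]
    ring
  rw [e]
  linarith

/-- the bound for a fixed number `N + 1` of steps -/
theorem lip_N (π : ι → ℝ) (hπ : ∀ i, 0 < π i) (H0 H1 : (ι → E d) → ℝ)
    (b0 b1 : (ι → E d) → ι → E d) (B ε : ℝ) (hε0 : 0 ≤ ε)
    (h0 : ∀ y y', H0 y + ∑ i, inner ℝ (b0 y i) (y' i - y i) ≤ H0 y')
    (h1 : ∀ y y', H1 y + ∑ i, inner ℝ (b1 y i) (y' i - y i) ≤ H1 y')
    (hB : ∀ y i, ‖b0 y i‖ ≤ B * π i)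
    (hε : ∀ y, ∑ i, ‖b1 y i - b0 y i‖ ^ 2 / π i ≤ ε ^ 2) (y z : ι → E d) (n : ℕ) :
    (H1 y - H0 y) - (H1 z - H0 z) ≤ ε * Real.sqrt (∑ i, π i * ‖y i - z i‖ ^ 2)
      + (∑ i, 2 * (B * π i) * ‖y i - z i‖) / ((n : ℝ) + 1) := by
  set N : ℝ := (n : ℝ) + 1 with hN
  have hNpos : 0 < N := by positivity
  set p : ℕ → ι → E d := fun k i => y i + ((k : ℝ) / N) • (z i - y i) with hp
  set δ : ι → E d := fun i => (1 / N) • (y i - z i) with hδ
  set W : ℝ := Real.sqrt (∑ i, π i * ‖y i - z i‖ ^ 2) with hW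
  have hp0 : p 0 = y := by
    funext i
    simp [hp]
  have hpN : p (n + 1) = z := by
    funext i
    have : (((n + 1 : ℕ) : ℝ) / N) = 1 := by
      rw [hN]; push_cast; field_simp
    simp only [hp, this, one_smul]
    abel
  have hdiff : ∀ k i, p k i - p (k + 1) i = δ i := by
    intro k i
    simp only [hp, hδ]
    have : (((k + 1 : ℕ) : ℝ) / N) = (k : ℝ) / N + 1 / N := by
      push_cast; ring
    rw [this, add_smul, ← neg_sub (z i) (y i), smul_neg]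
    abel
  have hWδ : Real.sqrt (∑ i, π i * ‖δ i‖ ^ 2) = W / N := by
    have : ∑ i, π i * ‖δ i‖ ^ 2 = (∑ i, π i * ‖y i - z i‖ ^ 2) / N ^ 2 := by
      rw [Finset.sum_div]
      apply Finset.sum_congr rfl
      intro i _
      simp only [hδ, norm_smul, Real.norm_eq_abs, abs_of_pos (one_div_pos.mpr hNpos)]
      field_simp
    rw [this, Real.sqrt_div' _ (by positivity), Real.sqrt_sq hNpos.le]
  have hstep : ∀ k, (H1 (p k) - H0 (p k)) - (H1 (p (k + 1)) - H0 (p (k + 1)))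
      ≤ ε * (W / N) + ((∑ i, inner ℝ (b0 (p k) i) (δ i))
          - ∑ i, inner ℝ (b0 (p (k + 1)) i) (δ i)) := by
    intro k
    have s := lip_step H0 H1 b0 b1 h0 h1 (p k) (p (k + 1))
    have e : ∑ i, inner ℝ (b1 (p k) i - b0 (p (k + 1)) i) (p k i - p (k + 1) i)
        = ∑ i, inner ℝ (b1 (p k) i - b0 (p k) i) (δ i)
          + ((∑ i, inner ℝ (b0 (p k) i) (δ i)) - ∑ i, inner ℝ (b0 (p (k + 1)) i) (δ i)) := by
      rw [← Finset.sum_sub_distrib, ← Finset.sum_add_distrib]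
      apply Finset.sum_congr rfl
      intro i _
      rw [hdiff, inner_sub_left, inner_sub_left]
      ring
    rw [e] at s
    have c := cs_weighted π hπ (fun i => b1 (p k) i - b0 (p k) i) δ
    rw [hWδ] at c
    have c2 : Real.sqrt (∑ i, ‖b1 (p k) i - b0 (p k) i‖ ^ 2 / π i) ≤ ε := by
      rw [← Real.sqrt_sq hε0]
      exact Real.sqrt_le_sqrt (hε (p k))
    have hWN : 0 ≤ W / N := by positivity
    have c3 := mul_le_mul_of_nonneg_right c2 hWN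
    linarith
  have hsum := Finset.sum_le_sum (fun k (_ : k ∈ Finset.range (n + 1)) => hstep k)
  rw [Finset.sum_range_sub' (fun k => H1 (p k) - H0 (p k)), Finset.sum_add_distrib,
    Finset.sum_range_sub' (fun k => ∑ i, inner ℝ (b0 (p k) i) (δ i)), hp0, hpN,
    Finset.sum_const, Finset.card_range, nsmul_eq_mul] at hsum
  have e1 : ((n + 1 : ℕ) : ℝ) * (ε * (W / N)) = ε * W := by
    rw [hN]; push_cast; field_simp
  rw [e1] at hsum
  have e2 : (∑ i, inner ℝ (b0 y i) (δ i)) - ∑ i, inner ℝ (b0 z i) (δ i)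
      ≤ (∑ i, 2 * (B * π i) * ‖y i - z i‖) / N := by
    rw [← Finset.sum_sub_distrib, Finset.sum_div]
    apply Finset.sum_le_sum
    intro i _
    have hn : ‖δ i‖ = ‖y i - z i‖ / N := by
      simp only [hδ, norm_smul, Real.norm_eq_abs, abs_of_pos (one_div_pos.mpr hNpos)]
      ring
    have a1 : inner ℝ (b0 y i) (δ i) ≤ ‖b0 y i‖ * ‖δ i‖ := real_inner_le_norm _ _
    have a2 : -(inner ℝ (b0 z i) (δ i)) ≤ ‖b0 z i‖ * ‖δ i‖ := by
      have := abs_real_inner_le_norm (b0 z i) (δ i)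
      exact (neg_le_abs _).trans this
    have hδ0 : 0 ≤ ‖δ i‖ := norm_nonneg _
    have a3 := mul_le_mul_of_nonneg_right (hB y i) hδ0
    have a4 := mul_le_mul_of_nonneg_right (hB z i) hδ0
    have : 2 * (B * π i) * ‖y i - z i‖ / N = 2 * (B * π i * ‖δ i‖) := by
      rw [hn]; ring
    rw [this]
    linarith
  linarith

/-- **Abstract Lipschitz lemma.** `H0, H1` have subgradients `b0, b1` at every point, `b0` is
bounded and `b1 - b0` is small in the dual weighted norm. Then `H1 - H0` is Lipschitz for the weighted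
norm `(∑ π_i |y_i|^2)^(1/2)`.
Proof. Fix `N ≥ 1`, `y_k = y + (k/N) (z - y)`, `δ = (y - z)/N`. From `h1 y_k y_{k+1}` and
`h0 y_{k+1} y_k`:
`(H1 - H0)(y_k) - (H1 - H0)(y_{k+1}) ≤ <b1 y_k - b0 y_{k+1}, δ> = <b1 y_k - b0 y_k, δ> + <b0 y_k - b0 y_{k+1}, δ>`.
The first term is `≤ ε W / N` by Cauchy-Schwarz (`W = sqrt (∑ π_i |y_i - z_i|^2)`;
`∑ <u_i, v_i> ≤ sqrt(∑ |u_i|^2/π_i) sqrt(∑ π_i |v_i|^2)`), the second telescopes (`Finset.sum_range_sub'`) to
`<b0 y_0 - b0 y_N, δ> ≤ (2 B ∑ π_i |y_i - z_i|)/N`. Sum over `k < N` and let `N → ∞`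
(`le_of_forall_pos_le_add` + Archimedean, or `ge_of_tendsto`). -/
theorem lip_concrete (π : ι → ℝ) (hπ : ∀ i, 0 < π i) (H0 H1 : (ι → E d) → ℝ)
    (b0 b1 : (ι → E d) → ι → E d) (B ε : ℝ) (hε0 : 0 ≤ ε)
    (h0 : ∀ y y', H0 y + ∑ i, inner ℝ (b0 y i) (y' i - y i) ≤ H0 y')
    (h1 : ∀ y y', H1 y + ∑ i, inner ℝ (b1 y i) (y' i - y i) ≤ H1 y')
    (hB : ∀ y i, ‖b0 y i‖ ≤ B * π i)
    (hε : ∀ y, ∑ i, ‖b1 y i - b0 y i‖ ^ 2 / π i ≤ ε ^ 2) (y z : ι → E d) :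
    (H1 y - H0 y) - (H1 z - H0 z) ≤ ε * Real.sqrt (∑ i, π i * ‖y i - z i‖ ^ 2) := by
  have hlim : Filter.Tendsto (fun n : ℕ => ε * Real.sqrt (∑ i, π i * ‖y i - z i‖ ^ 2)
      + (∑ i, 2 * (B * π i) * ‖y i - z i‖) / ((n : ℝ) + 1)) Filter.atTop
      (nhds (ε * Real.sqrt (∑ i, π i * ‖y i - z i‖ ^ 2) + 0)) := by
    apply Filter.Tendsto.add tendsto_const_nhds
    apply Filter.Tendsto.div_atTop tendsto_const_nhds
    exact Filter.tendsto_atTop_add_const_right _ _ tendsto_natCast_atTop_atTop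
  rw [add_zero] at hlim
  exact ge_of_tendsto' hlim (fun n => lip_N π hπ H0 H1 b0 b1 B ε hε0 h0 h1 hB hε y z n)

end Vale.Agent.Lib.P074.Third
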