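import Vale.Agent.Lib.P074.Third.FinalBound
import Vale.Agent.Lib.P074.H8Potential

/-!
# P074 / Third: the exponent `1/3` is admissible
-/

open MeasureTheory Set Metric
open scoped ENNReal NNReal

namespace Vale.Agent.Lib.P074.Third

open Vale.Agent.Lib.P074

variable {d : ℕ}

/-- **The exponent `1/3` is admissible** (in every dimension).
Given `K, Y`: radii `RK`, `M`, a ball `closedBall x0 r ⊆ K`, `C = toNNReal (sqrt (finC ..))`.
For `μ, ν, Tμ, Tν`: `exists_potential` gives the potentials, hence `IsBr K M 0 μ φμ Tμ`. For every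
coupling `π`, `eLpNorm_bound` gives `eLpNorm .. ≤ C * cost(π)^(1/6)`. Finally
`W2 μ ν ^ (1/3) = (⨅ π, cost π)^(1/6)` and `x ↦ C * x^(1/6)` commutes with the infimum. -/
theorem admissible_third (d : ℕ) : Admissible d (1 / 3) := by
  intro K hK hKc hKi Y hY hYne
  obtain ⟨RK0, hKR0⟩ := exists_nnreal_bound hK
  obtain ⟨M, hYM⟩ := exists_nnreal_bound hY
  set RK : ℝ≥0 := RK0 + 1 with hRK
  have hBody : IsBody K RK :=
    ⟨hK, hKc, hKi, by positivity, fun x hx => (hKR0 x hx).trans (by simp [hRK])⟩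
  obtain ⟨x0, hx0⟩ := hKi
  obtain ⟨r, hr, hball⟩ : ∃ r > 0, closedBall x0 r ⊆ K :=
    Metric.nhds_basis_closedBall.mem_iff.mp (mem_interior_iff_mem_nhds.mp hx0)
  refine ⟨Real.toNNReal (Real.sqrt (finC d K RK M r)), ?_⟩
  intro μ ν hμp hνp hμ hν Tμ Tν hTμ hTν
  obtain ⟨φ0, hc0, hl0, hs0⟩ :=
    exists_potential K Y hK hKc ⟨x0, hx0⟩ hY hYne M hYM μ hμp hμ Tμ hTμ
  obtain ⟨φ1, hc1, hl1, hs1⟩ :=
    exists_potential K Y hK hKc ⟨x0, hx0⟩ hY hYne M hYM ν hνp hν Tν hTν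
  have hBμ : IsBr K M (0 : E d → ℝ) μ φ0 Tμ :=
    ⟨hc0, hl0, hTμ.1, hs0, by rw [src_zero]; exact hTμ.2.1⟩
  have hBν : IsBr K M (0 : E d → ℝ) ν φ1 Tν :=
    ⟨hc1, hl1, hTν.1, hs1, by rw [src_zero]; exact hTν.2.1⟩
  have key : ∀ π : {π : Measure (E d × E d) // π.map Prod.fst = μ ∧ π.map Prod.snd = ν},
      eLpNorm (fun x => Tμ x - Tν x) 2 (unif K) ≤
        (Real.toNNReal (Real.sqrt (finC d K RK M r)) : ℝ≥0∞) *
          (∫⁻ p, ‖p.1 - p.2‖ₑ ^ 2 ∂π.1) ^ (1 / 6 : ℝ) := fun π =>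
    eLpNorm_bound hBody hr hball hY hYne hYM hμ hν hBμ hBν π.1 π.2.1 π.2.2
  have hne : Nonempty {π : Measure (E d × E d) // π.map Prod.fst = μ ∧ π.map Prod.snd = ν} :=
    ⟨⟨μ.prod ν, by simp, by simp⟩⟩
  have e1 : W2 μ ν ^ (1 / 3 : ℝ) =
      ⨅ π : {π : Measure (E d × E d) // π.map Prod.fst = μ ∧ π.map Prod.snd = ν},
        (∫⁻ p, ‖p.1 - p.2‖ₑ ^ 2 ∂π.1) ^ (1 / 6 : ℝ) := by
    unfold W2
    rw [← ENNReal.rpow_mul]
    have h6 : (1 / 2 : ℝ) * (1 / 3) = 1 / 6 := by norm_num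
    rw [h6]
    exact (ENNReal.orderIsoRpow (1 / 6 : ℝ) (by norm_num)).map_iInf _
  rw [e1, ENNReal.mul_iInf (by simp)]
  exact le_iInf key

end Vale.Agent.Lib.P074.Third
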