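import Mathlib

/-!
# P074 / Third: the one-dimensional Brunn-Minkowski inequality (midpoint form)
-/

open MeasureTheory Set
open scoped ENNReal NNReal

namespace Vale.Agent.Lib.P074.Third

/-- volume of the image of a set under the midpoint map with a fixed point -/
theorem volume_image_midpoint (x : ℝ) (s : Set ℝ) :
    volume ((fun y : ℝ => (y + x) / 2) '' s) = 2⁻¹ * volume s := by
  have h1 : (fun y : ℝ => (y + x) / 2) = ⇑(AffineMap.homothety x (1 / 2 : ℝ)) := by
    funext y
    simp only [AffineMap.homothety_apply, vsub_eq_sub, vadd_eq_add, smul_eq_mul]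
    ring
  rw [h1, Measure.addHaar_image_homothety]
  congr 1
  simp only [Module.finrank_self, pow_one]
  rw [abs_of_pos (by norm_num : (0 : ℝ) < 1 / 2), one_div,
    ENNReal.ofReal_inv_of_pos (by norm_num : (0 : ℝ) < 2)]
  simp

/-- the compact case -/
theorem bm_one_dim_compact {A B C : Set ℝ} (hA : IsCompact A) (hB : IsCompact B)
    (hAne : A.Nonempty) (hBne : B.Nonempty)
    (h : ∀ a ∈ A, ∀ b ∈ B, (a + b) / 2 ∈ C) :
    volume A + volume B ≤ 2 * volume C := by
  set a1 := sSup A with ha1
  set b0 := sInf B with hb0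
  have ha1A : a1 ∈ A := hA.sSup_mem hAne
  have hb0B : b0 ∈ B := hB.sInf_mem hBne
  have hle1 : ∀ a ∈ A, a ≤ a1 := fun a ha => le_csSup hA.bddAbove ha
  have hle0 : ∀ b ∈ B, b0 ≤ b := fun b hb => csInf_le hB.bddBelow hb
  set m := (a1 + b0) / 2 with hm
  set S1 := (fun y : ℝ => (y + b0) / 2) '' A with hS1
  set S2 := (fun y : ℝ => (y + a1) / 2) '' B with hS2
  have hS1C : S1 ⊆ C ∩ Iic m := by
    rintro _ ⟨a, ha, rfl⟩
    refine ⟨h a ha b0 hb0B, ?_⟩
    simp only [mem_Iic, hm]
    have := hle1 a ha
    linarith
  have hS2C : S2 ⊆ (C \ Iic m) ∪ {m} := by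
    rintro _ ⟨b, hb, rfl⟩
    have h0 := hle0 b hb
    have hmem : (b + a1) / 2 ∈ C := by
      have := h a1 ha1A b hb
      rwa [add_comm] at this
    by_cases hbb : b = b0
    · right
      simp only [mem_singleton_iff, hm, hbb]
      ring
    · left
      refine ⟨hmem, ?_⟩
      simp only [mem_Iic, hm, not_le]
      have : b0 < b := lt_of_le_of_ne h0 (Ne.symm hbb)
      linarith
  have e1 : volume S1 = 2⁻¹ * volume A := volume_image_midpoint b0 A
  have e2 : volume S2 = 2⁻¹ * volume B := volume_image_midpoint a1 B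
  have i1 : volume S1 ≤ volume (C ∩ Iic m) := measure_mono hS1C
  have i2 : volume S2 ≤ volume (C \ Iic m) := by
    calc volume S2 ≤ volume ((C \ Iic m) ∪ {m}) := measure_mono hS2C
      _ ≤ volume (C \ Iic m) + volume ({m} : Set ℝ) := measure_union_le _ _
      _ = volume (C \ Iic m) := by simp
  have i3 : volume (C ∩ Iic m) + volume (C \ Iic m) = volume C :=
    measure_inter_add_sdiff C measurableSet_Iic
  have i4 : 2⁻¹ * volume A + 2⁻¹ * volume B ≤ volume C := by
    rw [← e1, ← e2, ← i3]
    exact add_le_add i1 i2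
  calc volume A + volume B = 2 * (2⁻¹ * volume A + 2⁻¹ * volume B) := by
        rw [mul_add, ← mul_assoc, ← mul_assoc,
          ENNReal.mul_inv_cancel (by norm_num) (by norm_num), one_mul, one_mul]
    _ ≤ 2 * volume C := by gcongr

/-- **Brunn-Minkowski on the line, midpoint form.**
Plan: by inner regularity (`MeasurableSet.measure_eq_iSup_isCompact` or
`MeasurableSet.exists_lt_isCompact`) it is enough to treat nonempty compact `A' ⊆ A`, `B' ⊆ B`.
Let `a1 = max A'`, `b0 = min B'`. The sets `{(a + b0)/2 | a ∈ A'}` and `{(a1 + b)/2 | b ∈ B'}` are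
contained in `C`, have measures `vol A' / 2` and `vol B' / 2`
(`Real.volume_preimage_mul_left`, `measure_preimage_add`, or `Measure.addHaar_image_homothety`), the first lies in
`Iic ((a1 + b0)/2)` and the second in `Ici ((a1 + b0)/2)`, so they meet in at most one point. -/
theorem bm_one_dim {A B C : Set ℝ} (hA : MeasurableSet A) (hB : MeasurableSet B)
    (hC : MeasurableSet C) (hAne : A.Nonempty) (hBne : B.Nonempty)
    (h : ∀ a ∈ A, ∀ b ∈ B, (a + b) / 2 ∈ C) :
    volume A + volume B ≤ 2 * volume C := by
  obtain ⟨a0, ha0⟩ := hAne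
  obtain ⟨b0, hb0⟩ := hBne
  -- compact subsets
  have key : ∀ K ⊆ A, IsCompact K → ∀ K' ⊆ B, IsCompact K' →
      volume K + volume K' ≤ 2 * volume C := by
    intro K hKA hK K' hKB hK'
    have h1 : IsCompact (insert a0 K) := hK.insert a0
    have h2 : IsCompact (insert b0 K') := hK'.insert b0
    have h3 := bm_one_dim_compact (C := C) h1 h2 (insert_nonempty _ _) (insert_nonempty _ _)
      (fun a ha b hb => h a (insert_subset ha0 hKA ha) b (insert_subset hb0 hKB hb))
    exact le_trans (add_le_add (measure_mono (subset_insert _ _))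
      (measure_mono (subset_insert _ _))) h3
  have claim1 : ∀ K' ⊆ B, IsCompact K' → volume A + volume K' ≤ 2 * volume C := by
    intro K' hKB hK'
    have hfin : volume K' ≠ ∞ := hK'.measure_lt_top.ne
    have hle : volume K' ≤ 2 * volume C := by
      have := key ∅ (empty_subset _) isCompact_empty K' hKB hK'
      simpa using this
    refine add_le_of_le_tsub_right_of_le hle ?_
    rw [hA.measure_eq_iSup_isCompact]
    refine iSup_le fun K => iSup_le fun hKA => iSup_le fun hK => ?_
    exact ENNReal.le_sub_of_add_le_right hfin (key K hKA hK K' hKB hK')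
  by_cases hAtop : volume A = ∞
  · have := claim1 ∅ (empty_subset _) isCompact_empty
    simp only [measure_empty, add_zero, hAtop, top_le_iff] at this
    rw [this]
    exact le_top
  · have hle : volume A ≤ 2 * volume C := by
      have := claim1 ∅ (empty_subset _) isCompact_empty
      simpa using this
    rw [add_comm]
    refine add_le_of_le_tsub_right_of_le hle ?_
    rw [hB.measure_eq_iSup_isCompact]
    refine iSup_le fun K' => iSup_le fun hKB => iSup_le fun hK' => ?_
    refine ENNReal.le_sub_of_add_le_right hAtop ?_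
    rw [add_comm]
    exact claim1 K' hKB hK'

end Vale.Agent.Lib.P074.Third
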