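import Vale.Agent.Lib.P074.Third.Defs

/-!
# P074 / Third: elementary facts on the potentials `pot` and the Laguerre cells
-/

open MeasureTheory Set
open scoped ENNReal NNReal

namespace Vale.Agent.Lib.P074.Third

open Vale.Agent.Lib.P074

variable {d : ℕ} {ι : Type*} [Fintype ι]

lemma le_pot (y : ι → E d) (a : ι → ℝ) (x : E d) (i : ι) : inner ℝ x (y i) - a i ≤ pot y a x := by
  unfold pot
  exact le_ciSup (f := fun i => inner ℝ x (y i) - a i) (Set.finite_range _).bddAbove i

lemma pot_le [Nonempty ι] (y : ι → E d) (a : ι → ℝ) (x : E d) (c : ℝ)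
    (h : ∀ i, inner ℝ x (y i) - a i ≤ c) : pot y a x ≤ c := by
  unfold pot
  exact ciSup_le h

lemma exists_pot_eq [Nonempty ι] (y : ι → E d) (a : ι → ℝ) (x : E d) :
    ∃ i, pot y a x = inner ℝ x (y i) - a i := by
  obtain ⟨i, hi⟩ := exists_eq_ciSup_of_finite (f := fun i => inner ℝ x (y i) - a i)
  exact ⟨i, hi.symm⟩

lemma pot_eq_of_mem_cell {K : Set (E d)} {y : ι → E d} {a : ι → ℝ} {x : E d} {i : ι}
    (hx : x ∈ cell K y a i) : pot y a x = inner ℝ x (y i) - a i := by
  have : Nonempty ι := ⟨i⟩
  exact le_antisymm (pot_le _ _ _ _ hx.2) (le_pot y a x i)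

lemma pot_convex [Nonempty ι] (y : ι → E d) (a : ι → ℝ) : ConvexOn ℝ univ (pot y a) := by
  refine ⟨convex_univ, fun x _ z _ s t hs ht hst => ?_⟩
  apply pot_le
  intro i
  have h1 := le_pot y a x i
  have h2 := le_pot y a z i
  rw [inner_add_left, real_inner_smul_left, real_inner_smul_left]
  simp only [smul_eq_mul]
  have h3 : a i = s * a i + t * a i := by rw [← add_mul, hst, one_mul]
  have h4 := mul_le_mul_of_nonneg_left h1 hs
  have h5 := mul_le_mul_of_nonneg_left h2 ht
  nlinarith

lemma pot_lipschitz [Nonempty ι] {M : ℝ≥0} (y : ι → E d) (hy : ∀ i, ‖y i‖ ≤ M) (a : ι → ℝ) :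
    LipschitzWith M (pot y a) := by
  apply LipschitzWith.of_le_add_mul
  intro x z
  apply pot_le
  intro i
  have h1 := le_pot y a z i
  have h2 : inner ℝ x (y i) = inner ℝ z (y i) + inner ℝ (x - z) (y i) := by
    rw [inner_sub_left]; ring
  have h3 : inner ℝ (x - z) (y i) ≤ ‖x - z‖ * ‖y i‖ := real_inner_le_norm _ _
  have h4 : ‖x - z‖ * ‖y i‖ ≤ ‖x - z‖ * M := mul_le_mul_of_nonneg_left (hy i) (norm_nonneg _)
  rw [dist_eq_norm]
  nlinarith

/-- on the cell of `i`, the site `y i` is a subgradient of `pot y a` -/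
lemma pot_subgradient {y : ι → E d} {a : ι → ℝ} {x : E d} {i : ι}
    (hx : ∀ j, inner ℝ x (y j) - a j ≤ inner ℝ x (y i) - a i) (z : E d) :
    pot y a x + inner ℝ (y i) (z - x) ≤ pot y a z := by
  have : Nonempty ι := ⟨i⟩
  have h1 : pot y a x ≤ inner ℝ x (y i) - a i := pot_le _ _ _ _ hx
  have h2 := le_pot y a z i
  have h3 : inner ℝ (y i) (z - x) = inner ℝ z (y i) - inner ℝ x (y i) := by
    rw [inner_sub_right, real_inner_comm, real_inner_comm (y i) x]
  linarith

/-- adding a constant to all the weights -/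
lemma pot_add_const [Nonempty ι] (y : ι → E d) (a : ι → ℝ) (c : ℝ) (x : E d) :
    pot y (fun i => a i + c) x = pot y a x - c := by
  apply le_antisymm
  · apply pot_le
    intro i
    have := le_pot y a x i
    linarith
  · have h : pot y a x ≤ pot y (fun i => a i + c) x + c := by
      apply pot_le
      intro i
      have := le_pot y (fun i => a i + c) x i
      linarith
    linarith

/-- `pot` is `1`-Lipschitz in the weights for the sup norm -/
lemma abs_pot_sub_le [Nonempty ι] (y : ι → E d) (a a' : ι → ℝ) (c : ℝ)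
    (h : ∀ i, |a i - a' i| ≤ c) (x : E d) : |pot y a x - pot y a' x| ≤ c := by
  rw [abs_le]
  constructor
  · have h1 : pot y a' x ≤ pot y a x + c := by
      apply pot_le
      intro i
      have := le_pot y a x i
      have := (abs_le.mp (h i)).2
      linarith
    linarith
  · have h1 : pot y a x ≤ pot y a' x + c := by
      apply pot_le
      intro i
      have := le_pot y a' x i
      have := (abs_le.mp (h i)).1
      linarith
    linarith

lemma cell_subset (K : Set (E d)) (y : ι → E d) (a : ι → ℝ) (i : ι) : cell K y a i ⊆ K :=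
  fun _ hx => hx.1

lemma measurableSet_cell {K : Set (E d)} (hK : MeasurableSet K) (y : ι → E d) (a : ι → ℝ) (i : ι) :
    MeasurableSet (cell K y a i) := by
  have h : cell K y a i
      = K ∩ ⋂ j, {x : E d | inner ℝ x (y j) - a j ≤ inner ℝ x (y i) - a i} := by
    ext x
    simp [cell]
  rw [h]
  refine hK.inter (MeasurableSet.iInter fun j => ?_)
  apply measurableSet_le
  · fun_prop
  · fun_prop

lemma measurableSet_scell (y : ι → E d) (a : ι → ℝ) (i : ι) : MeasurableSet (scell y a i) := by
  have h : scell y a i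
      = ⋂ j, {x : E d | j ≠ i → inner ℝ x (y j) - a j < inner ℝ x (y i) - a i} := by
    ext x
    simp [scell]
  rw [h]
  refine MeasurableSet.iInter fun j => ?_
  by_cases hj : j = i
  · simp [hj]
  · simp only [ne_eq, hj, not_false_eq_true, forall_const]
    apply measurableSet_lt
    · fun_prop
    · fun_prop

lemma iUnion_cell [Nonempty ι] (K : Set (E d)) (y : ι → E d) (a : ι → ℝ) :
    ⋃ i, cell K y a i = K := by
  apply Subset.antisymm
  · exact iUnion_subset fun i => cell_subset K y a i
  · intro x hx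
    obtain ⟨i, hi⟩ := exists_pot_eq y a x
    refine mem_iUnion.mpr ⟨i, hx, fun j => ?_⟩
    rw [← hi]
    exact le_pot y a x j

/-- the hyperplane `{x | <x, y_j> - a_j = <x, y_i> - a_i}` is Lebesgue null -/
lemma volume_tie {y : ι → E d} (hy : Function.Injective y) (a : ι → ℝ) {i j : ι} (hij : i ≠ j) :
    volume {x : E d | inner ℝ x (y j) - a j = inner ℝ x (y i) - a i} = 0 := by
  let S : AffineSubspace ℝ (E d) :=
    { carrier := {x : E d | inner ℝ x (y j) - a j = inner ℝ x (y i) - a i}
      smul_vsub_vadd_mem' := by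
        intro t p1 p2 p3 h1 h2 h3
        simp only [Set.mem_setOf_eq, vsub_eq_sub, vadd_eq_add] at *
        rw [inner_add_left, real_inner_smul_left, inner_sub_left, inner_add_left,
          real_inner_smul_left, inner_sub_left]
        have e1 : inner ℝ p1 (y j) = inner ℝ p1 (y i) - a i + a j := by linarith
        have e2 : inner ℝ p2 (y j) = inner ℝ p2 (y i) - a i + a j := by linarith
        have e3 : inner ℝ p3 (y j) = inner ℝ p3 (y i) - a i + a j := by linarith
        rw [e1, e2, e3]
        ring }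
  have hS : S ≠ ⊤ := by
    intro htop
    have h0 : (0 : E d) ∈ S := by rw [htop]; exact AffineSubspace.mem_top ℝ (E d) _
    have h1 : (y j - y i : E d) ∈ S := by rw [htop]; exact AffineSubspace.mem_top ℝ (E d) _
    have h0' : inner ℝ (0 : E d) (y j) - a j = inner ℝ (0 : E d) (y i) - a i := h0
    have h1' : inner ℝ (y j - y i) (y j) - a j = inner ℝ (y j - y i) (y i) - a i := h1
    simp only [inner_zero_left] at h0'
    have h2 : inner ℝ (y j - y i) (y j - y i) = 0 := by
      rw [inner_sub_right]
      linarith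
    rw [inner_self_eq_zero, sub_eq_zero] at h2
    exact hij (hy h2).symm
  exact Measure.addHaar_affineSubspace volume S hS

/-- two different cells meet inside a hyperplane (`Measure.addHaar_affineSubspace`, or the
kernel of a nonzero linear form shifted) -/
lemma volume_cell_inter {K : Set (E d)} {y : ι → E d} (hy : Function.Injective y) (a : ι → ℝ)
    {i j : ι} (hij : i ≠ j) : volume (cell K y a i ∩ cell K y a j) = 0 := by
  refine measure_mono_null ?_ (volume_tie hy a hij)
  intro x hx
  exact le_antisymm (hx.1.2 j) (hx.2.2 i)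

/-- **midpoint inclusion**: `(L_i(a0) + L_i(a1)) / 2 ⊆ L_i((a0 + a1)/2)` -/
lemma midpoint_mem_cell {K : Set (E d)} (hK : Convex ℝ K) {y : ι → E d} {a0 a1 : ι → ℝ} {i : ι}
    {x x' : E d} (hx : x ∈ cell K y a0 i) (hx' : x' ∈ cell K y a1 i) :
    (1 / 2 : ℝ) • (x + x') ∈ cell K y (midw a0 a1) i := by
  refine ⟨?_, fun j => ?_⟩
  · have := hK hx.1 hx'.1 (a := 1 / 2) (b := 1 / 2) (by norm_num) (by norm_num) (by norm_num)
    rwa [← smul_add] at this
  · have h1 := hx.2 j
    have h2 := hx'.2 j
    simp only [midw, real_inner_smul_left, inner_add_left]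
    linarith

lemma scell_disjoint (y : ι → E d) (a : ι → ℝ) {i j : ι} (hij : i ≠ j) :
    Disjoint (scell y a i) (scell y a j) := by
  rw [Set.disjoint_left]
  intro x hx hx'
  have h1 := hx j (Ne.symm hij)
  have h2 := hx' i hij
  linarith

lemma scell_inter_subset_cell (K : Set (E d)) (y : ι → E d) (a : ι → ℝ) (i : ι) :
    K ∩ scell y a i ⊆ cell K y a i := by
  intro x hx
  refine ⟨hx.1, fun j => ?_⟩
  by_cases hj : j = i
  · rw [hj]
  · exact (hx.2 j hj).le

end Vale.Agent.Lib.P074.Third
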