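import Vale.Agent.Lib.P074.Third.Defs

/-!
# P074 / Third: the perturbed source `src K g = (1 + g) unif K`
-/

open MeasureTheory Set
open scoped ENNReal NNReal

namespace Vale.Agent.Lib.P074.Third

open Vale.Agent.Lib.P074

variable {d : ℕ}

lemma IsBody.volume_ne_zero {K : Set (E d)} {RK : ℝ≥0} (hK : IsBody K RK) : volume K ≠ 0 :=
  (Measure.measure_pos_of_nonempty_interior _ hK.int).ne'

lemma IsBody.isProb {K : Set (E d)} {RK : ℝ≥0} (hK : IsBody K RK) :
    IsProbabilityMeasure (unif K) := unif_isProb hK.compact hK.volume_ne_zero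

lemma isPert_zero (K : Set (E d)) : IsPert K (0 : E d → ℝ) := by
  refine ⟨measurable_const, fun x => ?_, by simp⟩
  simp

lemma src_zero (K : Set (E d)) : src K (0 : E d → ℝ) = unif K := by
  unfold src
  simp

lemma unif_ac (K : Set (E d)) : unif K ≪ volume := by
  unfold unif
  exact (Measure.smul_absolutelyContinuous).trans Measure.restrict_le_self.absolutelyContinuous

lemma src_ac_unif (K : Set (E d)) (g : E d → ℝ) : src K g ≪ unif K :=
  withDensity_absolutelyContinuous _ _

lemma src_ac (K : Set (E d)) (g : E d → ℝ) : src K g ≪ volume :=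
  (src_ac_unif K g).trans (unif_ac K)

lemma src_compl {K : Set (E d)} {RK : ℝ≥0} (hK : IsBody K RK) (g : E d → ℝ) :
    src K g Kᶜ = 0 := by
  apply src_ac_unif K g
  have := ae_unif_mem_of_compact hK.compact
  rw [ae_iff] at this
  exact this

lemma src_one_add_nonneg {K : Set (E d)} {g : E d → ℝ} (hg : IsPert K g) (x : E d) : 0 ≤ 1 + g x := by
  have := abs_le.mp (hg.bound x)
  linarith [this.1]

lemma src_meas_one_add {K : Set (E d)} {g : E d → ℝ} (hg : IsPert K g) :
    Measurable fun x => 1 + g x := measurable_const.add hg.meas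

lemma src_meas_dens {K : Set (E d)} {g : E d → ℝ} (hg : IsPert K g) :
    Measurable fun x => ENNReal.ofReal (1 + g x) :=
  (src_meas_one_add hg).ennreal_ofReal

lemma setIntegral_src_vec {K : Set (E d)} {g : E d → ℝ} (hg : IsPert K g) (f : E d → E d)
    {A : Set (E d)} (hA : MeasurableSet A) :
    ∫ x in A, f x ∂(src K g) = ∫ x in A, (1 + g x) • f x ∂(unif K) := by
  unfold src
  rw [restrict_withDensity hA, integral_withDensity_eq_integral_toReal_smul (src_meas_dens hg)
    (Filter.Eventually.of_forall fun x => ENNReal.ofReal_lt_top)]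
  congr 1
  ext1 x
  rw [ENNReal.toReal_ofReal (src_one_add_nonneg hg x)]

lemma setIntegral_src {K : Set (E d)} {g : E d → ℝ} (hg : IsPert K g) (f : E d → ℝ)
    {A : Set (E d)} (hA : MeasurableSet A) :
    ∫ x in A, f x ∂(src K g) = ∫ x in A, f x * (1 + g x) ∂(unif K) := by
  unfold src
  rw [restrict_withDensity hA, integral_withDensity_eq_integral_toReal_smul (src_meas_dens hg)
    (Filter.Eventually.of_forall fun x => ENNReal.ofReal_lt_top)]
  congr 1
  ext1 x
  rw [ENNReal.toReal_ofReal (src_one_add_nonneg hg x), smul_eq_mul, mul_comm]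

lemma integral_src {K : Set (E d)} {g : E d → ℝ} (hg : IsPert K g) (f : E d → ℝ) :
    ∫ x, f x ∂(src K g) = ∫ x, f x * (1 + g x) ∂(unif K) := by
  have := setIntegral_src hg f MeasurableSet.univ
  simpa using this

lemma src_real_apply {K : Set (E d)} {g : E d → ℝ} (hg : IsPert K g) {A : Set (E d)}
    (hA : MeasurableSet A) : (src K g).real A = ∫ x in A, (1 + g x) ∂(unif K) := by
  have := setIntegral_src hg (fun _ => (1 : ℝ)) hA
  simp only [one_mul] at this
  rw [← this]
  simp

lemma src_integrable_one_add {K : Set (E d)} {RK : ℝ≥0} (hK : IsBody K RK) {g : E d → ℝ}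
    (hg : IsPert K g) : Integrable (fun x => 1 + g x) (unif K) := by
  have := IsBody.isProb hK
  apply Integrable.of_bound (src_meas_one_add hg).aestronglyMeasurable (4 / 3)
  filter_upwards with x
  have := abs_le.mp (hg.bound x)
  rw [Real.norm_eq_abs, abs_le]
  constructor <;> linarith [this.1, this.2]

lemma src_integrable_g {K : Set (E d)} {RK : ℝ≥0} (hK : IsBody K RK) {g : E d → ℝ}
    (hg : IsPert K g) : Integrable g (unif K) := by
  have := IsBody.isProb hK
  apply Integrable.of_bound hg.meas.aestronglyMeasurable (1 / 3)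
  filter_upwards with x
  rw [Real.norm_eq_abs]
  exact hg.bound x

lemma src_isProb {K : Set (E d)} {RK : ℝ≥0} (hK : IsBody K RK) {g : E d → ℝ} (hg : IsPert K g) :
    IsProbabilityMeasure (src K g) := by
  have hp := IsBody.isProb hK
  constructor
  unfold src
  rw [withDensity_apply _ MeasurableSet.univ, Measure.restrict_univ,
    ← ofReal_integral_eq_lintegral_ofReal (src_integrable_one_add hK hg)
      (Filter.Eventually.of_forall (src_one_add_nonneg hg)),
    integral_add (integrable_const _) (src_integrable_g hK hg), hg.mean]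
  simp

lemma integrable_src_iff {K : Set (E d)} {g : E d → ℝ} (hg : IsPert K g) (f : E d → ℝ) :
    Integrable f (src K g) ↔ Integrable f (unif K) := by
  unfold src
  rw [integrable_withDensity_iff_integrable_smul' (src_meas_dens hg)
    (Filter.Eventually.of_forall fun x => ENNReal.ofReal_lt_top)]
  have e : (fun x => (ENNReal.ofReal (1 + g x)).toReal • f x) = fun x => (1 + g x) * f x := by
    ext1 x
    rw [ENNReal.toReal_ofReal (src_one_add_nonneg hg x), smul_eq_mul]
  rw [e]
  constructor
  · intro h
    have h2 : Integrable (fun x => (1 + g x)⁻¹ * ((1 + g x) * f x)) (unif K) := by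
      have hmi : Measurable fun x => (1 + g x)⁻¹ := (src_meas_one_add hg).inv
      apply Integrable.bdd_mul h hmi.aestronglyMeasurable (c := 3 / 2)
      filter_upwards with x
      have := abs_le.mp (hg.bound x)
      have hpos : (2 / 3 : ℝ) ≤ 1 + g x := by linarith [this.1]
      have hpos' : (0 : ℝ) < 1 + g x := by linarith
      rw [Real.norm_eq_abs, abs_of_nonneg (inv_nonneg.mpr hpos'.le)]
      rw [inv_le_comm₀ hpos' (by norm_num)]
      norm_num
      linarith
    refine h2.congr (Filter.Eventually.of_forall fun x => ?_)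
    have := abs_le.mp (hg.bound x)
    have hpos : (0 : ℝ) < 1 + g x := by linarith [this.1]
    simp only
    field_simp
  · intro h
    apply Integrable.bdd_mul h (src_meas_one_add hg).aestronglyMeasurable (c := 4 / 3)
    filter_upwards with x
    have := abs_le.mp (hg.bound x)
    rw [Real.norm_eq_abs, abs_le]
    constructor <;> linarith [this.1, this.2]

lemma integrable_src_of_continuous {K : Set (E d)} {RK : ℝ≥0} (hK : IsBody K RK) {g : E d → ℝ}
    (hg : IsPert K g) {f : E d → ℝ} (hf : Continuous f) : Integrable f (src K g) := by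
  rw [integrable_src_iff hg]
  unfold unif
  apply Integrable.smul_measure _ (by simp [IsBody.volume_ne_zero hK])
  exact hf.continuousOn.integrableOn_compact hK.compact

lemma src_real_le {K : Set (E d)} {RK : ℝ≥0} (hK : IsBody K RK) {g : E d → ℝ} (hg : IsPert K g)
    {A : Set (E d)} (hA : MeasurableSet A) :
    (2 / 3 : ℝ) * (unif K).real A ≤ (src K g).real A ∧
      (src K g).real A ≤ (4 / 3 : ℝ) * (unif K).real A := by
  have hp := IsBody.isProb hK
  rw [src_real_apply hg hA]
  have hi := (src_integrable_one_add hK hg).integrableOn (s := A)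
  constructor
  · have : ∫ x in A, (2 / 3 : ℝ) ∂(unif K) ≤ ∫ x in A, (1 + g x) ∂(unif K) := by
      apply integral_mono (integrable_const _) hi
      intro x
      have := abs_le.mp (hg.bound x)
      simp only
      linarith [this.1]
    simpa [mul_comm] using this
  · have : ∫ x in A, (1 + g x) ∂(unif K) ≤ ∫ x in A, (4 / 3 : ℝ) ∂(unif K) := by
      apply integral_mono hi (integrable_const _)
      intro x
      have := abs_le.mp (hg.bound x)
      simp only
      linarith [this.2]
    simpa [mul_comm] using this

end Vale.Agent.Lib.P074.Third
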