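import Vale.Agent.Lib.P074.Third.CellsA
import Vale.Agent.Lib.P074.Third.Src

/-!
# P074 / Third: measure theoretic facts on the Laguerre cells and the map `cellMap`
-/

open MeasureTheory Set
open scoped ENNReal NNReal

namespace Vale.Agent.Lib.P074.Third

open Vale.Agent.Lib.P074

variable {d : ℕ} {ι : Type*} [Fintype ι]

/-- the cells tile `K` up to Lebesgue null sets: integrals split
(`integral_iUnion_ae` / `integral_finset_biUnion` with `AEDisjoint` from `volume_cell_inter`) -/
lemma integral_eq_sum_cell [Nonempty ι] {K : Set (E d)} (hK : MeasurableSet K)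
    {y : ι → E d} (hy : Function.Injective y)
    (a : ι → ℝ) (ρ : Measure (E d)) (hac : ρ ≪ volume) (hsupp : ρ Kᶜ = 0) (f : E d → ℝ)
    (hf : Integrable f ρ) : ∫ x, f x ∂ρ = ∑ i, ∫ x in cell K y a i, f x ∂ρ := by
  have h1 : ∫ x, f x ∂ρ = ∫ x in K, f x ∂ρ := by
    have hae : (K : Set (E d)) =ᵐ[ρ] (univ : Set (E d)) := by
      rw [ae_eq_univ]; exact hsupp
    rw [setIntegral_congr_set hae, setIntegral_univ]
  have h2 : ∫ x in K, f x ∂ρ = ∫ x in ⋃ i, cell K y a i, f x ∂ρ := by rw [iUnion_cell K y a]
  rw [h1, h2]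
  rw [integral_iUnion_ae (fun i => (measurableSet_cell hK y a i).nullMeasurableSet)
    (fun i j hij => hac (volume_cell_inter hy a hij)) hf.integrableOn, tsum_fintype]

lemma sum_real_cell [Nonempty ι] {K : Set (E d)} (hK : MeasurableSet K)
    {y : ι → E d} (hy : Function.Injective y)
    (a : ι → ℝ) (ρ : Measure (E d)) [IsProbabilityMeasure ρ] (hac : ρ ≪ volume) (hsupp : ρ Kᶜ = 0) :
    ∑ i, ρ.real (cell K y a i) = 1 := by
  have h := integral_eq_sum_cell hK hy a ρ hac hsupp (fun _ => (1 : ℝ)) (integrable_const _)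
  simp only [integral_const, smul_eq_mul, mul_one, measureReal_restrict_apply MeasurableSet.univ,
    univ_inter, probReal_univ] at h
  exact h.symm

lemma volume_cell_diff_scell {K : Set (E d)} {y : ι → E d} (hy : Function.Injective y) (a : ι → ℝ)
    (i : ι) : volume (cell K y a i \ scell y a i) = 0 := by
  have hsub : cell K y a i \ scell y a i ⊆
      ⋃ j, ⋃ (_ : i ≠ j), {x : E d | inner ℝ x (y j) - a j = inner ℝ x (y i) - a i} := by
    intro x hx
    have h2 : ¬ ∀ j, j ≠ i → inner ℝ x (y j) - a j < inner ℝ x (y i) - a i := hx.2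
    push Not at h2
    obtain ⟨j, hj, hle⟩ := h2
    simp only [mem_iUnion]
    exact ⟨j, hj.symm, le_antisymm (hx.1.2 j) hle⟩
  refine measure_mono_null hsub ?_
  rw [measure_iUnion_null_iff]
  intro j
  rw [measure_iUnion_null_iff]
  intro hij
  exact volume_tie hy a hij

lemma ae_exists_mem_scell [Nonempty ι] {y : ι → E d} (hy : Function.Injective y) (a : ι → ℝ) :
    ∀ᵐ x : E d, ∃ i, x ∈ scell y a i := by
  have hnull : volume (⋃ i, (cell (univ : Set (E d)) y a i \ scell y a i)) = 0 := by
    rw [measure_iUnion_null_iff]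
    intro i
    exact volume_cell_diff_scell hy a i
  rw [ae_iff]
  refine measure_mono_null ?_ hnull
  intro x hx
  have hx' : ¬ ∃ i, x ∈ scell y a i := hx
  have hmem : x ∈ ⋃ i, cell (univ : Set (E d)) y a i := by
    rw [iUnion_cell]; trivial
  obtain ⟨i, hi⟩ := mem_iUnion.mp hmem
  exact mem_iUnion.mpr ⟨i, hi, fun h => hx' ⟨i, h⟩⟩

lemma measurable_cellMap (y : ι → E d) (a : ι → ℝ) : Measurable (cellMap y a) := by
  unfold cellMap
  exact Finset.measurable_fun_sum _ fun i _ =>
    Measurable.indicator measurable_const (measurableSet_scell y a i)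

lemma cellMap_of_mem_scell {y : ι → E d} {a : ι → ℝ} {x : E d} {i : ι} (hx : x ∈ scell y a i) :
    cellMap y a x = y i := by
  unfold cellMap
  rw [Finset.sum_eq_single i]
  · exact indicator_of_mem hx _
  · intro j _ hj
    exact indicator_of_notMem (fun h => (Set.disjoint_left.mp (scell_disjoint y a hj) h hx)) _
  · intro h
    exact absurd (Finset.mem_univ i) h

lemma cellMap_subgradient_ae [Nonempty ι] {y : ι → E d} (hy : Function.Injective y) (a : ι → ℝ) :
    ∀ᵐ x : E d, ∀ z, pot y a x + inner ℝ (cellMap y a x) (z - x) ≤ pot y a z := by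
  filter_upwards [ae_exists_mem_scell hy a] with x hx z
  obtain ⟨i, hi⟩ := hx
  rw [cellMap_of_mem_scell hi]
  refine pot_subgradient (fun j => ?_) z
  by_cases h : j = i
  · rw [h]
  · exact (hi j h).le

/-- the strict cell and the closed cell have the same mass -/
lemma measure_scell_eq_cell {K : Set (E d)} {y : ι → E d}
    (hy : Function.Injective y) (a : ι → ℝ) (ρ : Measure (E d))
    (hac : ρ ≪ volume) (hsupp : ρ Kᶜ = 0) (i : ι) : ρ (scell y a i) = ρ (cell K y a i) := by
  apply measure_congr
  have h1 : ∀ᵐ x ∂ρ, x ∈ K := by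
    rw [ae_iff]; exact hsupp
  have h2 : ∀ᵐ x ∂ρ, x ∉ cell K y a i \ scell y a i := by
    rw [ae_iff]
    simp only [not_not]
    exact hac (volume_cell_diff_scell hy a i)
  filter_upwards [h1, h2] with x hx1 hx2
  apply propext
  constructor
  · intro h
    exact scell_inter_subset_cell K y a i ⟨hx1, h⟩
  · intro h
    by_contra hn
    exact hx2 ⟨h, hn⟩

/-- the image of the source under `cellMap` -/
lemma map_cellMap [Nonempty ι] {K : Set (E d)} (hK : MeasurableSet K) {y : ι → E d}
    (hy : Function.Injective y) (a : ι → ℝ) (ρ : Measure (E d)) [IsFiniteMeasure ρ]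
    (hac : ρ ≪ volume) (hsupp : ρ Kᶜ = 0) (m : ι → ℝ) (hm : ∀ i, ρ.real (cell K y a i) = m i) :
    ρ.map (cellMap y a) = discMeas m y := by
  ext S hS
  rw [Measure.map_apply (measurable_cellMap y a) hS]
  have hcov : (cellMap y a ⁻¹' S) =ᵐ[ρ] ⋃ i, (cellMap y a ⁻¹' S ∩ scell y a i) := by
    filter_upwards [hac.ae_le (ae_exists_mem_scell hy a)] with x hx
    obtain ⟨i, hi⟩ := hx
    apply propext
    constructor
    · intro h
      exact mem_iUnion.mpr ⟨i, h, hi⟩
    · intro h
      obtain ⟨j, hj⟩ := mem_iUnion.mp h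
      exact hj.1
  rw [measure_congr hcov, measure_iUnion
    (fun i j hij => (scell_disjoint y a hij).mono inter_subset_right inter_subset_right)
    (fun i => ((measurable_cellMap y a) hS).inter (measurableSet_scell y a i)), tsum_fintype]
  unfold discMeas
  rw [Measure.finsetSum_apply]
  refine Finset.sum_congr rfl fun i _ => ?_
  rw [Measure.smul_apply, Measure.dirac_apply' _ hS, smul_eq_mul, ← hm i, Measure.real,
    ENNReal.ofReal_toReal (measure_ne_top ρ _), ← measure_scell_eq_cell hy a ρ hac hsupp i]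
  by_cases hyS : y i ∈ S
  · rw [indicator_of_mem hyS, Pi.one_apply, mul_one]
    congr 1
    ext x
    constructor
    · intro h; exact h.2
    · intro h
      refine ⟨?_, h⟩
      rw [mem_preimage, cellMap_of_mem_scell h]
      exact hyS
  · rw [indicator_of_notMem hyS, mul_zero]
    have : cellMap y a ⁻¹' S ∩ scell y a i = ∅ := by
      ext x
      simp only [mem_inter_iff, mem_preimage, mem_empty_iff_false, iff_false, not_and]
      intro h1 h2
      rw [cellMap_of_mem_scell h2] at h1
      exact hyS h1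
    rw [this, measure_empty]

end Vale.Agent.Lib.P074.Third
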