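import Vale.Agent.Lib.P074.Third.Defs

/-!
# P074 / Third: discretisation of a coupling
-/

open MeasureTheory Set Metric
open scoped ENNReal NNReal

namespace Vale.Agent.Lib.P074.Third

open Vale.Agent.Lib.P074

variable {d : ℕ}

/-- auxiliary: greedy Borel selection from a finite set of centres -/
private lemma exists_greedy (c0 : E d) (ε : ℝ) (F : Finset (E d)) :
    ∃ r : E d → E d, Measurable r ∧ (∀ y, r y ∈ insert c0 F) ∧
      ∀ y, (∃ c ∈ F, y ∈ ball c ε) → ‖r y - y‖ ≤ ε := by
  classical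
  induction F using Finset.induction_on with
  | empty =>
    refine ⟨fun _ => c0, measurable_const, fun y => by simp, ?_⟩
    rintro y ⟨c, hc, -⟩
    simp at hc
  | insert a F _ ih =>
    obtain ⟨r, hr, hrF, hrε⟩ := ih
    refine ⟨fun y => if y ∈ ball a ε then a else r y, ?_, ?_, ?_⟩
    · exact Measurable.ite isOpen_ball.measurableSet measurable_const hr
    · intro y
      by_cases h : y ∈ ball a ε
      · simp [h]
      · simp only [h, if_false]
        have := hrF y
        simp only [Finset.mem_insert] at this ⊢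
        tauto
    · rintro y ⟨c, hc, hy⟩
      by_cases h : y ∈ ball a ε
      · simp only [h, if_true]
        rw [mem_ball, dist_eq_norm, norm_sub_rev] at h
        exact h.le
      · simp only [h, if_false]
        apply hrε
        rcases Finset.mem_insert.mp hc with rfl | hc
        · exact absurd hy h
        · exact ⟨c, hc, hy⟩

/-- a Borel projection of the compact set `Y` onto a finite `ε`-net of `Y`.
Plan: finite cover of `Y` by balls `ball (c j) ε`, `c j ∈ Y`, `j : Fin (n+1)` (`IsCompact.finite_cover_balls` /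
`hY.elim_finite_subcover`); `r y = c j` for the least `j` with `y ∈ ball (c j) ε`, and `r y = c 0` if there is none
(e.g. define by recursion / `Finset.min'` / nested `if`; measurability: `r` is a finite sum or `Measurable.ite`). -/
theorem exists_net_proj {Y : Set (E d)} (hY : IsCompact Y) (hYne : Y.Nonempty) {ε : ℝ}
    (hε : 0 < ε) :
    ∃ (r : E d → E d) (F : Finset (E d)), Measurable r ∧ (∀ y, r y ∈ F) ∧ (↑F ⊆ Y) ∧
      ∀ y ∈ Y, ‖r y - y‖ ≤ ε := by
  classical
  obtain ⟨c0, hc0⟩ := hYne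
  obtain ⟨t, htY, htf, hcov⟩ := hY.finite_cover_balls hε
  obtain ⟨r, hr, hrF, hrε⟩ := exists_greedy c0 ε htf.toFinset
  refine ⟨r, insert c0 htf.toFinset, hr, hrF, ?_, ?_⟩
  · intro x hx
    simp only [Finset.coe_insert, Finite.coe_toFinset, mem_insert_iff] at hx
    rcases hx with rfl | hx
    · exact hc0
    · exact htY hx
  · intro y hy
    apply hrε
    have := hcov hy
    simp only [mem_iUnion, exists_prop] at this
    obtain ⟨c, hc, hyc⟩ := this
    exact ⟨c, by simpa using hc, hyc⟩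

/-- the image of a finite measure under a measurable map with values in a finite set -/
theorem map_eq_sum_dirac {α β : Type*} [MeasurableSpace α] [MeasurableSpace β]
    [MeasurableSingletonClass β] (m : Measure α) (R : α → β) (hR : Measurable R) (F : Finset β)
    (hF : ∀ x, R x ∈ F) : m.map R = ∑ p ∈ F, m (R ⁻¹' {p}) • Measure.dirac p := by
  classical
  ext s hs
  rw [Measure.map_apply hR hs, Measure.finsetSum_apply]
  simp only [Measure.smul_apply, Measure.dirac_apply' _ hs, smul_eq_mul]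
  have hset : R ⁻¹' s = ⋃ p ∈ F.filter (· ∈ s), R ⁻¹' {p} := by
    ext x
    simp only [mem_preimage, Finset.mem_filter, mem_iUnion, mem_singleton_iff, exists_prop]
    constructor
    · intro hx
      exact ⟨R x, ⟨hF x, hx⟩, rfl⟩
    · rintro ⟨p, ⟨-, hp⟩, rfl⟩
      exact hp
  rw [hset, measure_biUnion_finset]
  · rw [Finset.sum_filter]
    apply Finset.sum_congr rfl
    intro p _
    by_cases hp : p ∈ s <;> simp [hp]
  · intro p _ q _ hpq
    apply Disjoint.preimage
    simpa using hpq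
  · intro p _
    exact hR (measurableSet_singleton p)

/-- `W_1 (μ.map r, μ) ≤ ε` if `r` moves `μ`-almost every point by at most `ε`
(coupling `μ.map (fun y => (r y, y))`) -/
theorem W1_map_le (μ : Measure (E d)) [IsProbabilityMeasure μ] {r : E d → E d} (hr : Measurable r)
    {ε : ℝ} (hε : 0 ≤ ε) (h : ∀ᵐ y ∂μ, ‖r y - y‖ ≤ ε) : W1 (μ.map r) μ ≤ ENNReal.ofReal ε := by
  have hm : Measurable (fun y : E d => (r y, y)) := hr.prodMk measurable_id
  have hc : (μ.map (fun y => (r y, y))).map Prod.fst = μ.map r ∧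
      (μ.map (fun y => (r y, y))).map Prod.snd = μ := by
    constructor
    · rw [Measure.map_map measurable_fst hm]; rfl
    · rw [Measure.map_map measurable_snd hm]
      exact Measure.map_id
  have h1 : W1 (μ.map r) μ ≤ ∫⁻ p, enorm (p.1 - p.2) ∂(μ.map (fun y => (r y, y))) :=
    iInf_le (fun π : {π : Measure (E d × E d) // π.map Prod.fst = μ.map r ∧ π.map Prod.snd = μ} =>
      ∫⁻ p, enorm (p.1 - p.2) ∂π.1) ⟨_, hc⟩
  refine h1.trans ?_
  have hmeas : Measurable (fun p : E d × E d => enorm (p.1 - p.2)) := by fun_prop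
  rw [lintegral_map hmeas hm]
  calc ∫⁻ y, enorm (r y - y) ∂μ ≤ ∫⁻ _, ENNReal.ofReal ε ∂μ := by
        apply lintegral_mono_ae
        filter_upwards [h] with y hy
        rw [← ofReal_norm]
        exact ENNReal.ofReal_le_ofReal hy
    _ = ENNReal.ofReal ε := by simp

/-- elementary inequality behind the discretisation of the cost -/
private lemma sq_le_aux {a b ε : ℝ} (h : a ≤ b + 2 * ε) (ha : 0 ≤ a) :
    a ^ 2 ≤ 2 * b ^ 2 + 8 * ε ^ 2 := by
  have h1 : a ^ 2 ≤ (b + 2 * ε) ^ 2 := by
    apply pow_le_pow_left₀ ha h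
  nlinarith [sq_nonneg (b - 2 * ε)]

/-- **Discretisation of a coupling.** With `r, F` from `exists_net_proj`, `R = Prod.map r r`,
`I = {p ∈ F ×ˢ F // 0 < π0 (R ⁻¹' {p})}`, `π i = (π0 (R ⁻¹' {i})).toReal`, `y i = i.1.1`, `z i = i.1.2`:
`discMeas π y = (π0.map R).map Prod.fst = μ.map r` (`map_eq_sum_dirac`, `Measure.map_map`), same for `z`;
`∑ π_i |y_i - z_i|^2 = ∫ |r p.1 - r p.2|^2 dπ0 ≤ ∫ (2 |p.1 - p.2|^2 + 8 ε^2) dπ0`
since `π0`-a.e. `p ∈ Y × Y` and `|r a - r b| ≤ |a - b| + 2 ε`. -/
theorem discretise {Y : Set (E d)} (hY : IsCompact Y) (hYne : Y.Nonempty) {M : ℝ≥0}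
    (hYM : ∀ y ∈ Y, ‖y‖ ≤ M) (μ ν : Measure (E d)) [IsProbabilityMeasure μ]
    [IsProbabilityMeasure ν] (hμ : μ Yᶜ = 0) (hν : ν Yᶜ = 0) (π0 : Measure (E d × E d))
    (h1 : π0.map Prod.fst = μ) (h2 : π0.map Prod.snd = ν) {ε : ℝ} (hε : 0 < ε) :
    ∃ (I : Type) (_ : Fintype I) (_ : Nonempty I) (π : I → ℝ) (y z : I → E d),
      (∀ i, 0 < π i) ∧ ∑ i, π i = 1 ∧ (∀ i, ‖y i‖ ≤ M) ∧ (∀ i, ‖z i‖ ≤ M) ∧
      W1 (discMeas π y) μ ≤ ENNReal.ofReal ε ∧ W1 (discMeas π z) ν ≤ ENNReal.ofReal ε ∧
      ∑ i, π i * ‖y i - z i‖ ^ 2 ≤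
        2 * (∫⁻ p, ‖p.1 - p.2‖ₑ ^ 2 ∂π0).toReal + 8 * ε ^ 2 := by
  classical
  obtain ⟨r, F, hr, hrF, hFY, hrε⟩ := exists_net_proj hY hYne hε
  have hπ0 : IsProbabilityMeasure π0 := by
    constructor
    have : μ univ = 1 := measure_univ
    rw [← h1, Measure.map_apply measurable_fst MeasurableSet.univ] at this
    simpa using this
  have hYm : MeasurableSet Yᶜ := hY.isClosed.measurableSet.compl
  -- a.e. statements
  have hμY : ∀ᵐ y ∂μ, y ∈ Y := by
    have := measure_eq_zero_iff_ae_notMem.mp hμ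
    filter_upwards [this] with y hy
    simpa using hy
  have hνY : ∀ᵐ y ∂ν, y ∈ Y := by
    have := measure_eq_zero_iff_ae_notMem.mp hν
    filter_upwards [this] with y hy
    simpa using hy
  have hπ1 : ∀ᵐ p ∂π0, p.1 ∈ Y := by
    rw [← h1] at hμY
    exact ae_of_ae_map measurable_fst.aemeasurable hμY
  have hπ2 : ∀ᵐ p ∂π0, p.2 ∈ Y := by
    rw [← h2] at hνY
    exact ae_of_ae_map measurable_snd.aemeasurable hνY
  set R : E d × E d → E d × E d := Prod.map r r with hRdef
  have hR : Measurable R := hr.prodMap hr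
  set w : E d × E d → ℝ≥0∞ := fun p => π0 (R ⁻¹' {p}) with hw
  have hwfin : ∀ p, w p ≠ ∞ := fun p => measure_ne_top _ _
  set G : Finset (E d × E d) := (F ×ˢ F).filter (fun p => 0 < w p) with hG
  have hRF : ∀ x, R x ∈ F ×ˢ F := fun x => by
    simp only [hRdef, Prod.map, Finset.mem_product]
    exact ⟨hrF _, hrF _⟩
  have hmapR : π0.map R = ∑ p ∈ G, w p • Measure.dirac p := by
    rw [map_eq_sum_dirac π0 R hR (F ×ˢ F) hRF, hG, Finset.sum_filter]
    apply Finset.sum_congr rfl
    intro p _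
    by_cases hp : 0 < w p
    · simp only [hp, if_true]
      rfl
    · have : w p = 0 := by simpa using hp
      simp only [hp, if_false]
      rw [show π0 (R ⁻¹' {p}) = 0 from this, zero_smul]
  have hsumw : ∑ p ∈ G, w p = 1 := by
    have hprob : (π0.map R) univ = 1 := by
      rw [Measure.map_apply hR MeasurableSet.univ]; simp
    rw [hmapR, Measure.finsetSum_apply] at hprob
    simpa using hprob
  have hGne : G.Nonempty := by
    by_contra hcon
    rw [Finset.not_nonempty_iff_eq_empty] at hcon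
    rw [hcon] at hsumw
    simp at hsumw
  -- identification of the discrete measures
  have hdisc : ∀ (g : E d × E d → E d), Measurable g →
      discMeas (fun i : G => (w i.1).toReal) (fun i : G => g i.1) = (π0.map R).map g := by
    intro g hg
    unfold discMeas
    rw [hmapR]
    ext s hs
    rw [Measure.map_apply hg hs, Measure.finsetSum_apply, Measure.finsetSum_apply]
    rw [← Finset.sum_coe_sort G]
    apply Finset.sum_congr rfl
    intro i _
    rw [Measure.smul_apply, Measure.smul_apply, ENNReal.ofReal_toReal (hwfin _),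
      Measure.dirac_apply' _ hs, Measure.dirac_apply' _ (hg hs)]
    rfl
  have hy : discMeas (fun i : G => (w i.1).toReal) (fun i : G => i.1.1) = μ.map r := by
    rw [hdisc Prod.fst measurable_fst, Measure.map_map measurable_fst hR, ← h1,
      Measure.map_map hr measurable_fst]
    rfl
  have hz : discMeas (fun i : G => (w i.1).toReal) (fun i : G => i.1.2) = ν.map r := by
    rw [hdisc Prod.snd measurable_snd, Measure.map_map measurable_snd hR, ← h2,
      Measure.map_map hr measurable_snd]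
    rfl
  have hGF : ∀ i : G, i.1.1 ∈ F ∧ i.1.2 ∈ F := by
    intro i
    have := (Finset.mem_filter.mp i.2).1
    rwa [Finset.mem_product] at this
  refine ⟨G, inferInstance, hGne.coe_sort, fun i => (w i.1).toReal, fun i => i.1.1,
    fun i => i.1.2, ?_, ?_, ?_, ?_, ?_, ?_, ?_⟩
  · intro i
    have := (Finset.mem_filter.mp i.2).2
    exact ENNReal.toReal_pos this.ne' (hwfin _)
  · rw [← ENNReal.toReal_sum (fun i _ => hwfin _), Finset.sum_coe_sort G (fun p => w p), hsumw]
    simp
  · intro i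
    exact hYM _ (hFY (hGF i).1)
  · intro i
    exact hYM _ (hFY (hGF i).2)
  · rw [hy]
    apply W1_map_le μ hr hε.le
    filter_upwards [hμY] with y hy using hrε y hy
  · rw [hz]
    apply W1_map_le ν hr hε.le
    filter_upwards [hνY] with y hy using hrε y hy
  · -- the cost
    have hmeas : Measurable (fun p : E d × E d => ‖p.1 - p.2‖ₑ ^ 2) := by fun_prop
    have hfin : ∫⁻ p, ‖p.1 - p.2‖ₑ ^ 2 ∂π0 ≠ ∞ := by
      have : ∫⁻ p, ‖p.1 - p.2‖ₑ ^ 2 ∂π0 ≤ ∫⁻ _, ENNReal.ofReal ((2 * M) ^ 2) ∂π0 := by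
        apply lintegral_mono_ae
        filter_upwards [hπ1, hπ2] with p hp1 hp2
        rw [← ofReal_norm, ← ENNReal.ofReal_pow (norm_nonneg _)]
        apply ENNReal.ofReal_le_ofReal
        apply pow_le_pow_left₀ (norm_nonneg _)
        calc ‖p.1 - p.2‖ ≤ ‖p.1‖ + ‖p.2‖ := norm_sub_le _ _
          _ ≤ 2 * M := by linarith [hYM _ hp1, hYM _ hp2]
      refine ne_top_of_le_ne_top ?_ this
      rw [lintegral_const, measure_univ, mul_one]
      exact ENNReal.ofReal_ne_top
    have hcost : ENNReal.ofReal (∑ i : G, (w i.1).toReal * ‖i.1.1 - i.1.2‖ ^ 2) =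
        ∫⁻ p, ‖p.1 - p.2‖ₑ ^ 2 ∂(π0.map R) := by
      rw [hmapR, lintegral_finsetSum_measure, ENNReal.ofReal_sum_of_nonneg
        (fun i _ => by positivity), ← Finset.sum_coe_sort G]
      apply Finset.sum_congr rfl
      intro i _
      rw [lintegral_smul_measure, lintegral_dirac' _ hmeas, ENNReal.ofReal_mul ENNReal.toReal_nonneg,
        ENNReal.ofReal_toReal (hwfin _), ENNReal.ofReal_pow (norm_nonneg _), ofReal_norm]
      rfl
    have hle : ∫⁻ p, ‖p.1 - p.2‖ₑ ^ 2 ∂(π0.map R) ≤
        2 * ∫⁻ p, ‖p.1 - p.2‖ₑ ^ 2 ∂π0 + ENNReal.ofReal (8 * ε ^ 2) := by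
      rw [lintegral_map hmeas hR]
      calc ∫⁻ p, ‖(R p).1 - (R p).2‖ₑ ^ 2 ∂π0
          ≤ ∫⁻ p, (2 * ‖p.1 - p.2‖ₑ ^ 2 + ENNReal.ofReal (8 * ε ^ 2)) ∂π0 := by
            apply lintegral_mono_ae
            filter_upwards [hπ1, hπ2] with p hp1 hp2
            have e1 := hrε _ hp1
            have e2 := hrε _ hp2
            have e3 : ‖r p.1 - r p.2‖ ≤ ‖p.1 - p.2‖ + 2 * ε := by
              have : r p.1 - r p.2 = (r p.1 - p.1) + (p.1 - p.2) - (r p.2 - p.2) := by abel
              rw [this]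
              calc ‖(r p.1 - p.1) + (p.1 - p.2) - (r p.2 - p.2)‖
                  ≤ ‖(r p.1 - p.1) + (p.1 - p.2)‖ + ‖r p.2 - p.2‖ := norm_sub_le _ _
                _ ≤ ‖r p.1 - p.1‖ + ‖p.1 - p.2‖ + ‖r p.2 - p.2‖ := by
                    gcongr; exact norm_add_le _ _
                _ ≤ _ := by linarith
            have e4 := sq_le_aux e3 (norm_nonneg _)
            have : (R p).1 - (R p).2 = r p.1 - r p.2 := rfl
            rw [this, ← ofReal_norm, ← ofReal_norm, ← ENNReal.ofReal_pow (norm_nonneg _),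
              ← ENNReal.ofReal_pow (norm_nonneg _)]
            have e5 : (2 : ℝ≥0∞) * ENNReal.ofReal (‖p.1 - p.2‖ ^ 2) + ENNReal.ofReal (8 * ε ^ 2) =
                ENNReal.ofReal (2 * ‖p.1 - p.2‖ ^ 2 + 8 * ε ^ 2) := by
              rw [ENNReal.ofReal_add (by positivity) (by positivity),
                ENNReal.ofReal_mul (by norm_num)]
              simp
            rw [e5]
            exact ENNReal.ofReal_le_ofReal e4
        _ = _ := by
            rw [lintegral_add_right _ measurable_const, lintegral_const_mul _ hmeas]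
            simp
    have hnn : 0 ≤ ∑ i : G, (w i.1).toReal * ‖i.1.1 - i.1.2‖ ^ 2 :=
      Finset.sum_nonneg (fun i _ => by positivity)
    rw [← hcost] at hle
    have := ENNReal.toReal_mono (by
      apply ENNReal.add_ne_top.mpr
      exact ⟨ENNReal.mul_ne_top (by simp) hfin, ENNReal.ofReal_ne_top⟩) hle
    rw [ENNReal.toReal_ofReal hnn, ENNReal.toReal_add (ENNReal.mul_ne_top (by simp) hfin)
      ENNReal.ofReal_ne_top, ENNReal.toReal_mul, ENNReal.toReal_ofReal (by positivity)] at this
    simpa using this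

end Vale.Agent.Lib.P074.Third
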