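import Vale.Agent.Lib.P074.Third.W1Pert

/-!
# P074 / Third: error terms controlled by the landed `W_1^(1/4)` stability theorem
-/

open MeasureTheory Set Metric
open scoped ENNReal NNReal

namespace Vale.Agent.Lib.P074.Third

open Vale.Agent.Lib.P074

variable {d : ℕ}

/-- a.e. bound of a Brenier type map whose potential is `M`-Lipschitz: test the subgradient inequality with
`z = x + T x`: `|T x|^2 ≤ φ (x + T x) - φ x ≤ M |T x|`. -/
lemma IsBr.ae_bound {K : Set (E d)} {M : ℝ≥0} {g : E d → ℝ} {μ : Measure (E d)} {φ : E d → ℝ}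
    {T : E d → E d} (h : IsBr K M g μ φ T) : ∀ᵐ x ∂(unif K), ‖T x‖ ≤ M := by
  filter_upwards [h.sub] with x hx
  have h1 := hx (x + T x)
  rw [add_sub_cancel_left, real_inner_self_eq_norm_sq] at h1
  have h2 : φ (x + T x) - φ x ≤ M * ‖T x‖ := by
    have h3 := h.lip.dist_le_mul (x + T x) x
    rw [Real.dist_eq, dist_eq_norm, add_sub_cancel_left] at h3
    exact (le_abs_self _).trans h3
  have h4 : ‖T x‖ ^ 2 ≤ M * ‖T x‖ := by linarith
  by_contra hcon
  have h5 : (M : ℝ) < ‖T x‖ := not_le.mp hcon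
  have h6 : 0 < ‖T x‖ := lt_of_le_of_lt M.2 h5
  nlinarith

/-- real form of `stability_of_potentials` (`L^1 ≤ L^2` on a probability space:
`eLpNorm_le_eLpNorm_of_exponent_le`, `eLpNorm_one_eq_lintegral_enorm`, `integral_norm_eq_lintegral_enorm`) -/
theorem stab_real {K : Set (E d)} {RK M : ℝ≥0} (hK : IsBody K RK) {φ φ' : E d → ℝ}
    {T T' : E d → E d} (hc : ConvexOn ℝ univ φ) (hl : LipschitzWith M φ)
    (hl' : LipschitzWith M φ') (hT : Measurable T) (hT' : Measurable T')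
    (hb : ∀ᵐ x ∂(unif K), ‖T x‖ ≤ M) (hb' : ∀ᵐ x ∂(unif K), ‖T' x‖ ≤ M)
    (hs : ∀ᵐ x ∂(unif K), ∀ z, φ x + inner ℝ (T x) (z - x) ≤ φ z)
    (hs' : ∀ᵐ x ∂(unif K), ∀ z, φ' x + inner ℝ (T' x) (z - x) ≤ φ' z) {w : ℝ} (hw : 0 ≤ w)
    (hW : W1 ((unif K).map T) ((unif K).map T') ≤ ENNReal.ofReal w) :
    ∫ x, ‖T x - T' x‖ ∂(unif K) ≤ stabConst K RK M * w ^ (1 / 4 : ℝ) := by
  have hprob := hK.isProb
  have hmeas : AEStronglyMeasurable (fun x => T x - T' x) (unif K) :=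
    (hT.sub hT').aestronglyMeasurable
  have h1 := stability_of_potentials hK.compact hK.volume_ne_zero hK.bound hT hT' hb hb' hc hl hl'
    hs hs'
  have h2 : eLpNorm (fun x => T x - T' x) 1 (unif K) ≤ eLpNorm (fun x => T x - T' x) 2 (unif K) :=
    eLpNorm_le_eLpNorm_of_exponent_le (by norm_num) hmeas
  have h3 : (stabConst K RK M : ℝ≥0∞) * W1 ((unif K).map T) ((unif K).map T') ^ (1 / 4 : ℝ)
      ≤ ENNReal.ofReal (stabConst K RK M * w ^ (1 / 4 : ℝ)) := by
    rw [ENNReal.ofReal_mul (NNReal.coe_nonneg _), ENNReal.ofReal_coe_nnreal,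
      ← ENNReal.ofReal_rpow_of_nonneg hw (by norm_num)]
    gcongr
  rw [integral_norm_eq_lintegral_enorm hmeas, ← eLpNorm_one_eq_lintegral_enorm]
  exact ENNReal.toReal_le_of_le_ofReal (by positivity) (h2.trans (h1.trans h3))

/-- error term -/
theorem err_le {K : Set (E d)} {RK M : ℝ≥0} (hK : IsBody K RK) {T T' : E d → E d}
    (hT : Measurable T) (hT' : Measurable T')
    (hb : ∀ᵐ x ∂(unif K), ‖T x‖ ≤ M) (hb' : ∀ᵐ x ∂(unif K), ‖T' x‖ ≤ M)
    (q : E d → ℝ) (hqm : Measurable q) {Q : ℝ} (hq0 : ∀ x, 0 ≤ q x) (hqQ : ∀ x, q x ≤ Q)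
    (v : E d) :
    |∫ x, q x * inner ℝ v (T x - T' x) ∂(unif K)| ≤ Q * ‖v‖ * ∫ x, ‖T x - T' x‖ ∂(unif K) := by
  have hprob := hK.isProb
  have hQ0 : 0 ≤ Q := (hq0 0).trans (hqQ 0)
  have hint : Integrable (fun x => ‖T x - T' x‖) (unif K) := by
    refine Integrable.of_bound (hT.sub hT').norm.aestronglyMeasurable (M + M) ?_
    filter_upwards [hb, hb'] with x h1 h2
    rw [norm_norm]
    exact (norm_sub_le _ _).trans (add_le_add h1 h2)
  rw [← Real.norm_eq_abs, ← integral_const_mul]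
  refine (norm_integral_le_integral_norm _).trans ?_
  refine integral_mono_of_nonneg (Filter.Eventually.of_forall fun x => norm_nonneg _)
    (hint.const_mul _) (Filter.Eventually.of_forall fun x => ?_)
  simp only
  rw [norm_mul, Real.norm_eq_abs, abs_of_nonneg (hq0 x), mul_assoc]
  exact mul_le_mul (hqQ x) (norm_inner_le_norm _ _) (norm_nonneg _) hQ0

end Vale.Agent.Lib.P074.Third
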