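import Vale.Agent.Lib.P074.Third.Src

/-!
# P074 / Third: the translation (Gagliardo-Nirenberg type) step
-/

open MeasureTheory Set Metric
open scoped ENNReal NNReal

namespace Vale.Agent.Lib.P074.Third

open Vale.Agent.Lib.P074

variable {d : ℕ}

/-- the constant of the second difference estimate `integral_unif_secDiff_le` -/
noncomputable def secC (K : Set (E d)) (RK M : ℝ≥0) : ℝ :=
  (volume K).toReal⁻¹ * (M * (volume (closedBall (0 : E d) (RK + 2))).toReal)

lemma secC_nonneg (K : Set (E d)) (RK M : ℝ≥0) : 0 ≤ secC K RK M := by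
  unfold secC; positivity

/-- translation invariance: if `q` vanishes off `K` and `q (· - v)` vanishes off `K` then
`∫ q(x) u(x+v) dρ = ∫ q(x-v) u(x) dρ` (write both as integrals over the whole space with
`integral_unif`, `setIntegral_eq_integral_of_forall_compl_eq_zero`, then `integral_add_right_eq_self` / `integral_sub_right_eq_self`) -/
lemma integral_shift {K : Set (E d)} (q u : E d → ℝ) (v : E d) (hqK : ∀ x, x ∉ K → q x = 0)
    (hqv : ∀ x, x ∉ K → q (x - v) = 0) :
    ∫ x, q x * u (x + v) ∂(unif K) = ∫ x, q (x - v) * u x ∂(unif K) := by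
  rw [integral_unif, integral_unif]
  congr 1
  rw [setIntegral_eq_integral_of_forall_compl_eq_zero (fun x hx => by rw [hqK x hx, zero_mul]),
    setIntegral_eq_integral_of_forall_compl_eq_zero (fun x hx => by rw [hqv x hx, zero_mul])]
  rw [← integral_sub_right_eq_self (fun x => q x * u (x + v)) v]
  simp only [sub_add_cancel]

/-- a measurable function which is a.e. bounded is integrable against `unif K` -/
lemma integrable_unif_of_ae_bdd {K : Set (E d)} {RK : ℝ≥0} (hK : IsBody K RK) {f : E d → ℝ}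
    (hf : Measurable f) (C : ℝ) (hC : ∀ᵐ x ∂(unif K), |f x| ≤ C) : Integrable f (unif K) := by
  have := hK.isProb
  exact Integrable.of_bound hf.aestronglyMeasurable C
    (hC.mono fun x hx => by rw [Real.norm_eq_abs]; exact hx)

/-- product of a bounded measurable function and a continuous function is integrable -/
lemma integrable_unif_mul_continuous {K : Set (E d)} {RK : ℝ≥0} (hK : IsBody K RK)
    {q w : E d → ℝ} (hqm : Measurable q) {Q : ℝ} (hq0 : ∀ x, 0 ≤ q x) (hqQ : ∀ x, q x ≤ Q)
    (hw : Continuous w) : Integrable (fun x => q x * w x) (unif K) := by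
  obtain ⟨C, hC⟩ := hK.compact.exists_bound_of_continuousOn hw.continuousOn
  refine integrable_unif_of_ae_bdd hK (hqm.mul hw.measurable) (Q * C) ?_
  filter_upwards [ae_unif_mem_of_compact hK.compact] with x hx
  have h1 := hC x hx
  rw [Real.norm_eq_abs] at h1
  rw [abs_mul, abs_of_nonneg (hq0 x)]
  exact mul_le_mul (hqQ x) h1 (abs_nonneg _) ((hq0 x).trans (hqQ x))

/-- **Translation step.** Pointwise, at every `x` where both subgradient inequalities hold,
`<v, T1 x> ≤ φ1 (x+v) - φ1 x` and `-<v, T0 x> ≤ φ0 (x-v) - φ0 x`, hence with `u = φ1 - φ0`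
`<v, T1 x - T0 x> ≤ u (x+v) - u x + secDiff φ0 v x`. Multiply by `0 ≤ q ≤ Q`, integrate, use `integral_shift`,
`secDiff_nonneg` and `integral_unif_secDiff_le`. All integrands are bounded measurable on the probability space `unif K`
(`φ`'s are continuous, `K` is compact; `T`'s are a.e. bounded by `M`). -/
theorem gn_step {K : Set (E d)} {RK M : ℝ≥0} (hK : IsBody K RK) {φ1 φ0 : E d → ℝ}
    {T1 T0 : E d → E d} (hc0 : ConvexOn ℝ univ φ0) (hl0 : LipschitzWith M φ0)
    (hl1 : LipschitzWith M φ1) (hT1 : Measurable T1) (hT0 : Measurable T0)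
    (hb1 : ∀ᵐ x ∂(unif K), ‖T1 x‖ ≤ M) (hb0 : ∀ᵐ x ∂(unif K), ‖T0 x‖ ≤ M)
    (hs1 : ∀ᵐ x ∂(unif K), ∀ z, φ1 x + inner ℝ (T1 x) (z - x) ≤ φ1 z)
    (hs0 : ∀ᵐ x ∂(unif K), ∀ z, φ0 x + inner ℝ (T0 x) (z - x) ≤ φ0 z)
    (q : E d → ℝ) (hqm : Measurable q) {Q : ℝ} (hq0 : ∀ x, 0 ≤ q x) (hqQ : ∀ x, q x ≤ Q)
    (v : E d) (hv : ‖v‖ ≤ 1) (hqK : ∀ x, x ∉ K → q x = 0) (hqv : ∀ x, x ∉ K → q (x - v) = 0) :
    ∫ x, q x * inner ℝ v (T1 x - T0 x) ∂(unif K) ≤
      ∫ x, (φ1 x - φ0 x) * (q (x - v) - q x) ∂(unif K) + Q * secC K RK M * ‖v‖ ^ 2 := by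
  have hprob := hK.isProb
  have hQ0 : 0 ≤ Q := (hq0 0).trans (hqQ 0)
  set u : E d → ℝ := fun x => φ1 x - φ0 x with hu
  have huc : Continuous u := hl1.continuous.sub hl0.continuous
  have hqvm : Measurable (fun x => q (x - v)) := hqm.comp (measurable_id.sub_const v)
  -- integrability
  have i1 : Integrable (fun x => q x * u (x + v)) (unif K) :=
    integrable_unif_mul_continuous hK hqm hq0 hqQ (huc.comp (continuous_id.add continuous_const))
  have i2 : Integrable (fun x => q x * u x) (unif K) :=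
    integrable_unif_mul_continuous hK hqm hq0 hqQ huc
  have i3 : Integrable (fun x => q (x - v) * u x) (unif K) :=
    integrable_unif_mul_continuous hK hqvm (fun x => hq0 _) (fun x => hqQ _) huc
  have i4 : Integrable (fun x => secDiff φ0 v x) (unif K) :=
    integrable_unif_of_ae_bdd hK (continuous_secDiff hl0.continuous v).measurable (2 * M * ‖v‖)
      (Filter.Eventually.of_forall fun x => secDiff_abs_le hl0 v x)
  have i0 : Integrable (fun x => q x * inner ℝ v (T1 x - T0 x)) (unif K) := by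
    refine integrable_unif_of_ae_bdd hK
      (hqm.mul (measurable_const.inner (hT1.sub hT0))) (Q * (‖v‖ * (M + M))) ?_
    filter_upwards [hb1, hb0] with x h1 h0
    rw [abs_mul, abs_of_nonneg (hq0 x)]
    refine mul_le_mul (hqQ x) ?_ (abs_nonneg _) hQ0
    calc |inner ℝ v (T1 x - T0 x)| ≤ ‖v‖ * ‖T1 x - T0 x‖ := abs_real_inner_le_norm _ _
      _ ≤ ‖v‖ * (M + M) :=
        mul_le_mul_of_nonneg_left ((norm_sub_le _ _).trans (add_le_add h1 h0)) (norm_nonneg _)
  -- pointwise inequality
  have hpt : ∀ᵐ x ∂(unif K), q x * inner ℝ v (T1 x - T0 x) ≤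
      q x * u (x + v) - q x * u x + Q * secDiff φ0 v x := by
    filter_upwards [hs1, hs0] with x h1 h0
    have a1 := h1 (x + v)
    have a0 := h0 (x - v)
    rw [add_sub_cancel_left] at a1
    rw [sub_sub_cancel_left, inner_neg_right] at a0
    have hin : inner ℝ v (T1 x - T0 x) = inner ℝ (T1 x) v - inner ℝ (T0 x) v := by
      rw [inner_sub_right, real_inner_comm, real_inner_comm (T0 x) v]
    have hsd := secDiff_nonneg hc0 v x
    have hle : inner ℝ v (T1 x - T0 x) ≤ u (x + v) - u x + secDiff φ0 v x := by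
      rw [hin]
      simp only [hu, secDiff]
      linarith
    calc q x * inner ℝ v (T1 x - T0 x) ≤ q x * (u (x + v) - u x + secDiff φ0 v x) :=
          mul_le_mul_of_nonneg_left hle (hq0 x)
      _ = q x * u (x + v) - q x * u x + q x * secDiff φ0 v x := by ring
      _ ≤ q x * u (x + v) - q x * u x + Q * secDiff φ0 v x := by
          have := mul_le_mul_of_nonneg_right (hqQ x) hsd
          linarith
  have hint := integral_mono_ae i0 ((i1.sub i2).add (i4.const_mul Q)) hpt
  rw [integral_add' (i1.sub i2) (i4.const_mul Q), integral_sub' i1 i2, integral_const_mul,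
    integral_shift q u v hqK hqv] at hint
  have hS := integral_unif_secDiff_le hK.compact hK.bound hc0 hl0 v hv
  have hrew : ∫ x, (φ1 x - φ0 x) * (q (x - v) - q x) ∂(unif K) =
      ∫ x, q (x - v) * u x ∂(unif K) - ∫ x, q x * u x ∂(unif K) := by
    rw [← integral_sub i3 i2]
    congr 1
    ext x
    simp only [hu]
    ring
  rw [hrew]
  have hS' : Q * ∫ x, secDiff φ0 v x ∂(unif K) ≤ Q * secC K RK M * ‖v‖ ^ 2 := by
    calc Q * ∫ x, secDiff φ0 v x ∂(unif K) ≤ Q * ((volume K).toReal⁻¹ *
          (M * ‖v‖ ^ 2 * (volume (Metric.closedBall (0 : E d) (RK + 2))).toReal)) :=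
          mul_le_mul_of_nonneg_left hS hQ0
      _ = Q * secC K RK M * ‖v‖ ^ 2 := by unfold secC; ring
  linarith

end Vale.Agent.Lib.P074.Third
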