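import Vale.Agent.Lib.P074.Third.Core
import Vale.Agent.Lib.P074.Third.Err
import Vale.Agent.Lib.P074.Third.GNStep
import Vale.Agent.Lib.P074.Third.Discretise

/-!
# P074 / Third: the translation inequality for general targets
-/

open MeasureTheory Set Metric
open scoped ENNReal NNReal

namespace Vale.Agent.Lib.P074.Third

open Vale.Agent.Lib.P074

variable {d : ℕ}

/-- `unif K` is always a finite measure (it is zero if `K` has volume `0` or `∞`) -/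
lemma unif_isFinite (K : Set (E d)) : IsFiniteMeasure (unif K) := by
  constructor
  unfold unif
  rw [Measure.smul_apply, Measure.restrict_apply MeasurableSet.univ, univ_inter, smul_eq_mul]
  exact lt_of_le_of_lt (ENNReal.inv_mul_le_one _) ENNReal.one_lt_top

/-- a bounded measurable function is integrable against `unif K` -/
lemma integrable_unif_of_bdd (K : Set (E d)) {q : E d → ℝ} (hqm : Measurable q) {Q : ℝ}
    (hq0 : ∀ x, 0 ≤ q x) (hqQ : ∀ x, q x ≤ Q) : Integrable q (unif K) := by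
  have := unif_isFinite K
  refine Integrable.of_bound hqm.aestronglyMeasurable Q (Filter.Eventually.of_forall fun x => ?_)
  rw [Real.norm_eq_abs, abs_of_nonneg (hq0 x)]
  exact hqQ x

/-- the perturbation `s (q(· - v) - q)` is admissible -/
lemma isPert_shift {K : Set (E d)} (q : E d → ℝ) (hqm : Measurable q) {Q : ℝ}
    (hq0 : ∀ x, 0 ≤ q x) (hqQ : ∀ x, q x ≤ Q) (v : E d) (hqK : ∀ x, x ∉ K → q x = 0)
    (hqv : ∀ x, x ∉ K → q (x - v) = 0) {s : ℝ} (hs : 0 ≤ s) (hsQ : s * Q ≤ 1 / 3) :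
    IsPert K (fun x => s * (q (x - v) - q x)) := by
  have hqm' : Measurable fun x => q (x - v) := hqm.comp (measurable_id.sub_const v)
  refine ⟨(hqm'.sub hqm).const_mul s, fun x => ?_, ?_⟩
  · have h1 : |q (x - v) - q x| ≤ Q := by
      rw [abs_le]
      constructor
      · linarith [hq0 (x - v), hqQ x]
      · linarith [hq0 x, hqQ (x - v)]
    rw [abs_mul, abs_of_nonneg hs]
    exact (mul_le_mul_of_nonneg_left h1 hs).trans hsQ
  · have i1 : Integrable q (unif K) := integrable_unif_of_bdd K hqm hq0 hqQ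
    have i2 : Integrable (fun x => q (x - v)) (unif K) :=
      integrable_unif_of_bdd K hqm' (fun x => hq0 _) (fun x => hqQ _)
    have h := integral_shift q (fun _ => (1 : ℝ)) v hqK hqv
    simp only [mul_one] at h
    rw [integral_const_mul, integral_sub i2 i1, h, sub_self, mul_zero]

/-- integrability of the integrands `q <v, T - T'>` -/
lemma integrable_q_inner {K : Set (E d)} {M : ℝ≥0} {T T' : E d → E d}
    (hT : Measurable T) (hT' : Measurable T')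
    (hb : ∀ᵐ x ∂(unif K), ‖T x‖ ≤ M) (hb' : ∀ᵐ x ∂(unif K), ‖T' x‖ ≤ M)
    (q : E d → ℝ) (hqm : Measurable q) {Q : ℝ} (hq0 : ∀ x, 0 ≤ q x) (hqQ : ∀ x, q x ≤ Q)
    (v : E d) : Integrable (fun x => q x * inner ℝ v (T x - T' x)) (unif K) := by
  have := unif_isFinite K
  have hm : Measurable fun x => q x * inner ℝ v (T x - T' x) :=
    hqm.mul (measurable_const.inner (hT.sub hT'))
  refine Integrable.of_bound hm.aestronglyMeasurable (Q * (‖v‖ * (M + M))) ?_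
  filter_upwards [hb, hb'] with x h1 h2
  rw [norm_mul, Real.norm_eq_abs, abs_of_nonneg (hq0 x)]
  have h3 : ‖inner ℝ v (T x - T' x)‖ ≤ ‖v‖ * (M + M) :=
    (norm_inner_le_norm _ _).trans
      (mul_le_mul_of_nonneg_left ((norm_sub_le _ _).trans (add_le_add h1 h2)) (norm_nonneg _))
  exact mul_le_mul (hqQ x) h3 (norm_nonneg _) ((hq0 x).trans (hqQ x))

/-- one error term, both signs -/
lemma err_pair {K : Set (E d)} {RK M : ℝ≥0} (hK : IsBody K RK) {φ φ' : E d → ℝ}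
    {T T' : E d → E d} (hc : ConvexOn ℝ univ φ) (hl : LipschitzWith M φ)
    (hl' : LipschitzWith M φ') (hT : Measurable T) (hT' : Measurable T')
    (hb : ∀ᵐ x ∂(unif K), ‖T x‖ ≤ M) (hb' : ∀ᵐ x ∂(unif K), ‖T' x‖ ≤ M)
    (hs : ∀ᵐ x ∂(unif K), ∀ z, φ x + inner ℝ (T x) (z - x) ≤ φ z)
    (hs' : ∀ᵐ x ∂(unif K), ∀ z, φ' x + inner ℝ (T' x) (z - x) ≤ φ' z) {w : ℝ} (hw : 0 ≤ w)
    (hW : W1 ((unif K).map T) ((unif K).map T') ≤ ENNReal.ofReal w)
    (q : E d → ℝ) (hqm : Measurable q) {Q : ℝ} (hq0 : ∀ x, 0 ≤ q x) (hqQ : ∀ x, q x ≤ Q)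
    (v : E d) (hv : ‖v‖ ≤ 1) :
    |∫ x, q x * inner ℝ v (T x - T' x) ∂(unif K)| ≤ Q * stabConst K RK M * w ^ (1 / 4 : ℝ) := by
  have hQ : 0 ≤ Q := (hq0 0).trans (hqQ 0)
  have h1 := err_le hK hT hT' hb hb' q hqm hq0 hqQ v
  have h2 := stab_real hK hc hl hl' hT hT' hb hb' hs hs' hw hW
  have h3 : 0 ≤ ∫ x, ‖T x - T' x‖ ∂(unif K) := integral_nonneg fun x => norm_nonneg _
  calc |∫ x, q x * inner ℝ v (T x - T' x) ∂(unif K)|
      ≤ Q * ‖v‖ * ∫ x, ‖T x - T' x‖ ∂(unif K) := h1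
    _ ≤ Q * 1 * ∫ x, ‖T x - T' x‖ ∂(unif K) := by gcongr
    _ ≤ Q * 1 * (stabConst K RK M * w ^ (1 / 4 : ℝ)) := by gcongr
    _ = Q * stabConst K RK M * w ^ (1 / 4 : ℝ) := by ring

/-- **Approximate form.** Fix `ε ∈ (0,1]`. Put `f x = q (x - v) - q x`, `s = ε / (3 (Q+1) (2M+1))`, `g = s f`
(`isPert_shift`; `|g| ≤ s Q =: δ`, `2 M δ ≤ ε`). `discretise` at scale `ε` gives `I, π, y, z`; `core` gives
`φ1 T1` (source `src K g`, target `discMeas π y`), `φ0 T0` (target `discMeas π z`), `φy Ty` (target `discMeas π y`).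
* `gn_step` for `(φ1,T1), (φ0,T0)`: `∫ q <v, T1 - T0> ≤ ∫ (φ1 - φ0) f + Q secC |v|^2`, and
  `∫ (φ1-φ0) f = (1/s) ∫ (φ1-φ0) g ≤ (1/s) A sqrt(s^2 ∫ f^2) W = A sqrt(∫ f^2) W`, `A = sqrt 100000 RK`,
  `W = sqrt(∑ π |y-z|^2) ≤ sqrt(2 c0 + 8 ε^2) ≤ sqrt(2 c0) + 3 ε`.
* `∫ q <v, Tμ - Tν> = ∫ q <v, T1 - T0> + ∫ q <v, Tμ - Ty> + ∫ q <v, Ty - T1> + ∫ q <v, T0 - Tν>`; the last three are
  `≤ Q |v| stabConst ε^(1/4)` each by `err_le` and `stab_real`, with
  `W1 (ρ.map Ty) (ρ.map Tμ) = W1 (discMeas π y) μ ≤ ε`, `W1 (ρ.map T1) (ρ.map Ty) = W1 (ρ.map T1) ((src K g).map T1) ≤ 2 M δ ≤ ε` (`W1_pert`),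
  `W1 (ρ.map T0) (ρ.map Tν) = W1 (discMeas π z) ν ≤ ε` (`src_zero` turns `src K 0` into `unif K`; use `norm_sub_rev` for the order).
* `ε ≤ ε^(1/4)` for `ε ≤ 1`, `|v| ≤ 1`. -/
theorem claimA_eps {K : Set (E d)} {RK M : ℝ≥0} (hK : IsBody K RK) {Y : Set (E d)}
    (hY : IsCompact Y) (hYne : Y.Nonempty) (hYM : ∀ y ∈ Y, ‖y‖ ≤ M) {μ ν : Measure (E d)}
    [IsProbabilityMeasure μ] [IsProbabilityMeasure ν] (hμ : μ Yᶜ = 0) (hν : ν Yᶜ = 0)
    {φμ φν : E d → ℝ} {Tμ Tν : E d → E d} (hBμ : IsBr K M (0 : E d → ℝ) μ φμ Tμ)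
    (hBν : IsBr K M (0 : E d → ℝ) ν φν Tν) (π0 : Measure (E d × E d))
    (h1 : π0.map Prod.fst = μ) (h2 : π0.map Prod.snd = ν)
    (q : E d → ℝ) (hqm : Measurable q) {Q : ℝ} (hq0 : ∀ x, 0 ≤ q x) (hqQ : ∀ x, q x ≤ Q)
    (v : E d) (hv : ‖v‖ ≤ 1) (hqK : ∀ x, x ∉ K → q x = 0) (hqv : ∀ x, x ∉ K → q (x - v) = 0)
    {ε : ℝ} (hε : 0 < ε) (hε1 : ε ≤ 1) :
    ∫ x, q x * inner ℝ v (Tμ x - Tν x) ∂(unif K) ≤
      Real.sqrt 100000 * RK * Real.sqrt (∫ x, (q (x - v) - q x) ^ 2 ∂(unif K)) *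
          Real.sqrt (2 * (∫⁻ p, ‖p.1 - p.2‖ₑ ^ 2 ∂π0).toReal) +
        Q * secC K RK M * ‖v‖ ^ 2 +
        (3 * Real.sqrt 100000 * RK * Real.sqrt (∫ x, (q (x - v) - q x) ^ 2 ∂(unif K)) +
          3 * Q * stabConst K RK M) * ε ^ (1 / 4 : ℝ) := by
  have hQ : 0 ≤ Q := (hq0 0).trans (hqQ 0)
  have hM : (0 : ℝ) ≤ M := M.coe_nonneg
  -- the scale
  set s : ℝ := ε / (3 * (Q + 1) * (2 * M + 1)) with hsdef
  have hden : 0 < 3 * (Q + 1) * (2 * (M : ℝ) + 1) := by positivity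
  have hs : 0 < s := div_pos hε hden
  have hsQ : s * Q ≤ 1 / 3 := by
    rw [hsdef, div_mul_eq_mul_div, div_le_iff₀ hden]
    nlinarith [mul_nonneg hQ hM]
  have hsM : 2 * M * (s * Q) ≤ ε := by
    have : 2 * (M : ℝ) * (s * Q) = ε * (2 * M * Q) / (3 * (Q + 1) * (2 * M + 1)) := by
      rw [hsdef]; ring
    rw [this, div_le_iff₀ hden]
    apply mul_le_mul_of_nonneg_left _ hε.le
    nlinarith [mul_nonneg hQ hM]
  set g : E d → ℝ := fun x => s * (q (x - v) - q x) with hgdef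
  have hg : IsPert K g := isPert_shift q hqm hq0 hqQ v hqK hqv hs.le hsQ
  have hgδ : ∀ x, |g x| ≤ s * Q := by
    intro x
    have h1 : |q (x - v) - q x| ≤ Q := by
      rw [abs_le]
      constructor
      · linarith [hq0 (x - v), hqQ x]
      · linarith [hq0 x, hqQ (x - v)]
    rw [hgdef]
    simp only
    rw [abs_mul, abs_of_nonneg hs.le]
    exact mul_le_mul_of_nonneg_left h1 hs.le
  obtain ⟨I, _, _, π, y, z, hπ, hsum, hy, hz, hWy, hWz, hcost⟩ :=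
    discretise hY hYne hYM μ ν hμ hν π0 h1 h2 hε
  obtain ⟨φ1, φ0, φy, T1, T0, Ty, hB1, hB0, hBy, hcore⟩ := core hK hg π hπ hsum y z hy hz
  set F : ℝ := ∫ x, (q (x - v) - q x) ^ 2 ∂(unif K) with hF
  set c0 : ℝ := (∫⁻ p, ‖p.1 - p.2‖ₑ ^ 2 ∂π0).toReal with hc0
  have hc0n : 0 ≤ c0 := ENNReal.toReal_nonneg
  set A : ℝ := Real.sqrt 100000 * RK with hA
  have hA0 : 0 ≤ A := by positivity
  set W : ℝ := Real.sqrt (∑ i, π i * ‖y i - z i‖ ^ 2) with hW
  set St : ℝ := (stabConst K RK M : ℝ) with hSt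
  have hSt0 : 0 ≤ St := NNReal.coe_nonneg _
  -- the main term
  have hgn := gn_step hK hB0.conv hB0.lip hB1.lip hB1.meas hB0.meas hB1.ae_bound hB0.ae_bound
    hB1.sub hB0.sub q hqm hq0 hqQ v hv hqK hqv
  have e1 : ∫ x, (φ1 x - φ0 x) * g x ∂(unif K)
      = s * ∫ x, (φ1 x - φ0 x) * (q (x - v) - q x) ∂(unif K) := by
    rw [← integral_const_mul]
    refine integral_congr_ae (Filter.Eventually.of_forall fun x => ?_)
    simp only [hgdef]
    ring
  have e2 : ∫ x, g x ^ 2 ∂(unif K) = s ^ 2 * F := by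
    rw [hF, ← integral_const_mul]
    refine integral_congr_ae (Filter.Eventually.of_forall fun x => ?_)
    simp only [hgdef]
    ring
  have e3 : Real.sqrt (s ^ 2 * F) = s * Real.sqrt F := by
    rw [Real.sqrt_mul (sq_nonneg s), Real.sqrt_sq hs.le]
  have hmain : ∫ x, (φ1 x - φ0 x) * (q (x - v) - q x) ∂(unif K) ≤ A * Real.sqrt F * W := by
    rw [e1, e2, e3] at hcore
    have : s * ∫ x, (φ1 x - φ0 x) * (q (x - v) - q x) ∂(unif K) ≤ s * (A * Real.sqrt F * W) := by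
      calc _ ≤ _ := hcore
        _ = s * (A * Real.sqrt F * W) := by ring
    exact le_of_mul_le_mul_left this hs
  have hWle : W ≤ Real.sqrt (2 * c0) + 3 * ε := by
    rw [hW]
    refine (Real.sqrt_le_sqrt hcost).trans ?_
    rw [Real.sqrt_le_iff]
    refine ⟨by positivity, ?_⟩
    have h3 : Real.sqrt (2 * c0) ^ 2 = 2 * c0 := Real.sq_sqrt (by positivity)
    nlinarith [Real.sqrt_nonneg (2 * c0), mul_nonneg (Real.sqrt_nonneg (2 * c0)) hε.le]
  -- the maps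
  have mμ : (unif K).map Tμ = μ := by rw [← src_zero K]; exact hBμ.map
  have mν : (unif K).map Tν = ν := by rw [← src_zero K]; exact hBν.map
  have my : (unif K).map Ty = discMeas π y := by rw [← src_zero K]; exact hBy.map
  have m0 : (unif K).map T0 = discMeas π z := by rw [← src_zero K]; exact hB0.map
  -- the error terms
  have E1 := err_pair hK hBy.conv hBy.lip hBμ.lip hBy.meas hBμ.meas hBy.ae_bound hBμ.ae_bound
    hBy.sub hBμ.sub hε.le (by rw [my, mμ]; exact hWy) q hqm hq0 hqQ v hv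
  have E2 := err_pair hK hB1.conv hB1.lip hBy.lip hB1.meas hBy.meas hB1.ae_bound hBy.ae_bound
    hB1.sub hBy.sub hε.le (by
      rw [my, ← hB1.map]
      exact (W1_pert hK hg hgδ hB1.meas hB1.ae_bound).trans (ENNReal.ofReal_le_ofReal hsM))
    q hqm hq0 hqQ v hv
  have E3 := err_pair hK hB0.conv hB0.lip hBν.lip hB0.meas hBν.meas hB0.ae_bound hBν.ae_bound
    hB0.sub hBν.sub hε.le (by rw [m0, mν]; exact hWz) q hqm hq0 hqQ v hv
  -- decomposition
  have i10 := integrable_q_inner hB1.meas hB0.meas hB1.ae_bound hB0.ae_bound q hqm hq0 hqQ v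
  have iyμ := integrable_q_inner hBy.meas hBμ.meas hBy.ae_bound hBμ.ae_bound q hqm hq0 hqQ v
  have i1y := integrable_q_inner hB1.meas hBy.meas hB1.ae_bound hBy.ae_bound q hqm hq0 hqQ v
  have i0ν := integrable_q_inner hB0.meas hBν.meas hB0.ae_bound hBν.ae_bound q hqm hq0 hqQ v
  have hdec : ∫ x, q x * inner ℝ v (Tμ x - Tν x) ∂(unif K)
      = ∫ x, q x * inner ℝ v (T1 x - T0 x) ∂(unif K)
        - ∫ x, q x * inner ℝ v (Ty x - Tμ x) ∂(unif K)
        - ∫ x, q x * inner ℝ v (T1 x - Ty x) ∂(unif K)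
        + ∫ x, q x * inner ℝ v (T0 x - Tν x) ∂(unif K) := by
    have e : ∀ x, q x * inner ℝ v (Tμ x - Tν x)
        = q x * inner ℝ v (T1 x - T0 x) - q x * inner ℝ v (Ty x - Tμ x)
          - q x * inner ℝ v (T1 x - Ty x) + q x * inner ℝ v (T0 x - Tν x) := by
      intro x
      simp only [inner_sub_right]
      ring
    have j1 : Integrable (fun x => q x * inner ℝ v (T1 x - T0 x) - q x * inner ℝ v (Ty x - Tμ x))
        (unif K) := i10.sub iyμ
    have j2 : Integrable (fun x => q x * inner ℝ v (T1 x - T0 x) - q x * inner ℝ v (Ty x - Tμ x)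
          - q x * inner ℝ v (T1 x - Ty x)) (unif K) := j1.sub i1y
    simp_rw [e]
    rw [integral_add j2 i0ν, integral_sub j1 i1y, integral_sub i10 iyμ]
  have hεr : ε ≤ ε ^ (1 / 4 : ℝ) := by
    calc ε = ε ^ (1 : ℝ) := (Real.rpow_one ε).symm
      _ ≤ ε ^ (1 / 4 : ℝ) := Real.rpow_le_rpow_of_exponent_ge hε hε1 (by norm_num)
  have hsF : 0 ≤ Real.sqrt F := Real.sqrt_nonneg F
  have a1 := (abs_le.mp E1).1
  have a2 := (abs_le.mp E2).1
  have a3 := (abs_le.mp E3).2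
  have hAF : 0 ≤ A * Real.sqrt F := mul_nonneg hA0 hsF
  have b1 : A * Real.sqrt F * W ≤ A * Real.sqrt F * (Real.sqrt (2 * c0) + 3 * ε ^ (1 / 4 : ℝ)) :=
    mul_le_mul_of_nonneg_left (hWle.trans (by linarith)) hAF
  rw [hdec]
  have : 3 * Real.sqrt 100000 * RK * Real.sqrt F = 3 * (A * Real.sqrt F) := by rw [hA]; ring
  rw [this]
  nlinarith

/-- **Claim A.** Let `ε → 0` in `claimA_eps`. -/
theorem claimA {K : Set (E d)} {RK M : ℝ≥0} (hK : IsBody K RK) {Y : Set (E d)}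
    (hY : IsCompact Y) (hYne : Y.Nonempty) (hYM : ∀ y ∈ Y, ‖y‖ ≤ M) {μ ν : Measure (E d)}
    [IsProbabilityMeasure μ] [IsProbabilityMeasure ν] (hμ : μ Yᶜ = 0) (hν : ν Yᶜ = 0)
    {φμ φν : E d → ℝ} {Tμ Tν : E d → E d} (hBμ : IsBr K M (0 : E d → ℝ) μ φμ Tμ)
    (hBν : IsBr K M (0 : E d → ℝ) ν φν Tν) (π0 : Measure (E d × E d))
    (h1 : π0.map Prod.fst = μ) (h2 : π0.map Prod.snd = ν)
    (q : E d → ℝ) (hqm : Measurable q) {Q : ℝ} (hq0 : ∀ x, 0 ≤ q x) (hqQ : ∀ x, q x ≤ Q)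
    (v : E d) (hv : ‖v‖ ≤ 1) (hqK : ∀ x, x ∉ K → q x = 0) (hqv : ∀ x, x ∉ K → q (x - v) = 0) :
    ∫ x, q x * inner ℝ v (Tμ x - Tν x) ∂(unif K) ≤
      Real.sqrt 100000 * RK * Real.sqrt (∫ x, (q (x - v) - q x) ^ 2 ∂(unif K)) *
          Real.sqrt (2 * (∫⁻ p, ‖p.1 - p.2‖ₑ ^ 2 ∂π0).toReal) +
        Q * secC K RK M * ‖v‖ ^ 2 := by
  have hQ : 0 ≤ Q := (hq0 0).trans (hqQ 0)
  set C : ℝ := 3 * Real.sqrt 100000 * RK * Real.sqrt (∫ x, (q (x - v) - q x) ^ 2 ∂(unif K)) +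
          3 * Q * stabConst K RK M with hC
  have hC0 : 0 ≤ C := by positivity
  apply le_of_forall_pos_le_add
  intro η hη
  set t : ℝ := η / (C + 1) with ht
  have ht0 : 0 < t := by positivity
  set ε : ℝ := min 1 (t ^ 4) with hεdef
  have hε : 0 < ε := lt_min one_pos (by positivity)
  have hε1 : ε ≤ 1 := min_le_left _ _
  have hεt : ε ^ (1 / 4 : ℝ) ≤ t := by
    calc ε ^ (1 / 4 : ℝ) ≤ (t ^ 4) ^ (1 / 4 : ℝ) :=
          Real.rpow_le_rpow hε.le (min_le_right _ _) (by norm_num)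
      _ = t := by
          rw [← Real.rpow_natCast, ← Real.rpow_mul ht0.le]
          norm_num
  have key := claimA_eps hK hY hYne hYM hμ hν hBμ hBν π0 h1 h2 q hqm hq0 hqQ v hv hqK hqv hε hε1
  refine key.trans ?_
  have : C * ε ^ (1 / 4 : ℝ) ≤ η := by
    calc C * ε ^ (1 / 4 : ℝ) ≤ C * t := mul_le_mul_of_nonneg_left hεt hC0
      _ = η * (C / (C + 1)) := by rw [ht]; ring
      _ ≤ η * 1 := by
          apply mul_le_mul_of_nonneg_left _ hη.le
          rw [div_le_one (by positivity)]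
          linarith
      _ = η := mul_one η
  linarith

end Vale.Agent.Lib.P074.Third
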