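import Vale.Agent.Lib.P074.Third.Step
import Vale.Agent.Lib.P074.Third.AbsLip

/-!
# P074 / Third: the key inequality (I): potentials are Lipschitz in `L^2(ρ)` with respect to `W_2`
-/

open MeasureTheory Set
open scoped ENNReal NNReal

namespace Vale.Agent.Lib.P074.Third

open Vale.Agent.Lib.P074

variable {d : ℕ} {ι : Type*} [Fintype ι]

/-- a package gives a Brenier type map -/
lemma IsPackage.isBr [Nonempty ι] {K : Set (E d)} {RK M : ℝ≥0} {g : E d → ℝ} {π : ι → ℝ}
    {y : ι → E d} {a : ι → ℝ} {b : ι → E d} (h : IsPackage K RK g π y a b) (hy : ∀ i, ‖y i‖ ≤ M) :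
    ∃ T, IsBr K M g (discMeas π y) (pot y a) T := by
  obtain ⟨T, h1, h2, h3⟩ := h.map
  exact ⟨T, pot_convex y a, pot_lipschitz y hy a, h1, h2, h3⟩

/-- **Key inequality (I).**
Choose (by `step_pair` and `Classical.choose` or the `choose` tactic) for EVERY `w : ι → E d` data `a0 w, a1 w, b0 w, b1 w`. Put
`H0 w = dualF (src K 0) π w (a0 w)`, `H1 w = dualF (src K g) π w (a1 w)`. By `weak` and `strong`:
`Hk w + ∑ <bk w i, w' i - w i> = ∑ <bk w i, w' i> ≤ Hk w'`, so `lip_concrete` applies with `B = RK`,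
`ε = sqrt(100000) RK sqrt(∫ g^2)`:  `(H1 y - H0 y) - (H1 z - H0 z) ≤ ε W`.
Moreover (minimality: `weak` at `y' = w` together with `strong`):
`H0 y ≤ dualF (src K 0) π y (a1 y) = H1 y - ∫ pot y (a1 y) g dρ` (`integral_src`, `src_zero`; `pot` is continuous hence integrable), and
`H1 z ≤ dualF (src K g) π z (a0 z) = H0 z + ∫ pot z (a0 z) g dρ`.
Adding up: `∫ (pot y (a1 y) - pot z (a0 z)) g dρ ≤ (H1 y - H0 y) - (H1 z - H0 z)`.
Take `φ1 = pot y (a1 y)`, `φ0 = pot z (a0 z)`, `φy = pot y (a0 y)` and the maps given by `IsPackage.isBr`. -/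
theorem core [Nonempty ι] {K : Set (E d)} {RK M : ℝ≥0} (hK : IsBody K RK) {g : E d → ℝ}
    (hg : IsPert K g) (π : ι → ℝ) (hπ : ∀ i, 0 < π i) (hsum : ∑ i, π i = 1) (y z : ι → E d)
    (hy : ∀ i, ‖y i‖ ≤ M) (hz : ∀ i, ‖z i‖ ≤ M) :
    ∃ (φ1 φ0 φy : E d → ℝ) (T1 T0 Ty : E d → E d),
      IsBr K M g (discMeas π y) φ1 T1 ∧ IsBr K M (0 : E d → ℝ) (discMeas π z) φ0 T0 ∧
      IsBr K M (0 : E d → ℝ) (discMeas π y) φy Ty ∧
      ∫ x, (φ1 x - φ0 x) * g x ∂(unif K) ≤
        Real.sqrt 100000 * RK * Real.sqrt (∫ x, g x ^ 2 ∂(unif K)) *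
          Real.sqrt (∑ i, π i * ‖y i - z i‖ ^ 2) := by
  classical
  choose a0 a1 b0 b1 hp0 hp1 hmom using fun w : ι → E d => step_pair hK hg π hπ hsum w
  set H0 : (ι → E d) → ℝ := fun w => dualF (src K (0 : E d → ℝ)) π w (a0 w) with hH0
  set H1 : (ι → E d) → ℝ := fun w => dualF (src K g) π w (a1 w) with hH1
  set I2 : ℝ := ∫ x, g x ^ 2 ∂(unif K) with hI2def
  have hI2 : 0 ≤ I2 := integral_nonneg (fun x => sq_nonneg _)
  set ε : ℝ := Real.sqrt 100000 * RK * Real.sqrt I2 with hεdef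
  have hε0 : 0 ≤ ε := by positivity
  have hεsq : ε ^ 2 = 100000 * (RK : ℝ) ^ 2 * I2 := by
    rw [hεdef, mul_pow, mul_pow, Real.sq_sqrt hI2, Real.sq_sqrt (by norm_num)]
  have h0 : ∀ w w', H0 w + ∑ i, inner ℝ (b0 w i) (w' i - w i) ≤ H0 w' := by
    intro w w'
    have e1 := (hp0 w).strong
    have e2 := (hp0 w).weak w' (a0 w')
    simp only [inner_sub_right, Finset.sum_sub_distrib]
    simp only [hH0]
    linarith
  have h1 : ∀ w w', H1 w + ∑ i, inner ℝ (b1 w i) (w' i - w i) ≤ H1 w' := by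
    intro w w'
    have e1 := (hp1 w).strong
    have e2 := (hp1 w).weak w' (a1 w')
    simp only [inner_sub_right, Finset.sum_sub_distrib]
    simp only [hH1]
    linarith
  have key := lip_concrete π hπ H0 H1 b0 b1 RK ε hε0 h0 h1 (fun w i => (hp0 w).bound i)
    (fun w => by rw [hεsq]; exact hmom w) y z
  have m0 : H0 y ≤ dualF (src K (0 : E d → ℝ)) π y (a1 y) := by
    have := (hp0 y).weak y (a1 y)
    rw [(hp0 y).strong] at this
    exact this
  have m1 : H1 z ≤ dualF (src K g) π z (a0 z) := by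
    have := (hp1 z).weak z (a0 z)
    rw [(hp1 z).strong] at this
    exact this
  have hint : ∀ (w : ι → E d) (_ : ∀ i, ‖w i‖ ≤ M) (a : ι → ℝ), Integrable (pot w a) (unif K) := by
    intro w hw a
    have := integrable_src_of_continuous hK (isPert_zero K) (pot_lipschitz w hw a).continuous
    rwa [src_zero] at this
  have hintg : ∀ (w : ι → E d) (_ : ∀ i, ‖w i‖ ≤ M) (a : ι → ℝ),
      Integrable (fun x => pot w a x * g x) (unif K) := by
    intro w hw a
    refine (hint w hw a).mul_bdd (c := 1 / 3) hg.meas.aestronglyMeasurable ?_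
    exact Filter.Eventually.of_forall (fun x => by rw [Real.norm_eq_abs]; exact hg.bound x)
  have hd : ∀ (w : ι → E d) (_ : ∀ i, ‖w i‖ ≤ M) (a : ι → ℝ),
      dualF (src K g) π w a
        = dualF (src K (0 : E d → ℝ)) π w a + ∫ x, pot w a x * g x ∂(unif K) := by
    intro w hw a
    unfold dualF
    rw [integral_src hg, src_zero]
    have : ∫ x, pot w a x * (1 + g x) ∂(unif K)
        = ∫ x, pot w a x ∂(unif K) + ∫ x, pot w a x * g x ∂(unif K) := by
      rw [← integral_add (hint w hw a) (hintg w hw a)]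
      refine integral_congr_ae (Filter.Eventually.of_forall (fun x => ?_))
      simp only
      ring
    rw [this]
    ring
  obtain ⟨T1, hT1⟩ := (hp1 y).isBr hy
  obtain ⟨T0, hT0⟩ := (hp0 z).isBr hz
  obtain ⟨Ty, hTy⟩ := (hp0 y).isBr hy
  refine ⟨pot y (a1 y), pot z (a0 z), pot y (a0 y), T1, T0, Ty, hT1, hT0, hTy, ?_⟩
  have e1 := hd y hy (a1 y)
  have e2 := hd z hz (a0 z)
  have e3 : ∫ x, (pot y (a1 y) x - pot z (a0 z) x) * g x ∂(unif K)
      = ∫ x, pot y (a1 y) x * g x ∂(unif K) - ∫ x, pot z (a0 z) x * g x ∂(unif K) := by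
    rw [← integral_sub (hintg y hy (a1 y)) (hintg z hz (a0 z))]
    refine integral_congr_ae (Filter.Eventually.of_forall (fun x => ?_))
    simp only
    ring
  rw [e3]
  simp only [hH0, hH1] at key m0 m1
  linarith

end Vale.Agent.Lib.P074.Third
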