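import Vale.Agent.Lib.P074.StabilityW1

/-!
# P074 / Third: definitions for the proof that the exponent `1/3` is admissible

Semi-discrete optimal transport: potentials `pot`, Laguerre cells `cell`, perturbed sources `src`,
the Kantorovich dual functional `dualF`, finitely supported targets `discMeas`.
-/

open MeasureTheory Set
open scoped ENNReal NNReal

namespace Vale.Agent.Lib.P074.Third

open Vale.Agent.Lib.P074

variable {d : ℕ} {ι : Type*} [Fintype ι]

/-- standing assumptions on the convex body `K` (contained in the ball of radius `RK`) -/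
structure IsBody (K : Set (E d)) (RK : ℝ≥0) : Prop where
  compact : IsCompact K
  convex : Convex ℝ K
  int : (interior K).Nonempty
  pos : 0 < RK
  bound : ∀ x ∈ K, ‖x‖ ≤ RK

/-- an admissible perturbation `g` of the uniform density: the new density is `1 + g` -/
structure IsPert (K : Set (E d)) (g : E d → ℝ) : Prop where
  meas : Measurable g
  bound : ∀ x, |g x| ≤ 1 / 3
  mean : ∫ x, g x ∂(unif K) = 0

/-- the perturbed source `(1 + g) ρ`, `ρ = unif K` -/
noncomputable def src (K : Set (E d)) (g : E d → ℝ) : Measure (E d) :=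
  (unif K).withDensity (fun x => ENNReal.ofReal (1 + g x))

/-- the convex potential `max_i (<x, y_i> - a_i)` -/
noncomputable def pot (y : ι → E d) (a : ι → ℝ) (x : E d) : ℝ := ⨆ i, (inner ℝ x (y i) - a i)

/-- the (closed) Laguerre cell of the site `y i` inside `K` -/
def cell (K : Set (E d)) (y : ι → E d) (a : ι → ℝ) (i : ι) : Set (E d) :=
  {x | x ∈ K ∧ ∀ j, inner ℝ x (y j) - a j ≤ inner ℝ x (y i) - a i}

/-- the strict (open) Laguerre cell of the site `y i` -/
def scell (y : ι → E d) (a : ι → ℝ) (i : ι) : Set (E d) :=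
  {x | ∀ j, j ≠ i → inner ℝ x (y j) - a j < inner ℝ x (y i) - a i}

/-- the gradient map of `pot y a`: equal to `y i` on the strict cell of `i` (and `0` elsewhere) -/
noncomputable def cellMap (y : ι → E d) (a : ι → ℝ) (x : E d) : E d :=
  ∑ i, (scell y a i).indicator (fun _ => y i) x

/-- the Kantorovich dual functional `∫ pot y a dρ + ∑ π_i a_i` -/
noncomputable def dualF (ρ : Measure (E d)) (π : ι → ℝ) (y : ι → E d) (a : ι → ℝ) : ℝ :=
  ∫ x, pot y a x ∂ρ + ∑ i, π i * a i

/-- the finitely supported measure `∑ π_i δ_{y_i}` -/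
noncomputable def discMeas (π : ι → ℝ) (y : ι → E d) : Measure (E d) :=
  ∑ i, ENNReal.ofReal (π i) • Measure.dirac (y i)

/-- midpoint of two weight vectors -/
noncomputable def midw (a0 a1 : ι → ℝ) : ι → ℝ := fun j => (a0 j + a1 j) / 2

/-- Gaussian weight `exp (- κ |x|^2 / 2)` -/
noncomputable def gw (κ : ℝ) (x : E d) : ℝ := Real.exp (-(κ * ‖x‖ ^ 2 / 2))

/-- the value of `κ` used for a body inside the ball of radius `RK` -/
noncomputable def kap (RK : ℝ≥0) : ℝ := 1 / (128 * (RK : ℝ) ^ 2)

/-- Gaussian mass (with respect to `unif K`) of a set -/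
noncomputable def gm (K : Set (E d)) (RK : ℝ≥0) (A : Set (E d)) : ℝ :=
  ∫ x in A, gw (kap RK) x ∂(unif K)

/-- `T` is a Brenier type map from the source `src K g` to `μ` with convex `M`-Lipschitz
potential `φ` -/
structure IsBr (K : Set (E d)) (M : ℝ≥0) (g : E d → ℝ) (μ : Measure (E d)) (φ : E d → ℝ)
    (T : E d → E d) : Prop where
  conv : ConvexOn ℝ univ φ
  lip : LipschitzWith M φ
  meas : Measurable T
  sub : ∀ᵐ x ∂(unif K), ∀ z, φ x + inner ℝ (T x) (z - x) ≤ φ z
  map : (src K g).map T = μ

/-- primal-dual optimal data for the transport from `src K g` to `∑ π_i δ_{y_i}`: weights `a` and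
moment vector `b` (`b i` is the first moment of the part of the source sent to the index `i`) -/
structure IsPackage (K : Set (E d)) (RK : ℝ≥0) (g : E d → ℝ) (π : ι → ℝ) (y : ι → E d)
    (a : ι → ℝ) (b : ι → E d) : Prop where
  weak : ∀ (y' : ι → E d) (a' : ι → ℝ), ∑ i, inner ℝ (b i) (y' i) ≤ dualF (src K g) π y' a'
  strong : ∑ i, inner ℝ (b i) (y i) = dualF (src K g) π y a
  bound : ∀ i, ‖b i‖ ≤ RK * π i
  map : ∃ T : E d → E d, Measurable T ∧
    (∀ᵐ x ∂(unif K), ∀ z, pot y a x + inner ℝ (T x) (z - x) ≤ pot y a z) ∧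
    (src K g).map T = discMeas π y

end Vale.Agent.Lib.P074.Third
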