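import Vale.Agent.Lib.P074.Third.CellsB

/-!
# P074 / Third: existence of the weights of a semi-discrete optimal transport problem
-/

open MeasureTheory Set
open scoped ENNReal NNReal

namespace Vale.Agent.Lib.P074.Third

open Vale.Agent.Lib.P074

variable {d : ℕ} {ι : Type*} [Fintype ι]

omit [Fintype ι] in
lemma continuous_site (y : ι → E d) (a : ι → ℝ) (i : ι) :
    Continuous fun x : E d => inner ℝ x (y i) - a i := by fun_prop

/-- the cell with a gap `e` -/
def gcell (y : ι → E d) (a : ι → ℝ) (i : ι) (e : ℝ) : Set (E d) :=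
  {x | ∀ j, j ≠ i → inner ℝ x (y j) - a j + e ≤ inner ℝ x (y i) - a i}

lemma isClosed_gcell (y : ι → E d) (a : ι → ℝ) (i : ι) (e : ℝ) : IsClosed (gcell y a i e) := by
  have : gcell y a i e =
      ⋂ j, ⋂ (_ : j ≠ i), {x | inner ℝ x (y j) - a j + e ≤ inner ℝ x (y i) - a i} := by
    ext x; simp [gcell]
  rw [this]
  exact isClosed_iInter fun j => isClosed_iInter fun _ =>
    isClosed_le (by fun_prop) (by fun_prop)

lemma continuous_pot [Nonempty ι] (y : ι → E d) (a : ι → ℝ) : Continuous (pot y a) := by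
  obtain ⟨M, hM⟩ : ∃ M : ℝ≥0, ∀ i, ‖y i‖ ≤ M :=
    ⟨∑ i, ‖y i‖₊, fun i => by
      have := Finset.single_le_sum (f := fun i => ‖y i‖₊) (fun _ _ => zero_le) (Finset.mem_univ i)
      exact_mod_cast this⟩
  exact (pot_lipschitz y hM a).continuous

lemma abs_pot_le [Nonempty ι] {y : ι → E d} {R : ℝ} (hy : ∀ i, ‖y i‖ ≤ R) (a : ι → ℝ) {A : ℝ}
    (ha : ∀ i, |a i| ≤ A) {x : E d} {RK : ℝ} (hx : ‖x‖ ≤ RK) : |pot y a x| ≤ R * RK + A := by
  have hR : 0 ≤ R := (norm_nonneg _).trans (hy (Classical.arbitrary ι))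
  have key : ∀ i, |inner ℝ x (y i) - a i| ≤ R * RK + A := by
    intro i
    have h1 : |inner ℝ x (y i)| ≤ R * RK := by
      rw [real_inner_comm]
      exact (abs_real_inner_le_norm _ _).trans (mul_le_mul (hy i) hx (norm_nonneg _) hR)
    have h2 := abs_sub (inner ℝ x (y i)) (a i)
    linarith [ha i]
  obtain ⟨i, hi⟩ := exists_pot_eq y a x
  rw [hi]; exact key i

lemma integrable_pot [Nonempty ι] (ρ : Measure (E d)) [IsFiniteMeasure ρ] {RK : ℝ}
    (hb : ∀ᵐ x ∂ρ, ‖x‖ ≤ RK) (y : ι → E d) (a : ι → ℝ) : Integrable (pot y a) ρ := by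
  obtain ⟨R, hR⟩ : ∃ R, ∀ i, ‖y i‖ ≤ R :=
    ⟨∑ i, ‖y i‖, fun i => Finset.single_le_sum (f := fun i => ‖y i‖) (fun _ _ => norm_nonneg _)
      (Finset.mem_univ i)⟩
  obtain ⟨A, hA⟩ : ∃ A, ∀ i, |a i| ≤ A :=
    ⟨∑ i, |a i|, fun i => Finset.single_le_sum (f := fun i => |a i|) (fun _ _ => abs_nonneg _)
      (Finset.mem_univ i)⟩
  refine Integrable.of_bound (continuous_pot y a).aestronglyMeasurable (R * RK + A) ?_
  filter_upwards [hb] with x hx
  rw [Real.norm_eq_abs]
  exact abs_pot_le hR a hA hx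

lemma continuous_dualF [Nonempty ι] (ρ : Measure (E d)) [IsProbabilityMeasure ρ] {RK : ℝ}
    (hb : ∀ᵐ x ∂ρ, ‖x‖ ≤ RK) (y : ι → E d) (m : ι → ℝ) : Continuous (dualF ρ m y) := by
  unfold dualF
  refine Continuous.add ?_ (by fun_prop)
  have : LipschitzWith 1 (fun a : ι → ℝ => ∫ x, pot y a x ∂ρ) := by
    apply LipschitzWith.of_dist_le_mul
    intro a a'
    rw [Real.dist_eq, ← integral_sub (integrable_pot ρ hb y a) (integrable_pot ρ hb y a')]
    have h1 : ∀ x, ‖pot y a x - pot y a' x‖ ≤ dist a a' := by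
      intro x
      rw [Real.norm_eq_abs]
      apply abs_pot_sub_le
      intro i
      rw [← Real.dist_eq]
      exact dist_le_pi_dist a a' i
    have h2 := norm_integral_le_of_norm_le_const (μ := ρ) (Filter.Eventually.of_forall h1)
    rw [Real.norm_eq_abs] at h2
    simpa using h2
  exact this.continuous

lemma dualF_add_const [Nonempty ι] (ρ : Measure (E d)) [IsProbabilityMeasure ρ] {RK : ℝ}
    (hb : ∀ᵐ x ∂ρ, ‖x‖ ≤ RK) (y : ι → E d) {m : ι → ℝ} (hm : ∑ i, m i = 1) (a : ι → ℝ) (c : ℝ) :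
    dualF ρ m y (fun i => a i + c) = dualF ρ m y a := by
  unfold dualF
  have h1 : ∫ x, pot y (fun i => a i + c) x ∂ρ = ∫ x, pot y a x ∂ρ - c := by
    simp_rw [pot_add_const]
    rw [integral_sub (integrable_pot ρ hb y a) (integrable_const c)]
    simp
  have h2 : ∑ i, m i * (a i + c) = ∑ i, m i * a i + c := by
    simp_rw [mul_add]
    rw [Finset.sum_add_distrib, ← Finset.sum_mul, hm, one_mul]
  rw [h1, h2]; ring

/-- existence of a global minimiser of the Kantorovich functional -/
lemma exists_min_dualF [Nonempty ι] (ρ : Measure (E d)) [IsProbabilityMeasure ρ] {RK : ℝ}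
    (hb : ∀ᵐ x ∂ρ, ‖x‖ ≤ RK) (y : ι → E d) {m : ι → ℝ} (hpos : ∀ i, 0 < m i)
    (hm : ∑ i, m i = 1) : ∃ a₀ : ι → ℝ, ∀ a, dualF ρ m y a₀ ≤ dualF ρ m y a := by
  obtain ⟨R, hR⟩ : ∃ R, ∀ i, ‖y i‖ ≤ R :=
    ⟨∑ i, ‖y i‖, fun i => Finset.single_le_sum (f := fun i => ‖y i‖) (fun _ _ => norm_nonneg _)
      (Finset.mem_univ i)⟩
  have hR0 : 0 ≤ R := (norm_nonneg _).trans (hR (Classical.arbitrary ι))
  have hRK : 0 ≤ RK := by
    obtain ⟨x, hx⟩ := hb.exists
    exact (norm_nonneg _).trans hx
  have hRR : 0 ≤ R * RK := mul_nonneg hR0 hRK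
  set c : ℝ := 2 * (R * RK) + 1 with hc
  have hc0 : 0 < c := by positivity
  set M : ℝ := ∑ j, c / m j with hM
  have hMk : ∀ k, c ≤ m k * M := by
    intro k
    have h1 : c / m k ≤ M :=
      Finset.single_le_sum (f := fun j => c / m j) (fun j _ => (div_pos hc0 (hpos j)).le)
        (Finset.mem_univ k)
    have h2 : m k * (c / m k) = c := by
      field_simp [(hpos k).ne']
    calc c = m k * (c / m k) := h2.symm
      _ ≤ m k * M := mul_le_mul_of_nonneg_left h1 (hpos k).le
  have hM0 : 0 ≤ M := Finset.sum_nonneg fun j _ => (div_pos hc0 (hpos j)).le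
  have h0mem : (0 : ι → ℝ) ∈ Icc (0 : ι → ℝ) (fun _ => M) := ⟨le_refl _, fun _ => hM0⟩
  obtain ⟨a₀, -, hmin⟩ := (isCompact_Icc : IsCompact (Icc (0 : ι → ℝ) (fun _ => M))).exists_isMinOn
    ⟨0, h0mem⟩ (continuous_dualF ρ hb y m).continuousOn
  have hinner : ∀ᵐ x ∂ρ, ∀ i, |inner ℝ x (y i)| ≤ R * RK := by
    filter_upwards [hb] with x hx i
    rw [real_inner_comm]
    exact (abs_real_inner_le_norm _ _).trans (mul_le_mul (hR i) hx (norm_nonneg _) hR0)
  refine ⟨a₀, fun a => ?_⟩
  obtain ⟨i₀, -, hi₀⟩ := Finset.exists_min_image Finset.univ a Finset.univ_nonempty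
  set a' : ι → ℝ := fun i => a i + (-(a i₀)) with ha'
  have hk : dualF ρ m y a' = dualF ρ m y a := dualF_add_const ρ hb y hm a _
  rw [← hk]
  have h0 : ∀ i, 0 ≤ a' i := by
    intro i
    have := hi₀ i (Finset.mem_univ i)
    simp only [ha']; linarith
  by_cases hB : a' ∈ Icc (0 : ι → ℝ) (fun _ => M)
  · exact hmin hB
  · obtain ⟨k, hk⟩ : ∃ k, M < a' k := by
      by_contra hcon
      push Not at hcon
      exact hB ⟨fun i => h0 i, fun i => hcon i⟩
    have hlow : -(R * RK) + m k * a' k ≤ dualF ρ m y a' := by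
      unfold dualF
      have h1 : -(R * RK) ≤ ∫ x, pot y a' x ∂ρ := by
        have : ∫ _x, -(R * RK) ∂ρ ≤ ∫ x, pot y a' x ∂ρ := by
          apply integral_mono_ae (integrable_const _) (integrable_pot ρ hb y a')
          filter_upwards [hinner] with x hx
          have h2 := le_pot y a' x i₀
          have h3 := abs_le.mp (hx i₀)
          have h4 : a' i₀ = 0 := by simp [ha']
          rw [h4] at h2
          linarith [h3.1]
        simpa using this
      have h2 : m k * a' k ≤ ∑ i, m i * a' i :=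
        Finset.single_le_sum (f := fun i => m i * a' i) (fun i _ => mul_nonneg (hpos i).le (h0 i))
          (Finset.mem_univ k)
      linarith
    have hup : dualF ρ m y 0 ≤ R * RK := by
      unfold dualF
      have h1 : ∫ x, pot y (0 : ι → ℝ) x ∂ρ ≤ R * RK := by
        have : ∫ x, pot y (0 : ι → ℝ) x ∂ρ ≤ ∫ _x, (R * RK) ∂ρ := by
          apply integral_mono_ae (integrable_pot ρ hb y 0) (integrable_const _)
          filter_upwards [hinner] with x hx
          apply pot_le
          intro i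
          have h3 := abs_le.mp (hx i)
          simp only [Pi.zero_apply, sub_zero]
          exact h3.2
        simpa using this
      simpa using h1
    have h5 : dualF ρ m y a₀ ≤ dualF ρ m y 0 := hmin h0mem
    have h6 : m k * M < m k * a' k := mul_lt_mul_of_pos_left hk (hpos k)
    have h7 := hMk k
    linarith

/-- first order condition (one sided) at a minimiser -/
lemma measure_gcell_le [Nonempty ι] (ρ : Measure (E d)) [IsProbabilityMeasure ρ] {RK : ℝ}
    (hb : ∀ᵐ x ∂ρ, ‖x‖ ≤ RK) (y : ι → E d) (m : ι → ℝ) {a₀ : ι → ℝ}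
    (hmin : ∀ a, dualF ρ m y a₀ ≤ dualF ρ m y a) (k : ι) {e : ℝ} (he : 0 < e) :
    ρ (gcell y a₀ k e) ≤ ENNReal.ofReal (m k) := by
  classical
  set a : ι → ℝ := fun i => a₀ i + (if i = k then e else 0) with ha
  set G := gcell y a₀ k e with hG
  have hGm : MeasurableSet G := (isClosed_gcell y a₀ k e).measurableSet
  have hpt : ∀ x, pot y a x ≤ pot y a₀ x - G.indicator (fun _ => e) x := by
    intro x
    apply pot_le
    intro i
    by_cases hx : x ∈ G
    · rw [indicator_of_mem hx]
      have hk := le_pot y a₀ x k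
      by_cases hi : i = k
      · subst hi
        simp only [ha, if_true]
        linarith
      · have := hx i hi
        simp only [ha, if_neg hi]
        linarith
    · rw [indicator_of_notMem hx]
      have hk := le_pot y a₀ x i
      simp only [ha]
      split_ifs <;> linarith
  have hint : Integrable (G.indicator (fun _ => e)) ρ := (integrable_const e).indicator hGm
  have h1 : ∫ x, pot y a x ∂ρ ≤ ∫ x, pot y a₀ x ∂ρ - e * (ρ G).toReal := by
    have h2 : ∫ x, pot y a x ∂ρ ≤ ∫ x, (pot y a₀ x - G.indicator (fun _ => e) x) ∂ρ :=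
      integral_mono (integrable_pot ρ hb y a) ((integrable_pot ρ hb y a₀).sub hint) hpt
    rw [integral_sub (integrable_pot ρ hb y a₀) hint, integral_indicator hGm] at h2
    simp only [integral_const, smul_eq_mul] at h2
    have h3 : (ρ.restrict G).real univ = (ρ G).toReal := by
      simp [Measure.real]
    rw [h3] at h2
    linarith
  have h2 : ∑ i, m i * a i = ∑ i, m i * a₀ i + m k * e := by
    simp only [ha, mul_add, Finset.sum_add_distrib]
    congr 1
    simp
  have h3 := hmin a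
  unfold dualF at h3
  have h4 : e * (ρ G).toReal ≤ e * m k := by linarith
  have h5 : (ρ G).toReal ≤ m k := le_of_mul_le_mul_left h4 he
  rw [← ENNReal.ofReal_toReal (measure_ne_top ρ G)]
  exact ENNReal.ofReal_le_ofReal h5

lemma measure_scell_le (ρ : Measure (E d)) (y : ι → E d) (a : ι → ℝ) (k : ι) {c : ℝ≥0∞}
    (h : ∀ e : ℝ, 0 < e → ρ (gcell y a k e) ≤ c) : ρ (scell y a k) ≤ c := by
  classical
  have hmono : Monotone fun n : ℕ => gcell y a k (1 / ((n : ℝ) + 1)) := by
    intro n n' hn x hx j hj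
    have h1 := hx j hj
    have h2 : 1 / ((n' : ℝ) + 1) ≤ 1 / ((n : ℝ) + 1) := by
      apply one_div_le_one_div_of_le (by positivity)
      have : (n : ℝ) ≤ n' := by exact_mod_cast hn
      linarith
    linarith
  have hsub : scell y a k ⊆ ⋃ n : ℕ, gcell y a k (1 / ((n : ℝ) + 1)) := by
    intro x hx
    have hex : ∀ j, ∃ n : ℕ, j ≠ k →
        inner ℝ x (y j) - a j + 1 / ((n : ℝ) + 1) ≤ inner ℝ x (y k) - a k := by
      intro j
      by_cases hj : j = k
      · exact ⟨0, fun h => absurd hj h⟩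
      · have hpos : 0 < (inner ℝ x (y k) - a k) - (inner ℝ x (y j) - a j) := sub_pos.mpr (hx j hj)
        obtain ⟨n, hn⟩ := exists_nat_one_div_lt hpos
        exact ⟨n, fun _ => by linarith⟩
    choose n hn using hex
    rw [mem_iUnion]
    refine ⟨Finset.univ.sup n, fun j hj => ?_⟩
    have h1 := hn j hj
    have h2 : n j ≤ Finset.univ.sup n := Finset.le_sup (Finset.mem_univ j)
    have h3 : 1 / (((Finset.univ.sup n : ℕ) : ℝ) + 1) ≤ 1 / ((n j : ℝ) + 1) := by
      apply one_div_le_one_div_of_le (by positivity)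
      have : (n j : ℝ) ≤ (Finset.univ.sup n : ℕ) := by exact_mod_cast h2
      linarith
    linarith
  calc ρ (scell y a k) ≤ ρ (⋃ n : ℕ, gcell y a k (1 / ((n : ℝ) + 1))) := measure_mono hsub
    _ = ⨆ n : ℕ, ρ (gcell y a k (1 / ((n : ℝ) + 1))) := hmono.measure_iUnion
    _ ≤ c := iSup_le fun n => h _ (by positivity)

/-- **Existence of weights.** For distinct sites `y i`, positive masses `m i` of total mass one and an
absolutely continuous probability measure `ρ` carried by the compact set `K`, there are weights `a`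
such that the Laguerre cell of `i` has `ρ`-mass `m i`.  (Minimise the Kantorovich functional
`dualF`; one sided first order condition; ties are null; total mass one.) -/
theorem exists_weights [Nonempty ι] {K : Set (E d)} (hK : IsCompact K) (ρ : Measure (E d))
    [IsProbabilityMeasure ρ] (hac : ρ ≪ volume) (hsupp : ρ Kᶜ = 0) (y : ι → E d)
    (hy : Function.Injective y) (m : ι → ℝ) (hm : ∀ i, 0 < m i) (hsum : ∑ i, m i = 1) :
    ∃ a : ι → ℝ, ∀ i, ρ.real (cell K y a i) = m i := by
  obtain ⟨RK, hRK⟩ := hK.isBounded.exists_norm_le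
  have hmemK : ∀ᵐ x ∂ρ, x ∈ K := by
    have := measure_eq_zero_iff_ae_notMem.mp hsupp
    filter_upwards [this] with x hx
    simpa using hx
  have hb : ∀ᵐ x ∂ρ, ‖x‖ ≤ RK := hmemK.mono fun x hx => hRK x hx
  obtain ⟨a, hmin⟩ := exists_min_dualF ρ hb y hm hsum
  refine ⟨a, ?_⟩
  have hle : ∀ i, ρ (cell K y a i) ≤ ENNReal.ofReal (m i) := by
    intro i
    have h1 : ρ (scell y a i) ≤ ENNReal.ofReal (m i) :=
      measure_scell_le ρ y a i fun e he => measure_gcell_le ρ hb y m hmin i he
    have h2 : ρ (cell K y a i \ scell y a i) = 0 := hac (volume_cell_diff_scell hy a i)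
    calc ρ (cell K y a i) ≤ ρ (scell y a i ∪ (cell K y a i \ scell y a i)) := by
          apply measure_mono
          intro x hx
          by_cases h : x ∈ scell y a i
          · exact Or.inl h
          · exact Or.inr ⟨hx, h⟩
      _ ≤ ρ (scell y a i) + ρ (cell K y a i \ scell y a i) := measure_union_le _ _
      _ ≤ ENNReal.ofReal (m i) := by rw [h2, add_zero]; exact h1
  have hler : ∀ i, ρ.real (cell K y a i) ≤ m i := by
    intro i
    have := ENNReal.toReal_mono ENNReal.ofReal_ne_top (hle i)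
    rwa [ENNReal.toReal_ofReal (hm i).le] at this
  have hs1 : ∑ i, ρ.real (cell K y a i) = 1 :=
    sum_real_cell hK.measurableSet hy a ρ hac hsupp
  have heq : ∀ i ∈ Finset.univ, ρ.real (cell K y a i) = m i := by
    rw [← Finset.sum_eq_sum_iff_of_le fun i _ => hler i]
    rw [hs1, hsum]
  intro i
  exact heq i (Finset.mem_univ i)

end Vale.Agent.Lib.P074.Third
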