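import Vale.Agent.Lib.P074.Third.StepB

/-!
# P074 / Third: the `L^2` stability bound with exponent `1/3` for a given coupling
-/

open MeasureTheory Set Metric
open scoped ENNReal NNReal

namespace Vale.Agent.Lib.P074.Third

open Vale.Agent.Lib.P074

variable {d : ℕ}

/-- the cost of a coupling of two measures carried by the ball of radius `M` is at most `4 M^2` -/
lemma cost_le {Y : Set (E d)} {M : ℝ≥0} (hYm : MeasurableSet Y) (hYM : ∀ y ∈ Y, ‖y‖ ≤ M)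
    {μ ν : Measure (E d)}
    [IsProbabilityMeasure μ] [IsProbabilityMeasure ν] (hμ : μ Yᶜ = 0) (hν : ν Yᶜ = 0)
    (π0 : Measure (E d × E d)) (h1 : π0.map Prod.fst = μ) (h2 : π0.map Prod.snd = ν) :
    ∫⁻ p, ‖p.1 - p.2‖ₑ ^ 2 ∂π0 ≤ ENNReal.ofReal (4 * (M : ℝ) ^ 2) := by
  have hπ1 : π0 univ = 1 := by
    have h : (π0.map Prod.fst) univ = 1 := by rw [h1]; exact measure_univ
    rwa [Measure.map_apply measurable_fst MeasurableSet.univ, preimage_univ] at h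
  have ha1 : ∀ᵐ p ∂π0, p.1 ∈ Y := by
    have h : (π0.map Prod.fst) Yᶜ = 0 := by rw [h1]; exact hμ
    rw [Measure.map_apply measurable_fst hYm.compl] at h
    rw [ae_iff]
    exact h
  have ha2 : ∀ᵐ p ∂π0, p.2 ∈ Y := by
    have h : (π0.map Prod.snd) Yᶜ = 0 := by rw [h2]; exact hν
    rw [Measure.map_apply measurable_snd hYm.compl] at h
    rw [ae_iff]
    exact h
  calc ∫⁻ p, ‖p.1 - p.2‖ₑ ^ 2 ∂π0 ≤ ∫⁻ _, ENNReal.ofReal (4 * (M : ℝ) ^ 2) ∂π0 := by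
        apply lintegral_mono_ae
        filter_upwards [ha1, ha2] with p hp1 hp2
        have h : ‖p.1 - p.2‖ ≤ 2 * M :=
          (norm_sub_le _ _).trans (by linarith [hYM _ hp1, hYM _ hp2])
        rw [← ofReal_norm, ← ENNReal.ofReal_pow (norm_nonneg _)]
        apply ENNReal.ofReal_le_ofReal
        nlinarith [norm_nonneg (p.1 - p.2)]
    _ = ENNReal.ofReal (4 * (M : ℝ) ^ 2) := by rw [lintegral_const, hπ1, mul_one]

/-- the cost of the swapped coupling -/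
lemma cost_swap (π0 : Measure (E d × E d)) :
    ∫⁻ p, ‖p.1 - p.2‖ₑ ^ 2 ∂(π0.map Prod.swap) = ∫⁻ p, ‖p.1 - p.2‖ₑ ^ 2 ∂π0 := by
  rw [lintegral_map (by fun_prop) measurable_swap]
  refine lintegral_congr fun p => ?_
  simp only [Prod.fst_swap, Prod.snd_swap]
  rw [enorm_sub_rev]

lemma sq_eq_pos_add_neg (t : ℝ) : t ^ 2 = (max t 0) ^ 2 + (max (-t) 0) ^ 2 := by
  rcases le_total 0 t with h | h
  · rw [max_eq_left h, max_eq_right (by linarith)]; ring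
  · rw [max_eq_right h, max_eq_left (by linarith)]; ring

/-- **`L^2` bound at scale `h`.** `|Tμ - Tν|^2 = ∑_k D_k^2` (`EuclideanSpace.real_norm_sq_eq`), and for each `k`
`∫ D_k^2 = ∫_{shrink} ((D_k)_+^2 + (D_k)_-^2) + ∫_{shrinkᶜ} D_k^2`; the first two by `stepB` (for `(D_k)_-` swap the roles of
`μ, ν` and use the coupling `π0.map Prod.swap`, which has the same cost), the last is
`≤ 4 M^2 ρ(shrinkᶜ) ≤ 4 M^2 d h / r` (`unif_compl_shrink`, `IsBr.ae_bound`). -/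
theorem l2_bound_h {K : Set (E d)} {RK M : ℝ≥0} (hK : IsBody K RK) {x0 : E d} {r : ℝ} (hr : 0 < r)
    (hball : closedBall x0 r ⊆ K) {Y : Set (E d)}
    (hY : IsCompact Y) (hYne : Y.Nonempty) (hYM : ∀ y ∈ Y, ‖y‖ ≤ M) {μ ν : Measure (E d)}
    [IsProbabilityMeasure μ] [IsProbabilityMeasure ν] (hμ : μ Yᶜ = 0) (hν : ν Yᶜ = 0)
    {φμ φν : E d → ℝ} {Tμ Tν : E d → E d} (hBμ : IsBr K M (0 : E d → ℝ) μ φμ Tμ)
    (hBν : IsBr K M (0 : E d → ℝ) ν φν Tν) (π0 : Measure (E d × E d))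
    (h1 : π0.map Prod.fst = μ) (h2 : π0.map Prod.snd = ν) {h : ℝ} (hh : 0 < h)
    (hh1 : h ≤ 1) (hhr : h ≤ r) :
    ∫ x, ‖Tμ x - Tν x‖ ^ 2 ∂(unif K) ≤
      d * (2 * (3200000 * (RK : ℝ) ^ 2 * (∫⁻ p, ‖p.1 - p.2‖ₑ ^ 2 ∂π0).toReal / h ^ 2 +
        4 * M * secC K RK M * h) + 4 * (M : ℝ) ^ 2 * (d * (h / r))) := by
  have hprob : IsProbabilityMeasure (unif K) := hK.isProb
  have hx0 : x0 ∈ K := hball (mem_closedBall_self hr.le)
  have hlam0 : 0 ≤ h / r := (div_pos hh hr).le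
  have hlam1 : h / r ≤ 1 := (div_le_one hr).mpr hhr
  set S : Set (E d) := shrink x0 (h / r) K with hS
  have hSm : MeasurableSet S := measurableSet_shrink hK.compact x0 (h / r)
  set c0 : ℝ := (∫⁻ p, ‖p.1 - p.2‖ₑ ^ 2 ∂π0).toReal with hc0
  set B : ℝ := 3200000 * (RK : ℝ) ^ 2 * c0 / h ^ 2 + 4 * M * secC K RK M * h with hB
  have hbμ := hBμ.ae_bound
  have hbν := hBν.ae_bound
  have hD : ∀ᵐ x ∂(unif K), ‖Tμ x - Tν x‖ ≤ 2 * M := by
    filter_upwards [hbμ, hbν] with x h1 h2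
    exact (norm_sub_le _ _).trans (by linarith)
  have hDk : ∀ k : Fin d, ∀ᵐ x ∂(unif K), ((Tμ x - Tν x) k) ^ 2 ≤ 4 * (M : ℝ) ^ 2 := by
    intro k
    filter_upwards [hD] with x hx
    have h3 : ‖(Tμ x - Tν x) k‖ ≤ ‖Tμ x - Tν x‖ := PiLp.norm_apply_le _ k
    rw [Real.norm_eq_abs] at h3
    have h4 : |(Tμ x - Tν x) k| ≤ 2 * M := h3.trans hx
    have h5 := abs_nonneg ((Tμ x - Tν x) k)
    rw [← sq_abs]
    nlinarith
  have hTμ := hBμ.meas
  have hTν := hBν.meas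
  have hmk : ∀ k : Fin d, Measurable fun x => (Tμ x - Tν x) k := by
    intro k
    fun_prop
  have hintk : ∀ k : Fin d, Integrable (fun x => ((Tμ x - Tν x) k) ^ 2) (unif K) := by
    intro k
    refine Integrable.of_bound ((hmk k).pow_const 2).aestronglyMeasurable (4 * (M : ℝ) ^ 2) ?_
    filter_upwards [hDk k] with x hx
    rw [Real.norm_eq_abs, abs_of_nonneg (sq_nonneg _)]
    exact hx
  have hintp : ∀ k : Fin d, Integrable (fun x => (max ((Tμ x - Tν x) k) 0) ^ 2) (unif K) := by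
    intro k
    refine Integrable.of_bound (((hmk k).max measurable_const).pow_const 2).aestronglyMeasurable
      (4 * (M : ℝ) ^ 2) ?_
    filter_upwards [hDk k] with x hx
    rw [Real.norm_eq_abs, abs_of_nonneg (sq_nonneg _)]
    have := sq_eq_pos_add_neg ((Tμ x - Tν x) k)
    nlinarith [sq_nonneg (max (-((Tμ x - Tν x) k)) 0)]
  have hintn : ∀ k : Fin d, Integrable (fun x => (max (-((Tμ x - Tν x) k)) 0) ^ 2) (unif K) := by
    intro k
    refine Integrable.of_bound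
      ((((hmk k).neg).max measurable_const).pow_const 2).aestronglyMeasurable (4 * (M : ℝ) ^ 2) ?_
    filter_upwards [hDk k] with x hx
    rw [Real.norm_eq_abs, abs_of_nonneg (sq_nonneg _)]
    have := sq_eq_pos_add_neg ((Tμ x - Tν x) k)
    nlinarith [sq_nonneg (max ((Tμ x - Tν x) k) 0)]
  have hpos : ∀ k : Fin d, ∫ x in S, (max ((Tμ x - Tν x) k) 0) ^ 2 ∂(unif K) ≤ B := fun k =>
    stepB hK hr hball hY hYne hYM hμ hν hBμ hBν π0 h1 h2 k hh hh1 hhr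
  have hneg : ∀ k : Fin d, ∫ x in S, (max (-((Tμ x - Tν x) k)) 0) ^ 2 ∂(unif K) ≤ B := by
    intro k
    have h1' : (π0.map Prod.swap).map Prod.fst = ν := by
      rw [Measure.map_map measurable_fst measurable_swap, ← h2]
      rfl
    have h2' : (π0.map Prod.swap).map Prod.snd = μ := by
      rw [Measure.map_map measurable_snd measurable_swap, ← h1]
      rfl
    have := stepB hK hr hball hY hYne hYM hν hμ hBν hBμ (π0.map Prod.swap) h1' h2' k hh hh1 hhr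
    rw [cost_swap] at this
    refine le_trans (le_of_eq ?_) this
    refine integral_congr_ae (Filter.Eventually.of_forall fun x => ?_)
    show (max (-((Tμ x - Tν x) k)) 0) ^ 2 = (max ((Tν x - Tμ x) k) 0) ^ 2
    congr 2
    simp
  have hcompl : ∀ k : Fin d, ∫ x in Sᶜ, ((Tμ x - Tν x) k) ^ 2 ∂(unif K) ≤
      4 * (M : ℝ) ^ 2 * (d * (h / r)) := by
    intro k
    have h3 : ‖∫ x in Sᶜ, ((Tμ x - Tν x) k) ^ 2 ∂(unif K)‖ ≤
        4 * (M : ℝ) ^ 2 * (unif K).real Sᶜ := by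
      refine norm_setIntegral_le_of_norm_le_const_ae (measure_lt_top _ _) ?_
      filter_upwards [ae_restrict_of_ae (hDk k)] with x hx
      rw [Real.norm_eq_abs, abs_of_nonneg (sq_nonneg _)]
      exact hx
    have h4 := unif_compl_shrink hK hx0 hlam0 hlam1
    calc ∫ x in Sᶜ, ((Tμ x - Tν x) k) ^ 2 ∂(unif K)
        ≤ ‖∫ x in Sᶜ, ((Tμ x - Tν x) k) ^ 2 ∂(unif K)‖ := le_abs_self _
      _ ≤ 4 * (M : ℝ) ^ 2 * (unif K).real Sᶜ := h3
      _ ≤ 4 * (M : ℝ) ^ 2 * (d * (h / r)) := mul_le_mul_of_nonneg_left h4 (by positivity)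
  have hk : ∀ k : Fin d, ∫ x, ((Tμ x - Tν x) k) ^ 2 ∂(unif K) ≤
      2 * B + 4 * (M : ℝ) ^ 2 * (d * (h / r)) := by
    intro k
    rw [← integral_add_compl hSm (hintk k)]
    have h5 : ∫ x in S, ((Tμ x - Tν x) k) ^ 2 ∂(unif K) =
        ∫ x in S, (max ((Tμ x - Tν x) k) 0) ^ 2 ∂(unif K) +
          ∫ x in S, (max (-((Tμ x - Tν x) k)) 0) ^ 2 ∂(unif K) := by
      rw [← integral_add (hintp k).integrableOn (hintn k).integrableOn]
      refine integral_congr_ae (Filter.Eventually.of_forall fun x => ?_)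
      exact sq_eq_pos_add_neg _
    rw [h5]
    linarith [hpos k, hneg k, hcompl k]
  calc ∫ x, ‖Tμ x - Tν x‖ ^ 2 ∂(unif K)
      = ∫ x, ∑ k : Fin d, ((Tμ x - Tν x) k) ^ 2 ∂(unif K) := by
        refine integral_congr_ae (Filter.Eventually.of_forall fun x => ?_)
        exact EuclideanSpace.real_norm_sq_eq _
    _ = ∑ k : Fin d, ∫ x, ((Tμ x - Tν x) k) ^ 2 ∂(unif K) :=
        integral_finsetSum _ fun k _ => hintk k
    _ ≤ ∑ _k : Fin d, (2 * B + 4 * (M : ℝ) ^ 2 * (d * (h / r))) :=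
        Finset.sum_le_sum fun k _ => hk k
    _ = d * (2 * B + 4 * (M : ℝ) ^ 2 * (d * (h / r))) := by
        rw [Finset.sum_const, Finset.card_univ, Fintype.card_fin, nsmul_eq_mul]

/-- the final constant -/
noncomputable def finC (d : ℕ) (K : Set (E d)) (RK M : ℝ≥0) (r : ℝ) : ℝ :=
  d * (6400000 * (RK : ℝ) ^ 2 * (4 * (M : ℝ) ^ 2 + 1) / (min 1 r) ^ 2 +
    8 * M * secC K RK M * min 1 r + 4 * (M : ℝ) ^ 2 * d * (min 1 r) / r)

lemma finC_nonneg (K : Set (E d)) (RK M : ℝ≥0) {r : ℝ} (hr : 0 < r) : 0 ≤ finC d K RK M r := by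
  have := secC_nonneg K RK M
  have h0 : 0 < min 1 r := lt_min one_pos hr
  unfold finC
  positivity

/-- elementary optimisation in `h` -/
lemma optimise_h {I c0 a b m h0 : ℝ} (ha : 0 ≤ a) (hb : 0 ≤ b) (hc0 : 0 ≤ c0) (hm : 1 ≤ m)
    (hcm : c0 ≤ m) (hh0 : 0 < h0)
    (H : ∀ h, 0 < h → h ≤ h0 → I ≤ a * c0 / h ^ 2 + b * h) :
    I ≤ (a * m / h0 ^ 2 + b * h0) * c0 ^ (1 / 3 : ℝ) := by
  have hm0 : 0 < m := lt_of_lt_of_le one_pos hm
  rcases hc0.eq_or_lt with hz | hpos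
  · rw [← hz, Real.zero_rpow (by norm_num), mul_zero]
    apply le_of_forall_pos_le_add
    intro ε hε
    have hq : 0 < ε / (b + 1) := by positivity
    have h3 := H (min h0 (ε / (b + 1))) (lt_min hh0 hq) (min_le_left _ _)
    rw [← hz] at h3
    have h4 : b * min h0 (ε / (b + 1)) ≤ b * (ε / (b + 1)) :=
      mul_le_mul_of_nonneg_left (min_le_right _ _) hb
    have h5 : b * (ε / (b + 1)) ≤ ε := by
      rw [mul_div_assoc', div_le_iff₀ (by positivity)]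
      nlinarith
    simp only [mul_zero, zero_div, zero_add] at h3 ⊢
    linarith
  · set θ : ℝ := (c0 / m) ^ (1 / 3 : ℝ) with hθ
    have hcm0 : 0 < c0 / m := by positivity
    have hθ0 : 0 < θ := Real.rpow_pos_of_pos hcm0 _
    have hθ1 : θ ≤ 1 := Real.rpow_le_one hcm0.le ((div_le_one hm0).mpr hcm) (by norm_num)
    have hθ3 : θ ^ 3 = c0 / m := by
      rw [hθ, ← Real.rpow_natCast, ← Real.rpow_mul hcm0.le]
      norm_num
    have hθc : θ ≤ c0 ^ (1 / 3 : ℝ) :=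
      Real.rpow_le_rpow hcm0.le (div_le_self hc0 hm) (by norm_num)
    have h3 := H (h0 * θ) (by positivity) (by nlinarith)
    have hc : c0 = m * θ ^ 3 := by
      rw [hθ3]
      field_simp
    have h4 : a * c0 / (h0 * θ) ^ 2 + b * (h0 * θ) = (a * m / h0 ^ 2 + b * h0) * θ := by
      rw [hc]
      field_simp
    rw [h4] at h3
    refine h3.trans (mul_le_mul_of_nonneg_left hθc ?_)
    positivity

/-- **`L^2` bound with exponent `1/3` (squared form).** `c0` = cost of the coupling (`≤ 4 M^2` by `cost_le`).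
If `c0 > 0` apply `l2_bound_h` with `h = h0 θ`, `h0 = min 1 r`, `θ = (c0/(4M^2+1))^(1/3) ∈ (0,1]`: then
`c0/h^2 = (4M^2+1) θ/h0^2` and `θ ≤ c0^(1/3)`. If `c0 = 0` apply `l2_bound_h` with `h → 0`. -/
theorem l2_bound {K : Set (E d)} {RK M : ℝ≥0} (hK : IsBody K RK) {x0 : E d} {r : ℝ} (hr : 0 < r)
    (hball : closedBall x0 r ⊆ K) {Y : Set (E d)}
    (hY : IsCompact Y) (hYne : Y.Nonempty) (hYM : ∀ y ∈ Y, ‖y‖ ≤ M) {μ ν : Measure (E d)}
    [IsProbabilityMeasure μ] [IsProbabilityMeasure ν] (hμ : μ Yᶜ = 0) (hν : ν Yᶜ = 0)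
    {φμ φν : E d → ℝ} {Tμ Tν : E d → E d} (hBμ : IsBr K M (0 : E d → ℝ) μ φμ Tμ)
    (hBν : IsBr K M (0 : E d → ℝ) ν φν Tν) (π0 : Measure (E d × E d))
    (h1 : π0.map Prod.fst = μ) (h2 : π0.map Prod.snd = ν) :
    ∫ x, ‖Tμ x - Tν x‖ ^ 2 ∂(unif K) ≤
      finC d K RK M r * (∫⁻ p, ‖p.1 - p.2‖ₑ ^ 2 ∂π0).toReal ^ (1 / 3 : ℝ) := by
  have hYm : MeasurableSet Y := hY.isClosed.measurableSet
  have hcost := cost_le hYm hYM hμ hν π0 h1 h2
  have hc0le : (∫⁻ p, ‖p.1 - p.2‖ₑ ^ 2 ∂π0).toReal ≤ 4 * (M : ℝ) ^ 2 :=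
    ENNReal.toReal_le_of_le_ofReal (by positivity) hcost
  have hh0 : 0 < min 1 r := lt_min one_pos hr
  have hsec := secC_nonneg K RK M
  have key := optimise_h (I := ∫ x, ‖Tμ x - Tν x‖ ^ 2 ∂(unif K))
    (c0 := (∫⁻ p, ‖p.1 - p.2‖ₑ ^ 2 ∂π0).toReal) (a := d * (6400000 * (RK : ℝ) ^ 2))
    (b := d * (8 * M * secC K RK M + 4 * (M : ℝ) ^ 2 * d / r)) (m := 4 * (M : ℝ) ^ 2 + 1)
    (h0 := min 1 r) (by positivity) (by positivity) ENNReal.toReal_nonneg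
    (by nlinarith [sq_nonneg (M : ℝ)]) (by linarith) hh0 ?_
  · refine key.trans (le_of_eq ?_)
    congr 1
    unfold finC
    ring
  · intro h hh hhh0
    have := l2_bound_h hK hr hball hY hYne hYM hμ hν hBμ hBν π0 h1 h2 hh
      (hhh0.trans (min_le_left _ _)) (hhh0.trans (min_le_right _ _))
    refine this.trans (le_of_eq ?_)
    ring

/-- `ENNReal` form -/
theorem eLpNorm_bound {K : Set (E d)} {RK M : ℝ≥0} (hK : IsBody K RK) {x0 : E d} {r : ℝ}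
    (hr : 0 < r) (hball : closedBall x0 r ⊆ K) {Y : Set (E d)}
    (hY : IsCompact Y) (hYne : Y.Nonempty) (hYM : ∀ y ∈ Y, ‖y‖ ≤ M) {μ ν : Measure (E d)}
    [IsProbabilityMeasure μ] [IsProbabilityMeasure ν] (hμ : μ Yᶜ = 0) (hν : ν Yᶜ = 0)
    {φμ φν : E d → ℝ} {Tμ Tν : E d → E d} (hBμ : IsBr K M (0 : E d → ℝ) μ φμ Tμ)
    (hBν : IsBr K M (0 : E d → ℝ) ν φν Tν) (π0 : Measure (E d × E d))
    (h1 : π0.map Prod.fst = μ) (h2 : π0.map Prod.snd = ν) :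
    eLpNorm (fun x => Tμ x - Tν x) 2 (unif K) ≤
      (Real.toNNReal (Real.sqrt (finC d K RK M r)) : ℝ≥0∞) *
        (∫⁻ p, ‖p.1 - p.2‖ₑ ^ 2 ∂π0) ^ (1 / 6 : ℝ) := by
  have hprob : IsProbabilityMeasure (unif K) := hK.isProb
  have hl2 := l2_bound hK hr hball hY hYne hYM hμ hν hBμ hBν π0 h1 h2
  have hYm : MeasurableSet Y := hY.isClosed.measurableSet
  have hcost := cost_le hYm hYM hμ hν π0 h1 h2
  have hLfin : (∫⁻ p, ‖p.1 - p.2‖ₑ ^ 2 ∂π0) ≠ ∞ := ne_top_of_le_ne_top ENNReal.ofReal_ne_top hcost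
  have hfin := finC_nonneg K RK M hr
  have hint : Integrable (fun x => ‖Tμ x - Tν x‖ ^ 2) (unif K) := by
    refine Integrable.of_bound
      (((hBμ.meas.sub hBν.meas).norm).pow_const 2).aestronglyMeasurable (4 * (M : ℝ) ^ 2) ?_
    filter_upwards [hBμ.ae_bound, hBν.ae_bound] with x h3 h4
    rw [Real.norm_eq_abs, abs_of_nonneg (sq_nonneg _)]
    have h5 : ‖Tμ x - Tν x‖ ≤ 2 * M := (norm_sub_le _ _).trans (by linarith)
    nlinarith [norm_nonneg (Tμ x - Tν x)]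
  have e1 : ∫⁻ x, ‖Tμ x - Tν x‖ₑ ^ 2 ∂(unif K) =
      ENNReal.ofReal (∫ x, ‖Tμ x - Tν x‖ ^ 2 ∂(unif K)) := by
    rw [ofReal_integral_eq_lintegral_ofReal hint (ae_of_all _ fun x => sq_nonneg _)]
    refine lintegral_congr fun x => ?_
    rw [ENNReal.ofReal_pow (norm_nonneg _), ofReal_norm]
  rw [eLpNorm_eq_lintegral_rpow_enorm_toReal (by norm_num) (by norm_num)]
  simp only [ENNReal.toReal_ofNat, ENNReal.rpow_two]
  rw [e1]
  calc (ENNReal.ofReal (∫ x, ‖Tμ x - Tν x‖ ^ 2 ∂(unif K))) ^ (1 / 2 : ℝ)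
      ≤ (ENNReal.ofReal (finC d K RK M r *
          (∫⁻ p, ‖p.1 - p.2‖ₑ ^ 2 ∂π0).toReal ^ (1 / 3 : ℝ))) ^ (1 / 2 : ℝ) :=
        ENNReal.rpow_le_rpow (ENNReal.ofReal_le_ofReal hl2) (by norm_num)
    _ = (ENNReal.ofReal (finC d K RK M r)) ^ (1 / 2 : ℝ) *
          (ENNReal.ofReal ((∫⁻ p, ‖p.1 - p.2‖ₑ ^ 2 ∂π0).toReal ^ (1 / 3 : ℝ))) ^ (1 / 2 : ℝ) := by
        rw [ENNReal.ofReal_mul hfin, ENNReal.mul_rpow_of_nonneg _ _ (by norm_num)]
    _ = (Real.toNNReal (Real.sqrt (finC d K RK M r)) : ℝ≥0∞) *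
          (∫⁻ p, ‖p.1 - p.2‖ₑ ^ 2 ∂π0) ^ (1 / 6 : ℝ) := by
        congr 1
        · rw [ENNReal.ofReal_rpow_of_nonneg hfin (by norm_num), ← Real.sqrt_eq_rpow]
          rfl
        · rw [← ENNReal.ofReal_rpow_of_nonneg ENNReal.toReal_nonneg (by norm_num),
            ENNReal.ofReal_toReal hLfin, ← ENNReal.rpow_mul]
          norm_num

end Vale.Agent.Lib.P074.Third
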