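import Vale.Agent.Lib.P074.Third.PLSets

/-!
# P074 / Third: the Hellinger-Lipschitz inequality for three sets with the midpoint property
-/

open MeasureTheory Set
open scoped ENNReal NNReal

namespace Vale.Agent.Lib.P074.Third

open Vale.Agent.Lib.P074

variable {d : ℕ}

/-- parallelogram identity for the Gaussian exponent -/
lemma sq_norm_midpoint (x x' : E d) :
    ‖(1 / 2 : ℝ) • (x + x')‖ ^ 2 = (‖x‖ ^ 2 + ‖x'‖ ^ 2) / 2 - ‖x' - x‖ ^ 2 / 4 := by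
  have h := parallelogram_law_with_norm ℝ x x'
  rw [norm_smul, norm_sub_rev x' x]
  have h2 : ‖(1 / 2 : ℝ)‖ = 1 / 2 := by
    rw [Real.norm_eq_abs, abs_of_pos (by norm_num)]
  rw [h2]
  nlinarith [h]

/-- a measurable function bounded on `K` is integrable on every measurable subset of `K` -/
lemma integrableOn_of_bdd_body {K : Set (E d)} {RK : ℝ≥0} (hK : IsBody K RK) {C : Set (E d)}
    (hCm : MeasurableSet C) (hCK : C ⊆ K) {f : E d → ℝ} (hf : Measurable f) (M : ℝ)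
    (hM : ∀ x ∈ K, |f x| ≤ M) : IntegrableOn f C (unif K) := by
  have := hK.isProb
  refine Measure.integrableOn_of_bounded (M := M) (measure_ne_top _ _)
    hf.aestronglyMeasurable ?_
  refine (ae_restrict_iff' hCm).2 (Filter.Eventually.of_forall fun x hx => ?_)
  rw [Real.norm_eq_abs]
  exact hM x (hCK hx)

lemma measurable_gw (κ : ℝ) : Measurable (gw κ : E d → ℝ) := by
  unfold gw
  fun_prop

lemma gw_pos (κ : ℝ) (x : E d) : 0 < gw κ x := Real.exp_pos _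

lemma gw_le_one {κ : ℝ} (hκ : 0 < κ) (x : E d) : gw κ x ≤ 1 := by
  unfold gw
  rw [Real.exp_le_one_iff]
  have : 0 ≤ κ * ‖x‖ ^ 2 / 2 := by positivity
  linarith

lemma abs_gw_le_one {κ : ℝ} (hκ : 0 < κ) (x : E d) : |gw κ x| ≤ 1 := by
  rw [abs_of_pos (gw_pos κ x)]
  exact gw_le_one hκ x

/-- `sqrt (P0 P1) ≤ Ph` (`pl_sets` with `α = β = γ = κ |x|^2/2`) -/
theorem hell_base {K : Set (E d)} {RK : ℝ≥0} (hK : IsBody K RK) {C0 C1 Ch : Set (E d)}
    (h0m : MeasurableSet C0) (h1m : MeasurableSet C1) (hhm : MeasurableSet Ch)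
    (h0K : C0 ⊆ K) (h1K : C1 ⊆ K) (hhK : Ch ⊆ K)
    (hmid : ∀ x ∈ C0, ∀ x' ∈ C1, (1 / 2 : ℝ) • (x + x') ∈ Ch) {κ : ℝ} (hκ : 0 < κ) :
    Real.sqrt ((∫ x in C0, gw κ x ∂(unif K)) * (∫ x in C1, gw κ x ∂(unif K))) ≤
      ∫ x in Ch, gw κ x ∂(unif K) := by
  have hm : Measurable (fun x : E d => κ * ‖x‖ ^ 2 / 2) := by fun_prop
  have hB : ∀ x ∈ K, |κ * ‖x‖ ^ 2 / 2| ≤ κ * (RK : ℝ) ^ 2 / 2 := by
    intro x hx
    have h1 : 0 ≤ κ * ‖x‖ ^ 2 / 2 := by positivity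
    rw [abs_of_nonneg h1]
    have h2 := hK.bound x hx
    have h3 : ‖x‖ ^ 2 ≤ (RK : ℝ) ^ 2 := by
      apply pow_le_pow_left₀ (norm_nonneg _) h2
    nlinarith
  have h := pl_sets hK h0m h1m hhm h0K h1K hhK hmid (fun x => κ * ‖x‖ ^ 2 / 2)
    (fun x => κ * ‖x‖ ^ 2 / 2) (fun x => κ * ‖x‖ ^ 2 / 2) hm hm hm _ hB hB hB (by
      intro x _ x' _
      rw [sq_norm_midpoint]
      have : 0 ≤ κ * ‖x' - x‖ ^ 2 := by positivity
      nlinarith)
  have hnn : 0 ≤ ∫ x in Ch, gw κ x ∂(unif K) :=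
    integral_nonneg fun x => (gw_pos κ x).le
  calc Real.sqrt ((∫ x in C0, gw κ x ∂(unif K)) * (∫ x in C1, gw κ x ∂(unif K)))
      ≤ Real.sqrt ((∫ x in Ch, gw κ x ∂(unif K)) ^ 2) := Real.sqrt_le_sqrt h
    _ = ∫ x in Ch, gw κ x ∂(unif K) := Real.sqrt_sq hnn

/-- Jensen's inequality in the form needed: `P exp (s A / P) ≤ ∫_C exp (s t) gw`. -/
lemma jensen_exp {K : Set (E d)} {RK : ℝ≥0} (hK : IsBody K RK) {C : Set (E d)}
    (hCm : MeasurableSet C) (hCK : C ⊆ K) {κ : ℝ} (hκ : 0 < κ) (t : E d → ℝ) (htm : Measurable t)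
    (B : ℝ) (htb : ∀ x ∈ K, |t x| ≤ B) (hP : 0 < ∫ x in C, gw κ x ∂(unif K)) (s : ℝ) :
    (∫ x in C, gw κ x ∂(unif K)) *
      Real.exp (s * ((∫ x in C, t x * gw κ x ∂(unif K)) / (∫ x in C, gw κ x ∂(unif K)))) ≤
      ∫ x in C, Real.exp (s * t x) * gw κ x ∂(unif K) := by
  set P := ∫ x in C, gw κ x ∂(unif K) with hPdef
  set A := ∫ x in C, t x * gw κ x ∂(unif K) with hAdef
  have hgi : IntegrableOn (fun x => gw κ x) C (unif K) :=
    integrableOn_of_bdd_body hK hCm hCK (measurable_gw κ) 1 fun x _ => abs_gw_le_one hκ x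
  have hti : IntegrableOn (fun x => t x * gw κ x) C (unif K) := by
    refine integrableOn_of_bdd_body hK hCm hCK (htm.mul (measurable_gw κ)) |B| fun x hx => ?_
    rw [abs_mul]
    calc |t x| * |gw κ x| ≤ |B| * 1 :=
          mul_le_mul ((htb x hx).trans (le_abs_self B)) (abs_gw_le_one hκ x) (abs_nonneg _)
            (abs_nonneg _)
      _ = |B| := mul_one _
  have hei : IntegrableOn (fun x => Real.exp (s * t x) * gw κ x) C (unif K) := by
    refine integrableOn_of_bdd_body hK hCm hCK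
      (((htm.const_mul s).exp).mul (measurable_gw κ)) (Real.exp (|s| * |B|)) fun x hx => ?_
    rw [abs_mul, abs_of_pos (Real.exp_pos _)]
    calc Real.exp (s * t x) * |gw κ x| ≤ Real.exp (|s| * |B|) * 1 := by
          refine mul_le_mul ?_ (abs_gw_le_one hκ x) (abs_nonneg _) (Real.exp_pos _).le
          rw [Real.exp_le_exp]
          calc s * t x ≤ |s * t x| := le_abs_self _
            _ = |s| * |t x| := abs_mul _ _
            _ ≤ |s| * |B| :=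
              mul_le_mul_of_nonneg_left ((htb x hx).trans (le_abs_self B)) (abs_nonneg _)
      _ = Real.exp (|s| * |B|) := mul_one _
  have hlin : ∫ x in C, Real.exp (s * (A / P)) * ((1 - s * (A / P)) * gw κ x
      + s * (t x * gw κ x)) ∂(unif K) = P * Real.exp (s * (A / P)) := by
    rw [integral_const_mul, integral_add (hgi.const_mul _) (hti.const_mul _),
      integral_const_mul, integral_const_mul, ← hPdef, ← hAdef]
    field_simp
    ring
  rw [← hlin]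
  refine setIntegral_mono ?_ hei fun x => ?_
  · exact ((hgi.const_mul _).add (hti.const_mul _)).const_mul _
  · have h1 : s * (t x - A / P) + 1 ≤ Real.exp (s * (t x - A / P)) := Real.add_one_le_exp _
    have h2 : Real.exp (s * t x) = Real.exp (s * (A / P)) * Real.exp (s * (t x - A / P)) := by
      rw [← Real.exp_add]
      congr 1
      ring
    simp only
    rw [h2, mul_assoc]
    refine mul_le_mul_of_nonneg_left ?_ (Real.exp_pos _).le
    have h3 := mul_le_mul_of_nonneg_right h1 (gw_pos κ x).le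
    calc (1 - s * (A / P)) * gw κ x + s * (t x * gw κ x)
        = (s * (t x - A / P) + 1) * gw κ x := by ring
      _ ≤ _ := h3

/-- exponential form: for every real `lam`,
`sqrt(P0 P1) * exp (lam * Δ / 2 - lam^2 L^2 / (2 κ)) ≤ Ph`, where `Δ = A1/P1 - A0/P0`.
Plan: `pl_sets` with `α = κ|x|^2/2 + lam t + c`, `β = κ|x|^2/2 - lam t + c`, `γ = κ|x|^2/2`,
`c = lam^2 L^2/(2κ)`; the hypothesis of `pl_sets` reduces (by `sq_norm_midpoint`) to
`lam (t x' - t x)/2 ≤ κ r^2/8 + c` with `r = |x' - x|`, which follows from `|t x' - t x| ≤ L r` and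
`(κ r/2 - |lam| L)^2 ≥ 0`. Then Jensen: `∫_{C0} exp(-lam t) gw ≥ P0 exp(-lam A0/P0)` (from
`exp u ≥ 1 + u` applied to `u = -lam (t x - A0/P0)`), same on `C1`. -/
theorem hell_exp {K : Set (E d)} {RK : ℝ≥0} (hK : IsBody K RK) {C0 C1 Ch : Set (E d)}
    (h0m : MeasurableSet C0) (h1m : MeasurableSet C1) (hhm : MeasurableSet Ch)
    (h0K : C0 ⊆ K) (h1K : C1 ⊆ K) (hhK : Ch ⊆ K)
    (hmid : ∀ x ∈ C0, ∀ x' ∈ C1, (1 / 2 : ℝ) • (x + x') ∈ Ch)
    {κ L : ℝ} (hκ : 0 < κ) (hL : 0 < L) (t : E d → ℝ) (htm : Measurable t)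
    (B : ℝ) (htb : ∀ x ∈ K, |t x| ≤ B)
    (htL : ∀ x ∈ C0, ∀ x' ∈ C1, |t x' - t x| ≤ L * ‖x' - x‖)
    (hP0 : 0 < ∫ x in C0, gw κ x ∂(unif K)) (hP1 : 0 < ∫ x in C1, gw κ x ∂(unif K)) (lam : ℝ) :
    Real.sqrt ((∫ x in C0, gw κ x ∂(unif K)) * (∫ x in C1, gw κ x ∂(unif K))) *
      Real.exp (lam * ((∫ x in C1, t x * gw κ x ∂(unif K)) / (∫ x in C1, gw κ x ∂(unif K)) -
        (∫ x in C0, t x * gw κ x ∂(unif K)) / (∫ x in C0, gw κ x ∂(unif K))) / 2
          - lam ^ 2 * L ^ 2 / (2 * κ))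
      ≤ ∫ x in Ch, gw κ x ∂(unif K) := by
  set P0 := ∫ x in C0, gw κ x ∂(unif K) with hP0def
  set P1 := ∫ x in C1, gw κ x ∂(unif K) with hP1def
  set A0 := ∫ x in C0, t x * gw κ x ∂(unif K) with hA0def
  set A1 := ∫ x in C1, t x * gw κ x ∂(unif K) with hA1def
  set Ph := ∫ x in Ch, gw κ x ∂(unif K) with hPhdef
  set c : ℝ := lam ^ 2 * L ^ 2 / (2 * κ) with hc
  have hc0 : 0 ≤ c := by positivity
  have hm : Measurable (fun x : E d => κ * ‖x‖ ^ 2 / 2) := by fun_prop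
  have hB : ∀ x ∈ K, |κ * ‖x‖ ^ 2 / 2| ≤ κ * (RK : ℝ) ^ 2 / 2 := by
    intro x hx
    have h1 : 0 ≤ κ * ‖x‖ ^ 2 / 2 := by positivity
    rw [abs_of_nonneg h1]
    have h2 := hK.bound x hx
    have h3 : ‖x‖ ^ 2 ≤ (RK : ℝ) ^ 2 := by
      apply pow_le_pow_left₀ (norm_nonneg _) h2
    nlinarith
  have hlt : ∀ x ∈ K, |lam * t x| ≤ |lam| * |B| := by
    intro x hx
    rw [abs_mul]
    exact mul_le_mul_of_nonneg_left ((htb x hx).trans (le_abs_self B)) (abs_nonneg _)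
  set BB : ℝ := κ * (RK : ℝ) ^ 2 / 2 + |lam| * |B| + c with hBB
  have hαB : ∀ x ∈ K, |κ * ‖x‖ ^ 2 / 2 + lam * t x + c| ≤ BB := by
    intro x hx
    calc |κ * ‖x‖ ^ 2 / 2 + lam * t x + c| ≤ |κ * ‖x‖ ^ 2 / 2 + lam * t x| + |c| := abs_add_le _ _
      _ ≤ |κ * ‖x‖ ^ 2 / 2| + |lam * t x| + |c| := by gcongr; exact abs_add_le _ _
      _ ≤ BB := by
        rw [abs_of_nonneg hc0]
        have := hB x hx
        have := hlt x hx
        linarith
  have hβB : ∀ x ∈ K, |κ * ‖x‖ ^ 2 / 2 - lam * t x + c| ≤ BB := by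
    intro x hx
    calc |κ * ‖x‖ ^ 2 / 2 - lam * t x + c| ≤ |κ * ‖x‖ ^ 2 / 2 - lam * t x| + |c| := abs_add_le _ _
      _ ≤ |κ * ‖x‖ ^ 2 / 2| + |lam * t x| + |c| := by gcongr; exact abs_sub _ _
      _ ≤ BB := by
        rw [abs_of_nonneg hc0]
        have := hB x hx
        have := hlt x hx
        linarith
  have hγB : ∀ x ∈ K, |κ * ‖x‖ ^ 2 / 2| ≤ BB := by
    intro x hx
    have := hB x hx
    have : 0 ≤ |lam| * |B| := by positivity
    linarith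
  have h := pl_sets hK h0m h1m hhm h0K h1K hhK hmid (fun x => κ * ‖x‖ ^ 2 / 2 + lam * t x + c)
    (fun x => κ * ‖x‖ ^ 2 / 2 - lam * t x + c) (fun x => κ * ‖x‖ ^ 2 / 2)
    ((hm.add (htm.const_mul lam)).add_const c) ((hm.sub (htm.const_mul lam)).add_const c) hm
    BB hαB hβB hγB (by
      intro x hx x' hx'
      rw [sq_norm_midpoint]
      set r := ‖x' - x‖ with hr
      have hr0 : 0 ≤ r := norm_nonneg _
      have h1 : lam * (t x' - t x) ≤ |lam| * (L * r) := by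
        calc lam * (t x' - t x) ≤ |lam * (t x' - t x)| := le_abs_self _
          _ = |lam| * |t x' - t x| := abs_mul _ _
          _ ≤ |lam| * (L * r) := mul_le_mul_of_nonneg_left (htL x hx x' hx') (abs_nonneg _)
      have h2 : |lam| * (L * r) / 2 ≤ κ * r ^ 2 / 8 + c := by
        rw [hc, ← sq_abs lam]
        have h3 : 0 ≤ (κ * r - 2 * |lam| * L) ^ 2 := sq_nonneg _
        rw [div_add_div _ _ (by norm_num) (by positivity), div_le_div_iff₀ (by norm_num)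
          (by positivity)]
        nlinarith [h3]
      nlinarith)
  have e0 : ∫ x in C0, Real.exp (-(κ * ‖x‖ ^ 2 / 2 + lam * t x + c)) ∂(unif K) =
      Real.exp (-c) * ∫ x in C0, Real.exp ((-lam) * t x) * gw κ x ∂(unif K) := by
    rw [← integral_const_mul]
    congr 1
    ext x
    unfold gw
    rw [← Real.exp_add, ← Real.exp_add]
    congr 1
    ring
  have e1 : ∫ x in C1, Real.exp (-(κ * ‖x‖ ^ 2 / 2 - lam * t x + c)) ∂(unif K) =
      Real.exp (-c) * ∫ x in C1, Real.exp (lam * t x) * gw κ x ∂(unif K) := by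
    rw [← integral_const_mul]
    congr 1
    ext x
    unfold gw
    rw [← Real.exp_add, ← Real.exp_add]
    congr 1
    ring
  have j0 := jensen_exp hK h0m h0K hκ t htm B htb hP0 (-lam)
  have j1 := jensen_exp hK h1m h1K hκ t htm B htb hP1 lam
  rw [← hP0def, ← hA0def] at j0
  rw [← hP1def, ← hA1def] at j1
  rw [e0, e1] at h
  have hPh' : ∫ x in Ch, Real.exp (-(κ * ‖x‖ ^ 2 / 2)) ∂(unif K) = Ph := rfl
  rw [hPh'] at h
  have hnn : 0 ≤ Ph := integral_nonneg fun x => (gw_pos κ x).le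
  have key : (P0 * P1) * (Real.exp (lam * (A1 / P1 - A0 / P0) / 2 - c)) ^ 2 ≤ Ph ^ 2 := by
    refine le_trans (le_of_eq ?_) (le_trans (mul_le_mul
      (mul_le_mul_of_nonneg_left j0 (Real.exp_pos (-c)).le)
      (mul_le_mul_of_nonneg_left j1 (Real.exp_pos (-c)).le) (by positivity) ?_) h)
    · rw [← Real.exp_nat_mul]
      have : Real.exp (((2 : ℕ) : ℝ) * (lam * (A1 / P1 - A0 / P0) / 2 - c)) =
          Real.exp (-c) * Real.exp (-lam * (A0 / P0)) * (Real.exp (-c) *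
            Real.exp (lam * (A1 / P1))) := by
        rw [← Real.exp_add, ← Real.exp_add, ← Real.exp_add]
        congr 1
        push_cast
        ring
      rw [this]
      ring
    · exact mul_nonneg (Real.exp_pos _).le
        (integral_nonneg fun x => mul_nonneg (Real.exp_pos _).le (gw_pos κ x).le)
  have hs : Real.sqrt (P0 * P1) * Real.exp (lam * (A1 / P1 - A0 / P0) / 2 - c) =
      Real.sqrt ((P0 * P1) * (Real.exp (lam * (A1 / P1 - A0 / P0) / 2 - c)) ^ 2) := by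
    rw [Real.sqrt_mul (mul_pos hP0 hP1).le (_ ^ 2), Real.sqrt_sq (Real.exp_pos _).le]
  rw [hs]
  calc Real.sqrt ((P0 * P1) * (Real.exp (lam * (A1 / P1 - A0 / P0) / 2 - c)) ^ 2)
      ≤ Real.sqrt (Ph ^ 2) := Real.sqrt_le_sqrt key
    _ = Ph := Real.sqrt_sq hnn

/-- **Hellinger-Lipschitz inequality.** From `hell_exp` with `lam = κ Δ / (2 L^2)` and
`exp u ≥ 1 + u`. -/
theorem hell_lip {K : Set (E d)} {RK : ℝ≥0} (hK : IsBody K RK) {C0 C1 Ch : Set (E d)}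
    (h0m : MeasurableSet C0) (h1m : MeasurableSet C1) (hhm : MeasurableSet Ch)
    (h0K : C0 ⊆ K) (h1K : C1 ⊆ K) (hhK : Ch ⊆ K)
    (hmid : ∀ x ∈ C0, ∀ x' ∈ C1, (1 / 2 : ℝ) • (x + x') ∈ Ch)
    {κ L : ℝ} (hκ : 0 < κ) (hL : 0 < L) (t : E d → ℝ) (htm : Measurable t)
    (B : ℝ) (htb : ∀ x ∈ K, |t x| ≤ B)
    (htL : ∀ x ∈ C0, ∀ x' ∈ C1, |t x' - t x| ≤ L * ‖x' - x‖)
    (hP0 : 0 < ∫ x in C0, gw κ x ∂(unif K)) (hP1 : 0 < ∫ x in C1, gw κ x ∂(unif K)) :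
    κ * Real.sqrt ((∫ x in C0, gw κ x ∂(unif K)) * (∫ x in C1, gw κ x ∂(unif K))) *
      ((∫ x in C1, t x * gw κ x ∂(unif K)) / (∫ x in C1, gw κ x ∂(unif K)) -
        (∫ x in C0, t x * gw κ x ∂(unif K)) / (∫ x in C0, gw κ x ∂(unif K))) ^ 2
      ≤ 8 * L ^ 2 * ((∫ x in Ch, gw κ x ∂(unif K)) -
          Real.sqrt ((∫ x in C0, gw κ x ∂(unif K)) * (∫ x in C1, gw κ x ∂(unif K)))) := by
  set Δ := (∫ x in C1, t x * gw κ x ∂(unif K)) / (∫ x in C1, gw κ x ∂(unif K)) -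
        (∫ x in C0, t x * gw κ x ∂(unif K)) / (∫ x in C0, gw κ x ∂(unif K)) with hΔ
  have h := hell_exp hK h0m h1m hhm h0K h1K hhK hmid hκ hL t htm B htb htL hP0 hP1
    (κ * Δ / (2 * L ^ 2))
  rw [← hΔ] at h
  set S := Real.sqrt ((∫ x in C0, gw κ x ∂(unif K)) * (∫ x in C1, gw κ x ∂(unif K))) with hS
  set Ph := ∫ x in Ch, gw κ x ∂(unif K) with hPh
  have hS0 : 0 ≤ S := Real.sqrt_nonneg _
  have he : κ * Δ / (2 * L ^ 2) * Δ / 2 - (κ * Δ / (2 * L ^ 2)) ^ 2 * L ^ 2 / (2 * κ) =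
      κ * Δ ^ 2 / (8 * L ^ 2) := by
    field_simp
    ring
  rw [he] at h
  have h1 : κ * Δ ^ 2 / (8 * L ^ 2) + 1 ≤ Real.exp (κ * Δ ^ 2 / (8 * L ^ 2)) :=
    Real.add_one_le_exp _
  have h2 : S * (κ * Δ ^ 2 / (8 * L ^ 2) + 1) ≤ Ph :=
    (mul_le_mul_of_nonneg_left h1 hS0).trans h
  have h3 : S * (κ * Δ ^ 2 / (8 * L ^ 2)) ≤ Ph - S := by linarith
  have h4 : S * (κ * Δ ^ 2 / (8 * L ^ 2)) = (κ * S * Δ ^ 2) / (8 * L ^ 2) := by ring
  rw [h4, div_le_iff₀ (by positivity)] at h3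
  linarith

end Vale.Agent.Lib.P074.Third
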