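import Vale.Agent.Lib.P074.Third.HellLip
import Vale.Agent.Lib.P074.Third.CellsB

/-!
# P074 / Third: the closing argument: the Hellinger defect of the Gaussian masses is `O(∫ g^2)`
-/

open MeasureTheory Set
open scoped ENNReal NNReal

namespace Vale.Agent.Lib.P074.Third

open Vale.Agent.Lib.P074

variable {d : ℕ} {ι : Type*} [Fintype ι]

lemma kap_pos {RK : ℝ≥0} (h : 0 < RK) : 0 < kap RK := by
  unfold kap
  have : (0 : ℝ) < RK := by exact_mod_cast h
  positivity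

lemma continuous_gw (κ : ℝ) : Continuous (gw κ : E d → ℝ) := by
  unfold gw
  fun_prop

/-- the exponent is between `0` and `1/256` on `K` -/
lemma kap_exponent_bounds {K : Set (E d)} {RK : ℝ≥0} (hK : IsBody K RK) {x : E d} (hx : x ∈ K) :
    0 ≤ kap RK * ‖x‖ ^ 2 / 2 ∧ kap RK * ‖x‖ ^ 2 / 2 ≤ 1 / 256 := by
  have hR : (0 : ℝ) < RK := by exact_mod_cast hK.pos
  have hκ := kap_pos hK.pos
  have hxb := hK.bound x hx
  refine ⟨by positivity, ?_⟩
  have h2 : ‖x‖ ^ 2 ≤ (RK : ℝ) ^ 2 := pow_le_pow_left₀ (norm_nonneg _) hxb 2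
  have h3 : kap RK * (RK : ℝ) ^ 2 = 1 / 128 := by
    unfold kap
    field_simp
  nlinarith

/-- on `K` the Gaussian weight lies in `[exp(-1/256), 1]` -/
lemma gw_kap_bounds {K : Set (E d)} {RK : ℝ≥0} (hK : IsBody K RK) {x : E d} (hx : x ∈ K) :
    Real.exp (-(1 / 256)) ≤ gw (kap RK) x ∧ gw (kap RK) x ≤ 1 := by
  obtain ⟨h0, h1⟩ := kap_exponent_bounds hK hx
  unfold gw
  constructor
  · exact Real.exp_le_exp.mpr (by linarith)
  · exact Real.exp_le_one_iff.mpr (by linarith)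

lemma integrable_gw {K : Set (E d)} {RK : ℝ≥0} (hK : IsBody K RK) (κ : ℝ) (hκ : 0 ≤ κ) :
    Integrable (gw κ : E d → ℝ) (unif K) := by
  have := hK.isProb
  refine Integrable.of_bound (continuous_gw κ).aestronglyMeasurable 1 (Filter.Eventually.of_forall ?_)
  intro x
  rw [Real.norm_eq_abs, abs_of_pos (gw_pos κ x)]
  unfold gw
  exact Real.exp_le_one_iff.mpr (by
    have : 0 ≤ κ * ‖x‖ ^ 2 / 2 := by positivity
    linarith)

/-- comparison of the Gaussian mass with the uniform mass -/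
lemma gm_bounds {K : Set (E d)} {RK : ℝ≥0} (hK : IsBody K RK) {A : Set (E d)}
    (hA : MeasurableSet A) (hAK : A ⊆ K) :
    Real.exp (-(1 / 256)) * (unif K).real A ≤ gm K RK A ∧ gm K RK A ≤ (unif K).real A := by
  have := hK.isProb
  have hint := (integrable_gw hK (kap RK) (kap_pos hK.pos).le).integrableOn (s := A)
  unfold gm
  constructor
  · have h1 : ∫ _x in A, Real.exp (-(1 / 256)) ∂(unif K) = Real.exp (-(1 / 256)) * (unif K).real A := by
      rw [setIntegral_const, smul_eq_mul, mul_comm]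
    rw [← h1]
    exact setIntegral_mono_on (integrableOn_const (by simp)) hint hA
      (fun x hx => (gw_kap_bounds hK (hAK hx)).1)
  · have h1 : ∫ _x in A, (1 : ℝ) ∂(unif K) = (unif K).real A := by
      rw [setIntegral_const, smul_eq_mul, mul_one]
    rw [← h1]
    exact setIntegral_mono_on hint (integrableOn_const (by simp)) hA
      (fun x hx => (gw_kap_bounds hK (hAK hx)).2)

lemma exp_sub_exp_le {a b : ℝ} (hab : a ≤ b) :
    |Real.exp b - Real.exp a| ≤ Real.exp b * (b - a) := by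
  rw [abs_of_nonneg (sub_nonneg.mpr (Real.exp_le_exp.mpr hab))]
  have h1 : Real.exp a = Real.exp b * Real.exp (a - b) := by
    rw [← Real.exp_add]
    congr 1
    ring
  have h2 := Real.add_one_le_exp (a - b)
  have h3 := Real.exp_pos b
  rw [h1]
  nlinarith

lemma exp_one_div_le : Real.exp (1 / 256) ≤ 256 / 255 := by
  have h := Real.add_one_le_exp (-(1 / 256 : ℝ))
  have h2 : Real.exp (1 / 256) * Real.exp (-(1 / 256 : ℝ)) = 1 := by
    rw [← Real.exp_add]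
    simp
  have h3 := Real.exp_pos (1 / 256 : ℝ)
  nlinarith

lemma le_exp_neg_one_div : (255 / 256 : ℝ) ≤ Real.exp (-(1 / 256)) := by
  have h := Real.add_one_le_exp (-(1 / 256 : ℝ))
  linarith

/-- `1 / gw` is `2 κ RK`-Lipschitz on `K` -/
lemma inv_gw_lipschitz {K : Set (E d)} {RK : ℝ≥0} (hK : IsBody K RK) {x x' : E d} (hx : x ∈ K)
    (hx' : x' ∈ K) :
    |(gw (kap RK) x')⁻¹ - (gw (kap RK) x)⁻¹| ≤ 2 * kap RK * RK * ‖x' - x‖ := by
  have hκ := kap_pos hK.pos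
  have hR : (0 : ℝ) < RK := by exact_mod_cast hK.pos
  obtain ⟨h0, h1⟩ := kap_exponent_bounds hK hx
  obtain ⟨h0', h1'⟩ := kap_exponent_bounds hK hx'
  have e1 : ∀ z : E d, (gw (kap RK) z)⁻¹ = Real.exp (kap RK * ‖z‖ ^ 2 / 2) := by
    intro z
    unfold gw
    rw [← Real.exp_neg, neg_neg]
  rw [e1, e1]
  -- difference of the exponents
  have hdiff : |kap RK * ‖x'‖ ^ 2 / 2 - kap RK * ‖x‖ ^ 2 / 2| ≤ kap RK * RK * ‖x' - x‖ := by
    have h2 : kap RK * ‖x'‖ ^ 2 / 2 - kap RK * ‖x‖ ^ 2 / 2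
        = kap RK / 2 * ((‖x'‖ - ‖x‖) * (‖x'‖ + ‖x‖)) := by ring
    rw [h2, abs_mul, abs_mul, abs_of_pos (by positivity : 0 < kap RK / 2)]
    have h3 : |‖x'‖ - ‖x‖| ≤ ‖x' - x‖ := abs_norm_sub_norm_le x' x
    have h4 : |‖x'‖ + ‖x‖| ≤ 2 * RK := by
      rw [abs_of_nonneg (by positivity)]
      have := hK.bound x hx
      have := hK.bound x' hx'
      linarith
    calc kap RK / 2 * (|‖x'‖ - ‖x‖| * |‖x'‖ + ‖x‖|)
        ≤ kap RK / 2 * (‖x' - x‖ * (2 * RK)) := by gcongr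
      _ = kap RK * RK * ‖x' - x‖ := by ring
  have hexp : ∀ u v : ℝ, u ≤ 1 / 256 → v ≤ 1 / 256 → |Real.exp u - Real.exp v| ≤ 2 * |u - v| := by
    intro u v hu hv
    have hb : ∀ w : ℝ, w ≤ 1 / 256 → Real.exp w ≤ 2 := fun w hw =>
      (Real.exp_le_exp.mpr hw).trans (exp_one_div_le.trans (by norm_num))
    rcases le_total u v with h | h
    · rw [abs_sub_comm, abs_sub_comm u v, abs_of_nonneg (sub_nonneg.mpr h)]
      exact (exp_sub_exp_le h).trans (mul_le_mul_of_nonneg_right (hb v hv) (sub_nonneg.mpr h))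
    · rw [abs_of_nonneg (sub_nonneg.mpr h)]
      exact (exp_sub_exp_le h).trans (mul_le_mul_of_nonneg_right (hb u hu) (sub_nonneg.mpr h))
  calc |Real.exp (kap RK * ‖x'‖ ^ 2 / 2) - Real.exp (kap RK * ‖x‖ ^ 2 / 2)|
      ≤ 2 * |kap RK * ‖x'‖ ^ 2 / 2 - kap RK * ‖x‖ ^ 2 / 2| := hexp _ _ h1' h1
    _ ≤ 2 * (kap RK * RK * ‖x' - x‖) := by gcongr
    _ = 2 * kap RK * RK * ‖x' - x‖ := by ring

/-- the defect of the cell `i` -/
noncomputable def defect (K : Set (E d)) (RK : ℝ≥0) (y : ι → E d) (a0 a1 : ι → ℝ) (i : ι) : ℝ :=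
  gm K RK (cell K y (midw a0 a1) i) -
    Real.sqrt (gm K RK (cell K y a0 i) * gm K RK (cell K y a1 i))

lemma defect_nonneg {K : Set (E d)} {RK : ℝ≥0} (hK : IsBody K RK) (y : ι → E d) (a0 a1 : ι → ℝ)
    (i : ι) : 0 ≤ defect K RK y a0 a1 i := by
  have hKm := hK.compact.measurableSet
  unfold defect gm
  exact sub_nonneg.mpr (hell_base hK (measurableSet_cell hKm y a0 i) (measurableSet_cell hKm y a1 i)
    (measurableSet_cell hKm y _ i) (cell_subset _ _ _ _) (cell_subset _ _ _ _) (cell_subset _ _ _ _)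
    (fun x hx x' hx' => midpoint_mem_cell hK.convex hx hx') (kap_pos hK.pos))

/-- pure algebra used in `hellinger_bound`, for one cell. Notation: `p0, p1` Gaussian masses,
`m` the common mass, `e = ∫_{L^1} g dρ`, `D = (m - e)/p1 - m/p0`.
Proof: `p0 - p1 = (p0/m) (p1 D + e)`, so `|p0 - p1| ≤ p1 |D| + |e|`;
`(sqrt p0 - sqrt p1)^2 = (p0 - p1)^2/(sqrt p0 + sqrt p1)^2 ≤ (p0-p1)^2/(p0+p1) ≤ 2 (p1^2 D^2 + e^2)/(p0 + p1)`;
`p1^2/(p0+p1) ≤ sqrt(p0 p1)` because `p1 ≤ 2 p0` (set `r = p1/p0 ≤ 2`, `r^(3/2) ≤ 1 + r`, i.e. `r^3 ≤ (1+r)^2`). -/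
lemma hellinger_cell_algebra {p0 p1 m e : ℝ} (hp0 : 0 < p0) (hp1 : 0 < p1) (hm : 0 < m)
    (h0m : p0 ≤ m) (h12 : p1 ≤ 2 * p0) :
    (Real.sqrt p0 - Real.sqrt p1) ^ 2 / 2 ≤
      Real.sqrt (p0 * p1) * ((m - e) / p1 - m / p0) ^ 2 + e ^ 2 / p0 := by
  set D := (m - e) / p1 - m / p0 with hD
  set s0 := Real.sqrt p0 with hs0
  set s1 := Real.sqrt p1 with hs1
  have hs0p : 0 < s0 := Real.sqrt_pos.mpr hp0
  have hs1p : 0 < s1 := Real.sqrt_pos.mpr hp1
  have e0 : s0 ^ 2 = p0 := Real.sq_sqrt hp0.le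
  have e1 : s1 ^ 2 = p1 := Real.sq_sqrt hp1.le
  have es : Real.sqrt (p0 * p1) = s0 * s1 := Real.sqrt_mul hp0.le p1
  rw [es]
  -- the identity
  have hX : p1 * D + e = m * (p0 - p1) / p0 := by
    rw [hD]
    field_simp
    ring
  have hX2 : (p0 - p1) ^ 2 ≤ (p1 * D + e) ^ 2 := by
    rw [hX, div_pow, mul_pow, le_div_iff₀ (by positivity)]
    have : p0 ^ 2 ≤ m ^ 2 := pow_le_pow_left₀ hp0.le h0m 2
    nlinarith [sq_nonneg (p0 - p1)]
  have hX3 : (p1 * D + e) ^ 2 ≤ 2 * (p1 ^ 2 * D ^ 2 + e ^ 2) := by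
    nlinarith [sq_nonneg (p1 * D - e)]
  have h4 : (s0 - s1) ^ 2 * (p0 + p1) ≤ (p0 - p1) ^ 2 := by
    have : (p0 - p1) ^ 2 = (s0 - s1) ^ 2 * (s0 + s1) ^ 2 := by
      rw [← e0, ← e1]
      ring
    rw [this]
    apply mul_le_mul_of_nonneg_left _ (sq_nonneg _)
    rw [← e0, ← e1]
    nlinarith
  have h5 : (s0 - s1) ^ 2 / 2 ≤ (p1 ^ 2 * D ^ 2 + e ^ 2) / (p0 + p1) := by
    rw [le_div_iff₀ (by positivity)]
    linarith
  have h6 : p1 ^ 2 ≤ s0 * s1 * (p0 + p1) := by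
    have h7 : p1 ^ 3 ≤ p0 * (p0 + p1) ^ 2 := by
      nlinarith [mul_pos hp0 hp1, mul_nonneg hp1.le (mul_nonneg hp1.le (sub_nonneg.mpr h12)),
        mul_nonneg hp0.le (mul_nonneg hp1.le (sub_nonneg.mpr h12)), pow_pos hp0 3]
    have h8 : (p1 ^ 2) ^ 2 ≤ (s0 * s1 * (p0 + p1)) ^ 2 := by
      have : (s0 * s1 * (p0 + p1)) ^ 2 = p0 * p1 * (p0 + p1) ^ 2 := by
        rw [mul_pow, mul_pow, e0, e1]
      rw [this]
      nlinarith
    exact (sq_le_sq₀ (by positivity) (by positivity)).mp h8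
  calc (s0 - s1) ^ 2 / 2 ≤ (p1 ^ 2 * D ^ 2 + e ^ 2) / (p0 + p1) := h5
    _ = p1 ^ 2 * D ^ 2 / (p0 + p1) + e ^ 2 / (p0 + p1) := by rw [add_div]
    _ ≤ s0 * s1 * D ^ 2 + e ^ 2 / p0 := by
        apply add_le_add
        · rw [div_le_iff₀ (by positivity)]
          nlinarith [sq_nonneg D]
        · apply div_le_div_of_nonneg_left (sq_nonneg e) hp0
          linarith

lemma unif_compl {K : Set (E d)} {RK : ℝ≥0} (hK : IsBody K RK) : unif K Kᶜ = 0 := by
  have h := src_compl hK (0 : E d → ℝ)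
  rwa [src_zero] at h

lemma sum_gm_cell [Nonempty ι] {K : Set (E d)} {RK : ℝ≥0} (hK : IsBody K RK) {y : ι → E d}
    (hy : Function.Injective y) (a : ι → ℝ) :
    ∑ i, gm K RK (cell K y a i) = ∫ x, gw (kap RK) x ∂(unif K) := by
  unfold gm
  exact (integral_eq_sum_cell hK.compact.measurableSet hy a (unif K) (unif_ac K) (unif_compl hK) _
    (integrable_gw hK _ (kap_pos hK.pos).le)).symm

lemma integrable_pert {K : Set (E d)} {RK : ℝ≥0} (hK : IsBody K RK) {g : E d → ℝ}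
    (hg : IsPert K g) : Integrable g (unif K) := by
  have := hK.isProb
  exact Integrable.of_bound hg.meas.aestronglyMeasurable (1 / 3)
    (Filter.Eventually.of_forall fun x => by rw [Real.norm_eq_abs]; exact hg.bound x)

lemma integrable_pert_sq {K : Set (E d)} {RK : ℝ≥0} (hK : IsBody K RK) {g : E d → ℝ}
    (hg : IsPert K g) : Integrable (fun x => g x ^ 2) (unif K) := by
  have := hK.isProb
  refine Integrable.of_bound (hg.meas.pow_const 2).aestronglyMeasurable 1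
    (Filter.Eventually.of_forall fun x => ?_)
  rw [Real.norm_eq_abs, abs_of_nonneg (sq_nonneg _)]
  have h := abs_le.mp (hg.bound x)
  nlinarith [h.1, h.2]

/-- Cauchy-Schwarz on a set -/
lemma sq_setIntegral_le {K : Set (E d)} {RK : ℝ≥0} (hK : IsBody K RK) {g : E d → ℝ}
    (hg : IsPert K g) (A : Set (E d)) :
    (∫ x in A, g x ∂(unif K)) ^ 2 ≤ (unif K).real A * ∫ x in A, g x ^ 2 ∂(unif K) := by
  have := hK.isProb
  have hgi := (integrable_pert hK hg).integrableOn (s := A)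
  have hgi2 := (integrable_pert_sq hK hg).integrableOn (s := A)
  have key : ∀ c : ℝ, 0 ≤ (unif K).real A * (c * c) + (-2 * ∫ x in A, g x ∂(unif K)) * c
      + ∫ x in A, g x ^ 2 ∂(unif K) := by
    intro c
    have h1 : 0 ≤ ∫ x in A, (g x - c) ^ 2 ∂(unif K) := integral_nonneg fun x => sq_nonneg _
    have h2 : ∫ x in A, (g x - c) ^ 2 ∂(unif K)
        = ∫ x in A, (g x ^ 2 - (2 * c) * g x + c * c) ∂(unif K) := by
      refine integral_congr_ae (Filter.Eventually.of_forall fun x => ?_)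
      simp only
      ring
    have hs : Integrable (fun x => g x ^ 2 - 2 * c * g x) ((unif K).restrict A) :=
      hgi2.sub (hgi.const_mul _)
    have hm : Integrable (fun x => 2 * c * g x) ((unif K).restrict A) := hgi.const_mul _
    have hc : Integrable (fun _ : E d => c * c) ((unif K).restrict A) := integrable_const _
    rw [h2, integral_add hs hc, integral_sub hgi2 hm, integral_const_mul, setIntegral_const,
      smul_eq_mul] at h1
    linarith
  have hd := discrim_le_zero key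
  unfold discrim at hd
  nlinarith

/-- the estimate for one cell -/
lemma hellinger_cell {K : Set (E d)} {RK : ℝ≥0} (hK : IsBody K RK) {g : E d → ℝ}
    (hg : IsPert K g) (y : ι → E d) (a0 a1 : ι → ℝ) (i : ι) {m : ℝ} (hm : 0 < m)
    (h0 : (unif K).real (cell K y a0 i) = m) (h1 : (src K g).real (cell K y a1 i) = m) :
    (Real.sqrt (gm K RK (cell K y a0 i)) - Real.sqrt (gm K RK (cell K y a1 i))) ^ 2 / 2 ≤
      defect K RK y a0 a1 i / 4 + 2 * ∫ x in cell K y a1 i, g x ^ 2 ∂(unif K) := by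
  have hprob := hK.isProb
  have hKm := hK.compact.measurableSet
  have hκ := kap_pos hK.pos
  have hR : (0 : ℝ) < RK := by exact_mod_cast hK.pos
  have hc1 := le_exp_neg_one_div
  have hm0 := measurableSet_cell hKm y a0 i
  have hm1 := measurableSet_cell hKm y a1 i
  have hmh := measurableSet_cell hKm y (midw a0 a1) i
  have hgi := (integrable_pert hK hg).integrableOn (s := cell K y a1 i)
  obtain ⟨p0, hp0⟩ : ∃ p0, p0 = gm K RK (cell K y a0 i) := ⟨_, rfl⟩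
  obtain ⟨p1, hp1⟩ : ∃ p1, p1 = gm K RK (cell K y a1 i) := ⟨_, rfl⟩
  obtain ⟨r1, hr1⟩ : ∃ r1, r1 = (unif K).real (cell K y a1 i) := ⟨_, rfl⟩
  obtain ⟨e, he⟩ : ∃ e, e = ∫ x in cell K y a1 i, g x ∂(unif K) := ⟨_, rfl⟩
  obtain ⟨q, hq⟩ : ∃ q, q = ∫ x in cell K y a1 i, g x ^ 2 ∂(unif K) := ⟨_, rfl⟩
  have hq0 : 0 ≤ q := by
    rw [hq]
    exact integral_nonneg fun x => sq_nonneg _
  have hr1e : r1 = m - e := by
    have h := src_real_apply hg hm1
    have hc : Integrable (fun _ : E d => (1 : ℝ)) ((unif K).restrict (cell K y a1 i)) :=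
      integrable_const _
    rw [h1, integral_add hc hgi, setIntegral_const, smul_eq_mul, mul_one, ← hr1, ← he] at h
    linarith
  have hsrc := src_real_le hK hg hm1
  rw [h1, ← hr1] at hsrc
  have hb0 := gm_bounds hK hm0 (cell_subset K y a0 i)
  rw [h0, ← hp0] at hb0
  have hb1 := gm_bounds hK hm1 (cell_subset K y a1 i)
  rw [← hr1, ← hp1] at hb1
  have hr1pos : 0 < r1 := by linarith [hsrc.2]
  have hmp0 : 255 / 256 * m ≤ p0 := (mul_le_mul_of_nonneg_right hc1 hm.le).trans hb0.1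
  have hp0pos : 0 < p0 := by linarith
  have hp1pos : 0 < p1 := by
    have : 255 / 256 * r1 ≤ p1 := (mul_le_mul_of_nonneg_right hc1 hr1pos.le).trans hb1.1
    linarith
  have hr1p0 : r1 ≤ 2 * p0 := by linarith [hsrc.1]
  -- step 2
  have ht : ∀ x : E d, (gw (kap RK) x)⁻¹ * gw (kap RK) x = 1 :=
    fun x => inv_mul_cancel₀ (gw_pos _ x).ne'
  have key := hell_lip hK hm0 hm1 hmh (cell_subset _ _ _ _) (cell_subset _ _ _ _)
    (cell_subset _ _ _ _) (fun x hx x' hx' => midpoint_mem_cell hK.convex hx hx') hκ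
    (L := 2 * kap RK * RK) (by positivity) (fun x => (gw (kap RK) x)⁻¹)
    (continuous_gw (kap RK)).measurable.inv 2
    (fun x hx => by
      rw [abs_of_pos (inv_pos.mpr (gw_pos _ x))]
      have h := (gw_kap_bounds hK hx).1
      rw [inv_le_comm₀ (gw_pos _ x) (by norm_num)]
      linarith)
    (fun x hx x' hx' => inv_gw_lipschitz hK (cell_subset _ _ _ _ hx) (cell_subset _ _ _ _ hx'))
    (by
      have : (∫ x in cell K y a0 i, gw (kap RK) x ∂(unif K)) = p0 := hp0.symm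
      rw [this]
      exact hp0pos)
    (by
      have : (∫ x in cell K y a1 i, gw (kap RK) x ∂(unif K)) = p1 := hp1.symm
      rw [this]
      exact hp1pos)
  simp only [ht, setIntegral_const, smul_eq_mul, mul_one] at key
  have key2 : kap RK * Real.sqrt (p0 * p1) * ((m - e) / p1 - m / p0) ^ 2
      ≤ 8 * (2 * kap RK * RK) ^ 2 * defect K RK y a0 a1 i := by
    rw [hp0, hp1, ← hr1e, hr1, ← h0]
    exact key
  have hκR : kap RK * (RK : ℝ) ^ 2 = 1 / 128 := by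
    unfold kap
    field_simp
  have key3 : Real.sqrt (p0 * p1) * ((m - e) / p1 - m / p0) ^ 2 ≤ defect K RK y a0 a1 i / 4 := by
    have h8 : 8 * (2 * kap RK * RK) ^ 2 * defect K RK y a0 a1 i
        = kap RK * (defect K RK y a0 a1 i / 4) := by
      have : 8 * (2 * kap RK * RK) ^ 2 = kap RK * (32 * (kap RK * (RK : ℝ) ^ 2)) := by ring
      rw [this, hκR]
      ring
    rw [h8, mul_assoc] at key2
    exact le_of_mul_le_mul_left key2 hκ
  -- step 3
  have alg := hellinger_cell_algebra (e := e) hp0pos hp1pos hm hb0.2 (hb1.2.trans hr1p0)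
  -- step 4
  have cs := sq_setIntegral_le hK hg (cell K y a1 i)
  rw [← he, ← hr1, ← hq] at cs
  have h9 : e ^ 2 / p0 ≤ 2 * q := by
    rw [div_le_iff₀ hp0pos]
    nlinarith
  rw [← hp0, ← hp1, ← hq]
  linarith

/-- **Closing argument.** Notation `ρ = unif K`, `L^0_i = cell K y a0 i` (`ρ`-mass `m i`),
`L^1_i = cell K y a1 i` (`(1+g)ρ`-mass `m i`), `p0_i = gm L^0_i`, `p1_i = gm L^1_i`, `κ = kap RK`.
1. `∑ gm (cell K y a i) = Z := ∫ gw dρ` for every `a` (`integral_eq_sum_cell`), so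
   `H := ∑ defect_i = Z - ∑ sqrt(p0_i p1_i) = ∑ (sqrt p0_i - sqrt p1_i)^2 / 2`.
2. `hell_lip` with `t = 1/gw`, `L = 2 κ RK` (`inv_gw_lipschitz`, `midpoint_mem_cell`): here `A0 = ρ(L^0_i) = m_i`,
   `A1 = ρ(L^1_i) = m_i - e_i`, `e_i = ∫_{L^1_i} g dρ`, and `8 L^2/κ = 32 κ RK^2 = 1/4`, so
   `sqrt(p0_i p1_i) D_i^2 ≤ defect_i / 4`.
3. `hellinger_cell_algebra` (`p0 ≤ m` and `p1 ≤ ρ(L^1) ≤ (3/2) m ≤ (3/2) e^{1/256} p0 ≤ 2 p0` by `gm_bounds`, `src_real_le`):
   `H ≤ H/4 + ∑ e_i^2/p0_i`.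
4. Cauchy-Schwarz `e_i^2 ≤ ρ(L^1_i) ∫_{L^1_i} g^2 ≤ (3/2) e^{1/256} p0_i ∫_{L^1_i} g^2`, and `∑_i ∫_{L^1_i} g^2 = ∫ g^2`.
   Hence `H ≤ (4/3)(3/2) e^{1/256} ∫ g^2 ≤ 4 ∫ g^2`. -/
theorem hellinger_bound [Nonempty ι] {K : Set (E d)} {RK : ℝ≥0} (hK : IsBody K RK) {g : E d → ℝ}
    (hg : IsPert K g) {y : ι → E d} (hy : Function.Injective y) (a0 a1 : ι → ℝ) (m : ι → ℝ)
    (hm : ∀ i, 0 < m i) (h0 : ∀ i, (unif K).real (cell K y a0 i) = m i)
    (h1 : ∀ i, (src K g).real (cell K y a1 i) = m i) :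
    ∑ i, defect K RK y a0 a1 i ≤ 4 * ∫ x, g x ^ 2 ∂(unif K) := by
  have hKm := hK.compact.measurableSet
  have hgm0 : ∀ (a : ι → ℝ) (i : ι), 0 ≤ gm K RK (cell K y a i) := by
    intro a i
    unfold gm
    exact integral_nonneg fun x => (gw_pos _ x).le
  have hsum : ∑ i, defect K RK y a0 a1 i = ∑ i, (Real.sqrt (gm K RK (cell K y a0 i))
      - Real.sqrt (gm K RK (cell K y a1 i))) ^ 2 / 2 := by
    have e1 : ∀ i, (Real.sqrt (gm K RK (cell K y a0 i))
        - Real.sqrt (gm K RK (cell K y a1 i))) ^ 2 / 2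
        = gm K RK (cell K y a0 i) / 2 + gm K RK (cell K y a1 i) / 2
          - Real.sqrt (gm K RK (cell K y a0 i) * gm K RK (cell K y a1 i)) := by
      intro i
      rw [Real.sqrt_mul (hgm0 a0 i), sub_sq, Real.sq_sqrt (hgm0 a0 i), Real.sq_sqrt (hgm0 a1 i)]
      ring
    simp only [e1, defect, Finset.sum_sub_distrib, Finset.sum_add_distrib, ← Finset.sum_div,
      sum_gm_cell hK hy]
    ring
  have hq : ∑ i, ∫ x in cell K y a1 i, g x ^ 2 ∂(unif K) = ∫ x, g x ^ 2 ∂(unif K) :=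
    (integral_eq_sum_cell hKm hy a1 (unif K) (unif_ac K) (unif_compl hK) _
      (integrable_pert_sq hK hg)).symm
  have hle : ∑ i, defect K RK y a0 a1 i ≤ ∑ i, (defect K RK y a0 a1 i / 4
      + 2 * ∫ x in cell K y a1 i, g x ^ 2 ∂(unif K)) := by
    rw [hsum]
    exact Finset.sum_le_sum fun i _ => hellinger_cell hK hg y a0 a1 i (hm i) (h0 i) (h1 i)
  rw [Finset.sum_add_distrib, ← Finset.sum_div, ← Finset.mul_sum, hq] at hle
  have hq0 : 0 ≤ ∫ x, g x ^ 2 ∂(unif K) := integral_nonneg fun x => sq_nonneg _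
  linarith

end Vale.Agent.Lib.P074.Third
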