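import Vale.Agent.Lib.P074.Third.Hellinger

/-!
# P074 / Third: the moment bound (Theorem A')
-/

open MeasureTheory Set
open scoped ENNReal NNReal

namespace Vale.Agent.Lib.P074.Third

open Vale.Agent.Lib.P074

variable {d : ℕ} {ι : Type*} [Fintype ι]

lemma exp_neg_256_ge : (255 / 256 : ℝ) ≤ Real.exp (-(1 / 256)) := by
  have h := Real.add_one_le_exp (-(1 / 256 : ℝ))
  linarith

lemma inv_gw_le {K : Set (E d)} {RK : ℝ≥0} (hK : IsBody K RK) {x : E d} (hx : x ∈ K) :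
    (gw (kap RK) x)⁻¹ ≤ 256 / 255 := by
  have h1 := (gw_kap_bounds hK hx).1
  have h2 : (255 / 256 : ℝ) ≤ gw (kap RK) x := le_trans exp_neg_256_ge h1
  calc (gw (kap RK) x)⁻¹ ≤ (255 / 256 : ℝ)⁻¹ := inv_anti₀ (by norm_num) h2
    _ = 256 / 255 := by norm_num

/-- the test function `<ζ, x - c> / gw` is `2`-Lipschitz on `K` when `|ζ| = 1`, `|c| ≤ RK`
(`|<ζ,x'-x>|/gw(x') ≤ e^{1/256}|x'-x|` and `|<ζ,x-c>| |1/gw(x') - 1/gw(x)| ≤ 2 RK * 2 κ RK |x'-x| = |x'-x|/32`) -/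
lemma moment_test_lipschitz {K : Set (E d)} {RK : ℝ≥0} (hK : IsBody K RK) {ζ c : E d}
    (hζ : ‖ζ‖ = 1) (hc : ‖c‖ ≤ RK) {x x' : E d} (hx : x ∈ K) (hx' : x' ∈ K) :
    |inner ℝ ζ (x' - c) * (gw (kap RK) x')⁻¹ - inner ℝ ζ (x - c) * (gw (kap RK) x)⁻¹| ≤
      2 * ‖x' - x‖ := by
  have hG' := inv_gw_le hK hx'
  have hG0 : 0 ≤ (gw (kap RK) x')⁻¹ := (inv_pos.2 (gw_pos _ _)).le
  have hL := inv_gw_lipschitz hK hx hx'
  have hRK : (0 : ℝ) < RK := by exact_mod_cast hK.pos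
  have hk : kap RK * (RK : ℝ) ^ 2 = 1 / 128 := by
    unfold kap
    field_simp
  have e : inner ℝ ζ (x' - c) * (gw (kap RK) x')⁻¹ - inner ℝ ζ (x - c) * (gw (kap RK) x)⁻¹
      = inner ℝ ζ (x' - x) * (gw (kap RK) x')⁻¹
        + inner ℝ ζ (x - c) * ((gw (kap RK) x')⁻¹ - (gw (kap RK) x)⁻¹) := by
    have h : x' - c = (x' - x) + (x - c) := by abel
    rw [h, inner_add_right]
    ring
  have h1 : |inner ℝ ζ (x' - x)| ≤ ‖x' - x‖ := by
    have := abs_real_inner_le_norm ζ (x' - x)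
    rwa [hζ, one_mul] at this
  have h2 : |inner ℝ ζ (x - c)| ≤ 2 * RK := by
    have h3 := abs_real_inner_le_norm ζ (x - c)
    rw [hζ, one_mul] at h3
    have h4 := norm_sub_le x c
    have h5 := hK.bound x hx
    linarith
  have hn := norm_nonneg (x' - x)
  rw [e]
  calc |inner ℝ ζ (x' - x) * (gw (kap RK) x')⁻¹
        + inner ℝ ζ (x - c) * ((gw (kap RK) x')⁻¹ - (gw (kap RK) x)⁻¹)|
      ≤ |inner ℝ ζ (x' - x) * (gw (kap RK) x')⁻¹|
        + |inner ℝ ζ (x - c) * ((gw (kap RK) x')⁻¹ - (gw (kap RK) x)⁻¹)| := abs_add_le _ _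
    _ = |inner ℝ ζ (x' - x)| * (gw (kap RK) x')⁻¹
        + |inner ℝ ζ (x - c)| * |(gw (kap RK) x')⁻¹ - (gw (kap RK) x)⁻¹| := by
        rw [abs_mul, abs_mul, abs_of_nonneg hG0]
    _ ≤ ‖x' - x‖ * (256 / 255) + 2 * RK * (2 * kap RK * RK * ‖x' - x‖) := by
        gcongr
    _ = ‖x' - x‖ * (256 / 255 + 4 * (kap RK * (RK : ℝ) ^ 2)) := by ring
    _ ≤ 2 * ‖x' - x‖ := by
        rw [hk]
        nlinarith

/-- Cauchy-Schwarz on a set, for a bounded measurable function -/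
lemma sq_setIntegral_abs_le {μ : Measure (E d)} [IsFiniteMeasure μ] {g : E d → ℝ}
    (hgm : Measurable g) (C : ℝ) (hgb : ∀ x, |g x| ≤ C) (A : Set (E d)) :
    (∫ x in A, |g x| ∂μ) ^ 2 ≤ μ.real A * ∫ x in A, g x ^ 2 ∂μ := by
  have hC : 0 ≤ C := le_trans (abs_nonneg _) (hgb 0)
  have i1 : Integrable (fun x => |g x|) (μ.restrict A) :=
    Integrable.of_bound hgm.abs.aestronglyMeasurable C
      (Filter.Eventually.of_forall (fun x => by simpa using hgb x))
  have i2 : Integrable (fun x => g x ^ 2) (μ.restrict A) :=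
    Integrable.of_bound (hgm.pow_const 2).aestronglyMeasurable (C ^ 2)
      (Filter.Eventually.of_forall (fun x => by
        rw [Real.norm_eq_abs, abs_pow]
        exact pow_le_pow_left₀ (abs_nonneg _) (hgb x) 2))
  have key : ∀ l : ℝ, 0 ≤ μ.real A * (l * l) + (-2 * ∫ x in A, |g x| ∂μ) * l
      + ∫ x in A, g x ^ 2 ∂μ := by
    intro l
    have h0 : 0 ≤ ∫ x in A, (|g x| - l) ^ 2 ∂μ := integral_nonneg (fun x => sq_nonneg _)
    have h1 : ∫ x in A, (|g x| - l) ^ 2 ∂μ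
        = ∫ x in A, (g x ^ 2 + (-2 * l) * |g x| + l * l) ∂μ := by
      congr 1
      funext x
      have := sq_abs (g x)
      nlinarith
    have ia : Integrable (fun x => g x ^ 2 + (-2 * l) * |g x|) (μ.restrict A) :=
      i2.add (i1.const_mul _)
    have h2 : ∫ x in A, (g x ^ 2 + (-2 * l) * |g x| + l * l) ∂μ
        = (∫ x in A, g x ^ 2 ∂μ + (-2 * l) * ∫ x in A, |g x| ∂μ) + μ.real A * (l * l) := by
      rw [integral_add ia (integrable_const _), integral_add i2 (i1.const_mul _),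
        integral_const_mul, integral_const]
      simp
    rw [h1, h2] at h0
    linarith
  have := discrim_le_zero key
  unfold discrim at this
  nlinarith

/-- pure algebra at the end of `moment_cell` -/
lemma moment_cell_algebra {N A1 I S p0 p1 m R Df : ℝ} (hN : 0 ≤ N) (hp0 : 0 < p0) (hp1 : 0 < p1)
    (hm : 0 < m) (hR : 0 < R)
    (h12 : p1 ≤ 2 * p0) (h1m : p1 ≤ 3 / 2 * m)
    (hNle : N ≤ |A1| + 2 * R * I)
    (hH : Real.sqrt (p0 * p1) * (A1 / p1) ^ 2 ≤ 4096 * R ^ 2 * Df)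
    (hCS : I ^ 2 ≤ 3 / 2 * m * S) :
    N ^ 2 / m ≤ 24576 * R ^ 2 * Df + 12 * R ^ 2 * S := by
  set s := Real.sqrt (p0 * p1) with hs
  have hs0 : 0 ≤ s := Real.sqrt_nonneg _
  have hs2 : s ^ 2 = p0 * p1 := Real.sq_sqrt (by positivity)
  -- `p1 ≤ 2 s`
  have h2s : p1 ≤ 2 * s := by
    by_contra hcon
    push Not at hcon
    nlinarith
  -- `p1 ^ 2 ≤ 3 m s`
  have h3 : p1 ^ 2 ≤ 3 * m * s := by nlinarith
  have hA : A1 ^ 2 = (A1 / p1) ^ 2 * p1 ^ 2 := by
    field_simp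
  have hA2 : A1 ^ 2 ≤ 3 * m * (4096 * R ^ 2 * Df) := by
    rw [hA]
    calc (A1 / p1) ^ 2 * p1 ^ 2 ≤ (A1 / p1) ^ 2 * (3 * m * s) := by gcongr
      _ = 3 * m * (s * (A1 / p1) ^ 2) := by ring
      _ ≤ 3 * m * (4096 * R ^ 2 * Df) := by gcongr
  have hN2 : N ^ 2 ≤ 2 * A1 ^ 2 + 8 * R ^ 2 * I ^ 2 := by
    have h4 : N ^ 2 ≤ (|A1| + 2 * R * I) ^ 2 := pow_le_pow_left₀ hN hNle 2
    have h5 := sq_abs A1
    nlinarith [sq_nonneg (|A1| - 2 * R * I)]
  rw [div_le_iff₀ hm]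
  have h6 : 8 * R ^ 2 * I ^ 2 ≤ 8 * R ^ 2 * (3 / 2 * m * S) := by gcongr
  nlinarith

/-- **Moment bound for one cell.** Notation as in `hellinger_bound`; `B0 = ∫_{L^0} x dρ`,
`B1 = ∫_{L^1} x d((1+g)ρ)`. If `B1 ≠ B0` put `ζ = (B1 - B0)/|B1 - B0|`, `c = B0/m` (`|c| ≤ RK`),
`t x = <ζ, x - c>/gw x`. Then `A0 = ∫_{L^0} <ζ, x - c> dρ = 0`, and
`|B1 - B0| = <ζ, B1 - B0> = ∫_{L^1} <ζ,x-c>(1+g) dρ = A1 + ∫_{L^1} <ζ,x-c> g dρ ≤ p1 |D| + 2 RK ∫_{L^1}|g| dρ`,
`D = A1/p1`. `hell_lip` with `L = 2`: `κ sqrt(p0 p1) D^2 ≤ 32 defect`, i.e. `sqrt(p0p1) D^2 ≤ 4096 RK^2 defect`.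
`p1^2/(sqrt(p0 p1) m) = (p1/m) sqrt(p1/p0) ≤ (3/2) sqrt 2 ≤ 3`, `(∫_{L^1}|g|)^2 ≤ ρ(L^1) ∫_{L^1} g^2 ≤ (3/2) m ∫_{L^1} g^2`. Hence
`|B1-B0|^2/m ≤ 2 p1^2 D^2/m + 8 RK^2 (∫|g|)^2/m ≤ 24576 RK^2 defect + 12 RK^2 ∫_{L^1} g^2`. -/
theorem moment_cell [Nonempty ι] {K : Set (E d)} {RK : ℝ≥0} (hK : IsBody K RK) {g : E d → ℝ}
    (hg : IsPert K g) (y : ι → E d) (a0 a1 : ι → ℝ) (i : ι) (m : ℝ)
    (hm : 0 < m) (h0 : (unif K).real (cell K y a0 i) = m)
    (h1 : (src K g).real (cell K y a1 i) = m) :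
    ‖(∫ x in cell K y a1 i, x ∂(src K g)) - ∫ x in cell K y a0 i, x ∂(unif K)‖ ^ 2 / m ≤
      24576 * (RK : ℝ) ^ 2 * defect K RK y a0 a1 i +
        12 * (RK : ℝ) ^ 2 * ∫ x in cell K y a1 i, g x ^ 2 ∂(unif K) := by
  classical
  have := hK.isProb
  have hKm : MeasurableSet K := hK.compact.isClosed.measurableSet
  have hL0m : MeasurableSet (cell K y a0 i) := measurableSet_cell hKm y a0 i
  have hL1m : MeasurableSet (cell K y a1 i) := measurableSet_cell hKm y a1 i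
  have hLhm : MeasurableSet (cell K y (midw a0 a1) i) := measurableSet_cell hKm y _ i
  have hL0K := cell_subset K y a0 i
  have hL1K := cell_subset K y a1 i
  have hLhK := cell_subset K y (midw a0 a1) i
  have hRK : (0 : ℝ) < RK := by exact_mod_cast hK.pos
  have hdef := defect_nonneg hK y a0 a1 i
  have hS : 0 ≤ ∫ x in cell K y a1 i, g x ^ 2 ∂(unif K) := integral_nonneg (fun x => sq_nonneg _)
  set L0 := cell K y a0 i with hL0
  set L1 := cell K y a1 i with hL1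
  set Lh := cell K y (midw a0 a1) i with hLh
  set B0 := ∫ x in L0, x ∂(unif K) with hB0
  set B1 := ∫ x in L1, x ∂(src K g) with hB1
  by_cases hB : B1 = B0
  · rw [hB, sub_self, norm_zero]
    have : (0 : ℝ) ^ 2 / m = 0 := by simp
    rw [this]
    positivity
  -- the direction `ζ` and the centre `c`
  have hN : 0 < ‖B1 - B0‖ := norm_pos_iff.2 (sub_ne_zero.2 hB)
  set N := ‖B1 - B0‖ with hNdef
  set ζ : E d := N⁻¹ • (B1 - B0) with hζdef
  set c : E d := m⁻¹ • B0 with hcdef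
  have hζ : ‖ζ‖ = 1 := by
    rw [hζdef, norm_smul, Real.norm_eq_abs, abs_of_pos (inv_pos.2 hN), ← hNdef]
    field_simp
  have hζN : inner ℝ ζ (B1 - B0) = N := by
    rw [hζdef, real_inner_smul_left, real_inner_self_eq_norm_sq, ← hNdef]
    field_simp
  have hB0n : ‖B0‖ ≤ RK * m := by
    rw [← h0]
    exact norm_setIntegral_le_of_norm_le_const (measure_lt_top _ _)
      (fun x hx => hK.bound x (hL0K hx))
  have hc : ‖c‖ ≤ RK := by
    rw [hcdef, norm_smul, Real.norm_eq_abs, abs_of_pos (inv_pos.2 hm)]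
    calc m⁻¹ * ‖B0‖ ≤ m⁻¹ * (RK * m) := by gcongr
      _ = RK := by field_simp
  have hmc : B0 = m • c := by
    rw [hcdef, smul_smul, mul_inv_cancel₀ hm.ne', one_smul]
  clear_value c ζ
  -- integrability
  have hid0 : IntegrableOn (fun x : E d => x) L0 (unif K) :=
    IntegrableOn.of_bound (measure_lt_top _ _) aestronglyMeasurable_id RK
      (ae_restrict_of_forall_mem hL0m (fun x hx => hK.bound x (hL0K hx)))
  have hid1 : IntegrableOn (fun x : E d => x) L1 (unif K) :=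
    IntegrableOn.of_bound (measure_lt_top _ _) aestronglyMeasurable_id RK
      (ae_restrict_of_forall_mem hL1m (fun x hx => hK.bound x (hL1K hx)))
  have hgi : ∀ A : Set (E d), IntegrableOn g A (unif K) := fun A =>
    Integrable.of_bound hg.meas.aestronglyMeasurable (1 / 3)
      (Filter.Eventually.of_forall (fun x => by simpa using hg.bound x))
  have hin : ∀ x ∈ K, |inner ℝ ζ (x - c)| ≤ 2 * RK := by
    intro x hx
    have h3 := abs_real_inner_le_norm ζ (x - c)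
    rw [hζ, one_mul] at h3
    have h4 := norm_sub_le x c
    have h5 := hK.bound x hx
    linarith
  have hinm : Measurable (fun x : E d => inner ℝ ζ (x - c)) := by fun_prop
  have hini : ∀ A : Set (E d), MeasurableSet A → A ⊆ K →
      IntegrableOn (fun x : E d => inner ℝ ζ (x - c)) A (unif K) := fun A hA hAK =>
    IntegrableOn.of_bound (measure_lt_top _ _) hinm.aestronglyMeasurable (2 * RK)
      (ae_restrict_of_forall_mem hA (fun x hx => by simpa using hin x (hAK hx)))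
  -- `A0 = 0`
  have hA0 : ∫ x in L0, inner ℝ ζ (x - c) ∂(unif K) = 0 := by
    have e1 : (fun x : E d => inner ℝ ζ (x - c)) = fun x => inner ℝ ζ x - inner ℝ ζ c := by
      funext x
      rw [inner_sub_right]
    rw [e1, integral_sub (hid0.const_inner ζ) (integrable_const _), integral_inner hid0 ζ,
      integral_const, ← hB0]
    simp only [measureReal_restrict_apply_univ, smul_eq_mul]
    rw [h0, hmc, real_inner_smul_right]
    ring
  -- `N = A1 + G1`
  have hB1' : B1 = ∫ x in L1, (1 + g x) • x ∂(unif K) := setIntegral_src_vec hg (fun x => x) hL1m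
  have hm1 : m = ∫ x in L1, (1 + g x) ∂(unif K) := by rw [← h1, src_real_apply hg hL1m]
  have h1g : IntegrableOn (fun x => 1 + g x) L1 (unif K) := (integrable_const _).add (hgi L1)
  have hwi : IntegrableOn (fun x : E d => (1 + g x) • x) L1 (unif K) := by
    refine IntegrableOn.of_bound (measure_lt_top _ _)
      ((measurable_const.add hg.meas).smul measurable_id).aestronglyMeasurable (4 / 3 * RK)
      (ae_restrict_of_forall_mem hL1m (fun x hx => ?_))
    rw [norm_smul, Real.norm_eq_abs]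
    have h2 := hg.bound x
    have h3 : |1 + g x| ≤ 4 / 3 := by
      rw [abs_le] at h2 ⊢
      constructor <;> linarith [h2.1, h2.2]
    have h4 := hK.bound x (hL1K hx)
    gcongr
  have hgin : IntegrableOn (fun x : E d => g x * inner ℝ ζ (x - c)) L1 (unif K) := by
    refine IntegrableOn.of_bound (measure_lt_top _ _)
      (hg.meas.mul hinm).aestronglyMeasurable (1 / 3 * (2 * RK))
      (ae_restrict_of_forall_mem hL1m (fun x hx => ?_))
    rw [Real.norm_eq_abs, abs_mul]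
    have h2 := hg.bound x
    have h3 := hin x (hL1K hx)
    gcongr
  have hN1 : N = ∫ x in L1, (1 + g x) * inner ℝ ζ (x - c) ∂(unif K) := by
    have e1 : ∫ x in L1, (1 + g x) * inner ℝ ζ (x - c) ∂(unif K)
        = ∫ x in L1, (inner ℝ ζ ((1 + g x) • x) - (1 + g x) * inner ℝ ζ c) ∂(unif K) := by
      congr 1
      funext x
      rw [inner_sub_right, real_inner_smul_right]
      ring
    rw [e1, integral_sub (hwi.const_inner ζ) (h1g.mul_const _), integral_inner hwi ζ,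
      integral_mul_const, ← hB1', ← hm1, ← hζN, inner_sub_right, hmc, real_inner_smul_right]
  have hN2 : N = (∫ x in L1, inner ℝ ζ (x - c) ∂(unif K))
      + ∫ x in L1, g x * inner ℝ ζ (x - c) ∂(unif K) := by
    rw [hN1, ← integral_add (hini L1 hL1m hL1K) hgin]
    congr 1
    funext x
    ring
  have hG1 : |∫ x in L1, g x * inner ℝ ζ (x - c) ∂(unif K)|
      ≤ 2 * RK * ∫ x in L1, |g x| ∂(unif K) := by
    calc |∫ x in L1, g x * inner ℝ ζ (x - c) ∂(unif K)|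
        ≤ ∫ x in L1, |g x * inner ℝ ζ (x - c)| ∂(unif K) := abs_integral_le_integral_abs
      _ ≤ ∫ x in L1, 2 * RK * |g x| ∂(unif K) := by
          refine setIntegral_mono_on hgin.abs ((hgi L1).abs.const_mul _) hL1m (fun x hx => ?_)
          rw [abs_mul]
          nlinarith [hin x (hL1K hx), abs_nonneg (g x)]
      _ = 2 * RK * ∫ x in L1, |g x| ∂(unif K) := integral_const_mul _ _
  have hNle : N ≤ |∫ x in L1, inner ℝ ζ (x - c) ∂(unif K)|
      + 2 * RK * ∫ x in L1, |g x| ∂(unif K) := by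
    rw [hN2]
    exact add_le_add (le_abs_self _) (le_trans (le_abs_self _) hG1)
  -- masses
  have hs := src_real_le hK hg hL1m
  rw [h1] at hs
  have g0 := gm_bounds hK hL0m hL0K
  have g1 := gm_bounds hK hL1m hL1K
  rw [h0] at g0
  have hexp := exp_neg_256_ge
  have hp0lb : 255 / 256 * m ≤ gm K RK L0 :=
    le_trans (mul_le_mul_of_nonneg_right hexp hm.le) g0.1
  have hp0 : 0 < gm K RK L0 := lt_of_lt_of_le (by positivity) hp0lb
  have hρ1 : 0 < (unif K).real L1 := by linarith [hs.2]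
  have hp1 : 0 < gm K RK L1 := lt_of_lt_of_le (mul_pos (Real.exp_pos _) hρ1) g1.1
  have h1m : gm K RK L1 ≤ 3 / 2 * m := by linarith [g1.2, hs.1]
  have h12 : gm K RK L1 ≤ 2 * gm K RK L0 := by linarith
  -- the Hellinger-Lipschitz inequality
  have hκ : 0 < kap RK := by
    unfold kap
    positivity
  have hH := hell_lip hK hL0m hL1m hLhm hL0K hL1K hLhK
    (fun x hx x' hx' => midpoint_mem_cell hK.convex hx hx') (κ := kap RK) (L := 2) hκ (by norm_num)
    (fun x => inner ℝ ζ (x - c) * (gw (kap RK) x)⁻¹)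
    (hinm.mul (continuous_gw _).measurable.inv) (2 * RK * (256 / 255))
    (fun x hx => by
      rw [abs_mul, abs_of_pos (inv_pos.2 (gw_pos _ _))]
      have h2 := hin x hx
      have h3 := inv_gw_le hK hx
      have h4 : 0 ≤ (gw (kap RK) x)⁻¹ := (inv_pos.2 (gw_pos _ _)).le
      gcongr)
    (fun x hx x' hx' => moment_test_lipschitz hK hζ hc (hL0K hx) (hL1K hx')) hp0 hp1
  have ht : ∀ x : E d, inner ℝ ζ (x - c) * (gw (kap RK) x)⁻¹ * gw (kap RK) x
      = inner ℝ ζ (x - c) := by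
    intro x
    rw [mul_assoc, inv_mul_cancel₀ (gw_pos _ _).ne', mul_one]
  simp_rw [ht] at hH
  rw [hA0, zero_div, sub_zero] at hH
  have hH' : Real.sqrt (gm K RK L0 * gm K RK L1)
      * ((∫ x in L1, inner ℝ ζ (x - c) ∂(unif K)) / gm K RK L1) ^ 2
      ≤ 4096 * (RK : ℝ) ^ 2 * defect K RK y a0 a1 i := by
    have hk : kap RK * (128 * (RK : ℝ) ^ 2) = 1 := by
      unfold kap
      field_simp
    have hH2 : kap RK * (Real.sqrt (gm K RK L0 * gm K RK L1)
      * ((∫ x in L1, inner ℝ ζ (x - c) ∂(unif K)) / gm K RK L1) ^ 2)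
      ≤ 32 * defect K RK y a0 a1 i := by
      have : (8 : ℝ) * 2 ^ 2 = 32 := by norm_num
      rw [this, mul_assoc] at hH
      exact hH
    calc Real.sqrt (gm K RK L0 * gm K RK L1)
      * ((∫ x in L1, inner ℝ ζ (x - c) ∂(unif K)) / gm K RK L1) ^ 2
        = (128 * (RK : ℝ) ^ 2) * (kap RK * (Real.sqrt (gm K RK L0 * gm K RK L1)
      * ((∫ x in L1, inner ℝ ζ (x - c) ∂(unif K)) / gm K RK L1) ^ 2)) := by
          rw [← mul_assoc, mul_comm (128 * (RK : ℝ) ^ 2), hk, one_mul]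
      _ ≤ (128 * (RK : ℝ) ^ 2) * (32 * defect K RK y a0 a1 i) := by gcongr
      _ = 4096 * (RK : ℝ) ^ 2 * defect K RK y a0 a1 i := by ring
  -- Cauchy-Schwarz
  have hCS : (∫ x in L1, |g x| ∂(unif K)) ^ 2 ≤ 3 / 2 * m * ∫ x in L1, g x ^ 2 ∂(unif K) := by
    refine le_trans (sq_setIntegral_abs_le hg.meas (1 / 3) hg.bound L1) ?_
    have : (unif K).real L1 ≤ 3 / 2 * m := by linarith [hs.1]
    gcongr
  exact moment_cell_algebra hN.le hp0 hp1 hm hRK h12 h1m hNle hH' hCS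

/-- **Theorem A' (moment bound).** Sum `moment_cell` over `i`, use `hellinger_bound` and
`∑_i ∫_{L^1_i} g^2 = ∫ g^2` (`integral_eq_sum_cell`): `24576 * 4 + 12 ≤ 10^5`. -/
theorem moment_bound [Nonempty ι] {K : Set (E d)} {RK : ℝ≥0} (hK : IsBody K RK) {g : E d → ℝ}
    (hg : IsPert K g) {y : ι → E d} (hy : Function.Injective y) (a0 a1 : ι → ℝ) (m : ι → ℝ)
    (hm : ∀ i, 0 < m i) (h0 : ∀ i, (unif K).real (cell K y a0 i) = m i)
    (h1 : ∀ i, (src K g).real (cell K y a1 i) = m i) :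
    ∑ i, ‖(∫ x in cell K y a1 i, x ∂(src K g)) - ∫ x in cell K y a0 i, x ∂(unif K)‖ ^ 2 / m i ≤
      100000 * (RK : ℝ) ^ 2 * ∫ x, g x ^ 2 ∂(unif K) := by
  have := hK.isProb
  have hKm : MeasurableSet K := hK.compact.isClosed.measurableSet
  have hRK : (0 : ℝ) < RK := by exact_mod_cast hK.pos
  have hcell := fun i => moment_cell hK hg y a0 a1 i (m i) (hm i) (h0 i) (h1 i)
  have hH := hellinger_bound hK hg hy a0 a1 m hm h0 h1
  have hsupp : (unif K) Kᶜ = 0 := by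
    have h := ae_unif_mem_of_compact hK.compact
    rwa [ae_iff] at h
  have hgi : Integrable (fun x => g x ^ 2) (unif K) :=
    Integrable.of_bound (hg.meas.pow_const 2).aestronglyMeasurable ((1 / 3) ^ 2)
      (Filter.Eventually.of_forall (fun x => by
        rw [Real.norm_eq_abs, abs_pow]
        exact pow_le_pow_left₀ (abs_nonneg _) (hg.bound x) 2))
  have hsum := integral_eq_sum_cell hKm hy a1 (unif K) (unif_ac K) hsupp (fun x => g x ^ 2) hgi
  have hS : 0 ≤ ∫ x, g x ^ 2 ∂(unif K) := integral_nonneg (fun x => sq_nonneg _)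
  calc ∑ i, ‖(∫ x in cell K y a1 i, x ∂(src K g)) - ∫ x in cell K y a0 i, x ∂(unif K)‖ ^ 2 / m i
      ≤ ∑ i, (24576 * (RK : ℝ) ^ 2 * defect K RK y a0 a1 i +
        12 * (RK : ℝ) ^ 2 * ∫ x in cell K y a1 i, g x ^ 2 ∂(unif K)) :=
        Finset.sum_le_sum (fun i _ => hcell i)
    _ = 24576 * (RK : ℝ) ^ 2 * ∑ i, defect K RK y a0 a1 i
        + 12 * (RK : ℝ) ^ 2 * ∫ x, g x ^ 2 ∂(unif K) := by
        rw [Finset.sum_add_distrib, ← Finset.mul_sum, ← Finset.mul_sum, ← hsum]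
    _ ≤ 24576 * (RK : ℝ) ^ 2 * (4 * ∫ x, g x ^ 2 ∂(unif K))
        + 12 * (RK : ℝ) ^ 2 * ∫ x, g x ^ 2 ∂(unif K) := by gcongr
    _ = 98316 * ((RK : ℝ) ^ 2 * ∫ x, g x ^ 2 ∂(unif K)) := by ring
    _ ≤ 100000 * ((RK : ℝ) ^ 2 * ∫ x, g x ^ 2 ∂(unif K)) := by
        have : 0 ≤ (RK : ℝ) ^ 2 * ∫ x, g x ^ 2 ∂(unif K) := by positivity
        linarith
    _ = 100000 * (RK : ℝ) ^ 2 * ∫ x, g x ^ 2 ∂(unif K) := by ring

end Vale.Agent.Lib.P074.Third
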