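import Vale.Agent.Lib.P074.Third.BM1

/-!
# P074 / Third: the one-dimensional Prekopa-Leindler inequality (t = 1/2)
-/

open MeasureTheory Set
open scoped ENNReal NNReal

namespace Vale.Agent.Lib.P074.Third

/-- arithmetic-geometric mean inequality in `[0,∞]` -/
theorem pl_amgm {P Q R : ℝ≥0∞} (h : P + Q ≤ 2 * R) : P * Q ≤ R ^ 2 := by
  by_cases hR : R = ∞
  · rw [hR]
    simp
  have h2R : 2 * R ≠ ∞ := ENNReal.mul_ne_top (by norm_num) hR
  have hP : P ≠ ∞ := ne_top_of_le_ne_top h2R (le_self_add.trans h)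
  have hQ : Q ≠ ∞ := ne_top_of_le_ne_top h2R (le_add_self.trans h)
  lift P to ℝ≥0 using hP
  lift Q to ℝ≥0 using hQ
  lift R to ℝ≥0 using hR
  have h' : (P : ℝ) + Q ≤ 2 * R := by exact_mod_cast h
  have : (P : ℝ) * Q ≤ (R : ℝ) ^ 2 := by nlinarith [sq_nonneg ((P : ℝ) - Q), P.2, Q.2, R.2]
  exact_mod_cast this

/-- the normalised form: functions with values in `[0,1]` and supremum one -/
theorem pl_norm (φ γ η : ℝ → ℝ) (hφ : Measurable φ) (hγ : Measurable γ) (hη : Measurable η)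
    (hφ0 : ∀ x, 0 ≤ φ x) (hφ1 : ∀ x, φ x ≤ 1) (hγ0 : ∀ x, 0 ≤ γ x) (hγ1 : ∀ x, γ x ≤ 1)
    (hη0 : ∀ x, 0 ≤ η x)
    (hφs : ∀ t, 0 < t → t < 1 → ∃ x, t < φ x) (hγs : ∀ t, 0 < t → t < 1 → ∃ y, t < γ y)
    (h : ∀ x y, φ x * γ y ≤ η ((x + y) / 2) ^ 2) :
    (∫⁻ x, ENNReal.ofReal (φ x)) + ∫⁻ y, ENNReal.ofReal (γ y)
      ≤ 2 * ∫⁻ z, ENNReal.ofReal (η z) := by
  rw [lintegral_eq_lintegral_meas_lt volume (Filter.Eventually.of_forall hφ0) hφ.aemeasurable,
    lintegral_eq_lintegral_meas_lt volume (Filter.Eventually.of_forall hγ0) hγ.aemeasurable,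
    lintegral_eq_lintegral_meas_lt volume (Filter.Eventually.of_forall hη0) hη.aemeasurable]
  have hm : Measurable fun t : ℝ => volume {a : ℝ | t < φ a} :=
    Antitone.measurable fun s t hst => measure_mono fun x hx => lt_of_le_of_lt hst hx
  rw [← lintegral_add_left hm, ← lintegral_const_mul' _ _ (by norm_num)]
  apply setLIntegral_mono' measurableSet_Ioi
  intro t ht
  have ht0 : 0 < t := ht
  by_cases ht1 : t < 1
  · apply bm_one_dim (measurableSet_lt measurable_const hφ) (measurableSet_lt measurable_const hγ)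
      (measurableSet_lt measurable_const hη) (hφs t ht0 ht1) (hγs t ht0 ht1)
    intro a ha b hb
    have ha' : t < φ a := ha
    have hb' : t < γ b := hb
    have h1 : t ^ 2 < η ((a + b) / 2) ^ 2 := by
      calc t ^ 2 = t * t := sq t
        _ < φ a * γ b := mul_lt_mul'' ha' hb' ht0.le ht0.le
        _ ≤ _ := h a b
    exact lt_of_pow_lt_pow_left₀ 2 (hη0 _) h1
  · have e1 : {a : ℝ | t < φ a} = ∅ := by
      ext x
      simp only [Set.mem_ofPred_eq, mem_empty_iff_false, iff_false, not_lt]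
      exact (hφ1 x).trans (not_lt.1 ht1)
    have e2 : {a : ℝ | t < γ a} = ∅ := by
      ext x
      simp only [Set.mem_ofPred_eq, mem_empty_iff_false, iff_false, not_lt]
      exact (hγ1 x).trans (not_lt.1 ht1)
    rw [e1, e2]
    simp

/-- the bounded case -/
theorem pl_bdd (F G H : ℝ → ℝ≥0∞) (hF : Measurable F) (hG : Measurable G) (hH : Measurable H)
    {M : ℝ≥0∞} (hM : M ≠ ∞) (hFM : ∀ x, F x ≤ M) (hGM : ∀ y, G y ≤ M)
    (h : ∀ x y, F x * G y ≤ H ((x + y) / 2) ^ 2) :
    (∫⁻ x, F x) * (∫⁻ y, G y) ≤ (∫⁻ z, H z) ^ 2 := by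
  set a := ⨆ x, F x with ha
  set b := ⨆ y, G y with hb
  have haM : a ≠ ∞ := ne_top_of_le_ne_top hM (iSup_le hFM)
  have hbM : b ≠ ∞ := ne_top_of_le_ne_top hM (iSup_le hGM)
  have hFa : ∀ x, F x ≤ a := fun x => le_iSup F x
  have hGb : ∀ y, G y ≤ b := fun y => le_iSup G y
  have hFt : ∀ x, F x ≠ ∞ := fun x => ne_top_of_le_ne_top hM (hFM x)
  have hGt : ∀ y, G y ≠ ∞ := fun y => ne_top_of_le_ne_top hM (hGM y)
  by_cases ha0 : a = 0
  · have : ∀ x, F x = 0 := fun x => le_antisymm (ha0 ▸ hFa x) zero_le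
    simp [this]
  by_cases hb0 : b = 0
  · have : ∀ y, G y = 0 := fun y => le_antisymm (hb0 ▸ hGb y) zero_le
    simp [this]
  set ar := a.toReal with har
  set br := b.toReal with hbr
  have harp : 0 < ar := ENNReal.toReal_pos ha0 haM
  have hbrp : 0 < br := ENNReal.toReal_pos hb0 hbM
  set c := Real.sqrt (ar * br) with hc
  have hcp : 0 < c := Real.sqrt_pos.2 (mul_pos harp hbrp)
  have hc2 : c ^ 2 = ar * br := Real.sq_sqrt (mul_pos harp hbrp).le
  have hCt : ENNReal.ofReal c ≠ ∞ := ENNReal.ofReal_ne_top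
  have hC0 : ENNReal.ofReal c ≠ 0 := by
    simpa using hcp
  have hsup : ∀ (K : ℝ → ℝ≥0∞) (s : ℝ≥0∞), s = ⨆ x, K x → s ≠ 0 → s ≠ ∞ → (∀ x, K x ≠ ∞) →
      ∀ t, 0 < t → t < 1 → ∃ x, t < (K x).toReal / s.toReal := by
    intro K s hs hs0 hst hK t ht0 ht1
    have hsp : 0 < s.toReal := ENNReal.toReal_pos hs0 hst
    have h1 : ENNReal.ofReal (t * s.toReal) < s := by
      rw [ENNReal.ofReal_lt_iff_lt_toReal (by positivity) hst]
      nlinarith
    rw [hs, lt_iSup_iff] at h1
    obtain ⟨x, hx⟩ := h1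
    refine ⟨x, ?_⟩
    rw [lt_div_iff₀ hsp]
    rw [← hs] at hx
    exact (ENNReal.ofReal_lt_iff_lt_toReal (by positivity) (hK x)).1 hx
  have key := pl_norm (fun x => (F x).toReal / ar) (fun y => (G y).toReal / br)
    (fun z => (min (H z) (ENNReal.ofReal c)).toReal / c)
    (hF.ennreal_toReal.div_const _) (hG.ennreal_toReal.div_const _)
    ((hH.min measurable_const).ennreal_toReal.div_const _)
    (fun x => by positivity)
    (fun x => by
      rw [div_le_one harp]
      exact ENNReal.toReal_mono haM (hFa x))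
    (fun x => by positivity)
    (fun x => by
      rw [div_le_one hbrp]
      exact ENNReal.toReal_mono hbM (hGb x))
    (fun x => by positivity)
    (hsup F a ha ha0 haM hFt) (hsup G b hb hb0 hbM hGt)
    (fun x y => by
      have hφ1 : (F x).toReal / ar ≤ 1 := by
        rw [div_le_one harp]
        exact ENNReal.toReal_mono haM (hFa x)
      have hγ1 : (G y).toReal / br ≤ 1 := by
        rw [div_le_one hbrp]
        exact ENNReal.toReal_mono hbM (hGb y)
      have hφ0 : 0 ≤ (F x).toReal / ar := by positivity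
      have hγ0 : 0 ≤ (G y).toReal / br := by positivity
      rcases le_or_gt (ENNReal.ofReal c) (H ((x + y) / 2)) with hcase | hcase
      · rw [min_eq_right hcase, ENNReal.toReal_ofReal hcp.le, div_self hcp.ne', one_pow]
        calc (F x).toReal / ar * ((G y).toReal / br) ≤ 1 * 1 :=
              mul_le_mul hφ1 hγ1 hγ0 zero_le_one
          _ = 1 := one_mul 1
      · rw [min_eq_left hcase.le]
        have hHt : H ((x + y) / 2) ≠ ∞ := ne_top_of_lt hcase
        have h1 : (F x).toReal * (G y).toReal ≤ (H ((x + y) / 2)).toReal ^ 2 := by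
          rw [← ENNReal.toReal_mul, ← ENNReal.toReal_pow]
          exact ENNReal.toReal_mono (ENNReal.pow_ne_top hHt) (h x y)
        rw [div_mul_div_comm, div_pow, hc2]
        exact div_le_div_of_nonneg_right h1 (mul_pos harp hbrp).le)
  have eF : ∫⁻ x, ENNReal.ofReal ((F x).toReal / ar) = (∫⁻ x, F x) / a := by
    have : ∀ x, ENNReal.ofReal ((F x).toReal / ar) = F x * a⁻¹ := by
      intro x
      rw [ENNReal.ofReal_div_of_pos harp, ENNReal.ofReal_toReal (hFt x), har,
        ENNReal.ofReal_toReal haM, div_eq_mul_inv]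
    simp only [this]
    rw [lintegral_mul_const _ hF, div_eq_mul_inv]
  have eG : ∫⁻ y, ENNReal.ofReal ((G y).toReal / br) = (∫⁻ y, G y) / b := by
    have : ∀ y, ENNReal.ofReal ((G y).toReal / br) = G y * b⁻¹ := by
      intro y
      rw [ENNReal.ofReal_div_of_pos hbrp, ENNReal.ofReal_toReal (hGt y), hbr,
        ENNReal.ofReal_toReal hbM, div_eq_mul_inv]
    simp only [this]
    rw [lintegral_mul_const _ hG, div_eq_mul_inv]
  have eH : ∫⁻ z, ENNReal.ofReal ((min (H z) (ENNReal.ofReal c)).toReal / c)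
      ≤ (∫⁻ z, H z) / ENNReal.ofReal c := by
    have : ∀ z, ENNReal.ofReal ((min (H z) (ENNReal.ofReal c)).toReal / c)
        ≤ H z * (ENNReal.ofReal c)⁻¹ := by
      intro z
      rw [ENNReal.ofReal_div_of_pos hcp, ENNReal.ofReal_toReal
        (ne_top_of_le_ne_top hCt (min_le_right _ _)), div_eq_mul_inv]
      gcongr
      exact min_le_left _ _
    calc _ ≤ ∫⁻ z, H z * (ENNReal.ofReal c)⁻¹ := lintegral_mono this
      _ = _ := by rw [lintegral_mul_const _ hH, div_eq_mul_inv]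
  rw [eF, eG] at key
  have key2 : (∫⁻ x, F x) / a + (∫⁻ y, G y) / b ≤ 2 * ((∫⁻ z, H z) / ENNReal.ofReal c) :=
    key.trans (by gcongr)
  have key3 := pl_amgm key2
  have hab : a * b = ENNReal.ofReal c ^ 2 := by
    rw [← ENNReal.ofReal_pow hcp.le, hc2, ENNReal.ofReal_mul harp.le, har, hbr,
      ENNReal.ofReal_toReal haM, ENNReal.ofReal_toReal hbM]
  calc (∫⁻ x, F x) * (∫⁻ y, G y)
      = ((∫⁻ x, F x) / a * a) * ((∫⁻ y, G y) / b * b) := by
        rw [ENNReal.div_mul_cancel ha0 haM, ENNReal.div_mul_cancel hb0 hbM]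
    _ = ((∫⁻ x, F x) / a * ((∫⁻ y, G y) / b)) * (a * b) := by ring
    _ ≤ ((∫⁻ z, H z) / ENNReal.ofReal c) ^ 2 * (a * b) := by gcongr
    _ = ((∫⁻ z, H z) / ENNReal.ofReal c * ENNReal.ofReal c) ^ 2 := by rw [hab]; ring
    _ = (∫⁻ z, H z) ^ 2 := by rw [ENNReal.div_mul_cancel hC0 hCt]

theorem pl_iSup_min (F : ℝ → ℝ≥0∞) (hF : Measurable F) :
    ∫⁻ x, F x = ⨆ n : ℕ, ∫⁻ x, min (F x) n := by
  rw [← lintegral_iSup (fun n => hF.min measurable_const)]
  · refine lintegral_congr fun x => ?_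
    apply le_antisymm
    · by_cases hx : F x = ∞
      · rw [hx]
        simp only [le_top, inf_of_le_right]
        rw [ENNReal.iSup_natCast]
      · obtain ⟨n, hn⟩ := ENNReal.exists_nat_gt hx
        calc F x = min (F x) n := (min_eq_left hn.le).symm
          _ ≤ _ := le_iSup (fun n : ℕ => min (F x) (n : ℝ≥0∞)) n
    · exact iSup_le fun n => min_le_left _ _
  · intro m n hmn x
    exact min_le_min le_rfl (by exact_mod_cast hmn)

/-- **Prekopa-Leindler on the line, `t = 1/2`, squared form**, for arbitrary measurable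
`[0,∞]`-valued functions.
Plan: (1) truncation: `min (F x) n * min (G y) n ≤ F x * G y`, monotone convergence, so wlog
`F, G ≤ n < ∞`. (2) Let `a = ⨆ x, F x`, `b = ⨆ y, G y`. If `a = 0` or `b = 0` the left side is `0`.
Otherwise, for `0 < t < 1` the sets `{t * a < F}`, `{t * b < G}` are nonempty and
their midpoints lie in `{t ^ 2 * (a * b) < H ^ 2}`; `bm_one_dim` gives
`vol {t a < F} + vol {t b < G} ≤ 2 vol {t sqrt(ab) < H}`. (3) Integrate over `t ∈ (0,1)` with the layer cake formula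
(`MeasureTheory.lintegral_eq_lintegral_meas_lt` for the real valued functions `(F x).toReal` etc.):
`(∫ F)/a + (∫ G)/b ≤ 2 (∫ H)/sqrt(ab)`. (4) AM-GM. -/
theorem pl_one_dim (F G H : ℝ → ℝ≥0∞) (hF : Measurable F) (hG : Measurable G) (hH : Measurable H)
    (h : ∀ x y, F x * G y ≤ H ((x + y) / 2) ^ 2) :
    (∫⁻ x, F x) * (∫⁻ y, G y) ≤ (∫⁻ z, H z) ^ 2 := by
  rw [pl_iSup_min F hF, pl_iSup_min G hG]
  rw [ENNReal.iSup_mul]
  refine iSup_le fun i => ?_
  rw [ENNReal.mul_iSup]
  refine iSup_le fun j => ?_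
  apply pl_bdd (fun x => min (F x) i) (fun y => min (G y) j) H (hF.min measurable_const)
    (hG.min measurable_const) hH (M := ((max i j : ℕ) : ℝ≥0∞)) (ENNReal.natCast_ne_top _)
  · intro x
    exact (min_le_right _ _).trans (by exact_mod_cast le_max_left i j)
  · intro y
    exact (min_le_right _ _).trans (by exact_mod_cast le_max_right i j)
  · intro x y
    exact (mul_le_mul' (min_le_left _ _) (min_le_left _ _)).trans (h x y)

end Vale.Agent.Lib.P074.Third
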