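import Vale.Agent.Lib.P074.Third.PLn
import Vale.Agent.Lib.P074.Third.Src

/-!
# P074 / Third: Prekopa-Leindler for three subsets of the body, real integrals
-/

open MeasureTheory Set
open scoped ENNReal NNReal

namespace Vale.Agent.Lib.P074.Third

open Vale.Agent.Lib.P074

variable {d : ℕ}

/-- a set integral against `unif K` over a subset of `K`, as a normalised lintegral of an
indicator function -/
lemma setIntegral_unif_exp {K : Set (E d)} {C : Set (E d)}
    (hCm : MeasurableSet C) (hCK : C ⊆ K) (f : E d → ℝ) (hf : Measurable f) :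
    ∫ x in C, Real.exp (-f x) ∂(unif K) = ((volume K)⁻¹).toReal *
      (∫⁻ x, C.indicator (fun x => ENNReal.ofReal (Real.exp (-f x))) x).toReal := by
  unfold unif
  have hme : Measurable (fun x => Real.exp (-f x)) := Real.measurable_exp.comp hf.neg
  rw [Measure.restrict_smul, Measure.restrict_restrict hCm, inter_eq_left.2 hCK,
    integral_smul_measure, lintegral_indicator hCm,
    integral_eq_lintegral_of_nonneg_ae (Filter.Eventually.of_forall fun x => (Real.exp_pos _).le)
      hme.aestronglyMeasurable, smul_eq_mul]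

/-- **Prekopa-Leindler on sets.** Apply `pl_euclidean` to `F = C0.indicator (ofReal (exp (-α)))`,
`G = C1.indicator (ofReal (exp (-β)))`, `H = Ch.indicator (ofReal (exp (-γ)))`
(`exp(-α x) exp(-β x') ≤ exp(-γ(mid))^2`), convert the lintegrals to integrals
(`ofReal_integral_eq_lintegral_ofReal`, the integrands are bounded on the bounded set `K`), and divide by
`(volume K)^2` (`unif K = (volume K)⁻¹ • volume.restrict K`, `C ⊆ K`). -/
theorem pl_sets {K : Set (E d)} {RK : ℝ≥0} (hK : IsBody K RK) {C0 C1 Ch : Set (E d)}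
    (h0m : MeasurableSet C0) (h1m : MeasurableSet C1) (hhm : MeasurableSet Ch)
    (h0K : C0 ⊆ K) (h1K : C1 ⊆ K) (hhK : Ch ⊆ K)
    (hmid : ∀ x ∈ C0, ∀ x' ∈ C1, (1 / 2 : ℝ) • (x + x') ∈ Ch)
    (α β γ : E d → ℝ) (hα : Measurable α) (hβ : Measurable β) (hγ : Measurable γ)
    (B : ℝ) (hαB : ∀ x ∈ K, |α x| ≤ B) (hβB : ∀ x ∈ K, |β x| ≤ B) (hγB : ∀ x ∈ K, |γ x| ≤ B)
    (h : ∀ x ∈ C0, ∀ x' ∈ C1, γ ((1 / 2 : ℝ) • (x + x')) ≤ (α x + β x') / 2) :
    (∫ x in C0, Real.exp (-α x) ∂(unif K)) * (∫ x in C1, Real.exp (-β x) ∂(unif K)) ≤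
      (∫ x in Ch, Real.exp (-γ x) ∂(unif K)) ^ 2 := by
  rw [setIntegral_unif_exp h0m h0K α hα, setIntegral_unif_exp h1m h1K β hβ,
    setIntegral_unif_exp hhm hhK γ hγ]
  have hm : ∀ (C : Set (E d)) (f : E d → ℝ), MeasurableSet C → Measurable f →
      Measurable (C.indicator (fun x => ENNReal.ofReal (Real.exp (-f x)))) := by
    intro C f hC hf
    exact (ENNReal.measurable_ofReal.comp (Real.measurable_exp.comp hf.neg)).indicator hC
  have hpl := pl_euclidean d _ _ _ (hm C0 α h0m hα) (hm C1 β h1m hβ) (hm Ch γ hhm hγ) (by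
    intro x y
    by_cases hx : x ∈ C0
    · by_cases hy : y ∈ C1
      · rw [indicator_of_mem hx, indicator_of_mem hy, indicator_of_mem (hmid x hx y hy),
          ← ENNReal.ofReal_mul (Real.exp_pos _).le, ← ENNReal.ofReal_pow (Real.exp_pos _).le,
          ← Real.exp_add, ← Real.exp_nat_mul]
        refine ENNReal.ofReal_le_ofReal (Real.exp_le_exp.2 ?_)
        have := h x hx y hy
        push_cast
        linarith
      · rw [indicator_of_notMem hy]; simp
    · rw [indicator_of_notMem hx]; simp)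
  have hfin : (∫⁻ x, Ch.indicator (fun x => ENNReal.ofReal (Real.exp (-γ x))) x) ≠ ∞ := by
    rw [lintegral_indicator hhm]
    have h1 : ∫⁻ x in Ch, ENNReal.ofReal (Real.exp (-γ x)) ≤
        ∫⁻ _ in Ch, ENNReal.ofReal (Real.exp B) := by
      refine setLIntegral_mono measurable_const ?_
      intro x hx
      refine ENNReal.ofReal_le_ofReal (Real.exp_le_exp.2 ?_)
      have := hγB x (hhK hx)
      linarith [neg_abs_le (γ x)]
    have h2 : ∫⁻ _ in Ch, ENNReal.ofReal (Real.exp B) ≠ ∞ := by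
      rw [setLIntegral_const]
      refine ENNReal.mul_ne_top ENNReal.ofReal_ne_top ?_
      exact ((measure_mono hhK).trans_lt hK.compact.measure_lt_top).ne
    exact (h1.trans_lt h2.lt_top).ne
  have hreal := ENNReal.toReal_mono (ENNReal.pow_ne_top hfin) hpl
  rw [ENNReal.toReal_mul, ENNReal.toReal_pow] at hreal
  have hc : 0 ≤ ((volume K)⁻¹).toReal ^ 2 := by positivity
  nlinarith [mul_le_mul_of_nonneg_left hreal hc]

end Vale.Agent.Lib.P074.Third
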