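import Vale.Agent.Lib.P074.Third.PL1

/-!
# P074 / Third: the Prekopa-Leindler inequality in `R^n` (t = 1/2)
-/

open MeasureTheory Set
open scoped ENNReal NNReal

namespace Vale.Agent.Lib.P074.Third

/-- Fubini along the first coordinate. -/
theorem lintegral_pi_succ (n : ℕ) (F : (Fin (n + 1) → ℝ) → ℝ≥0∞) (hF : Measurable F) :
    ∫⁻ x, F x = ∫⁻ s : ℝ, ∫⁻ x' : Fin n → ℝ,
      F ((MeasurableEquiv.piFinSuccAbove (fun _ => ℝ) 0).symm (s, x')) := by
  have mp := (volume_preserving_piFinSuccAbove (fun _ : Fin (n + 1) => ℝ) 0).symm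
  have h1 := mp.lintegral_comp hF
  rw [← h1, Measure.volume_eq_prod]
  exact lintegral_prod _ (hF.comp (MeasurableEquiv.measurable _)).aemeasurable

/-- The inverse of `piFinSuccAbove` commutes with midpoints. -/
theorem piFinSucc_symm_mid (n : ℕ) (s t : ℝ) (x y : Fin n → ℝ) :
    (MeasurableEquiv.piFinSuccAbove (fun _ : Fin (n + 1) => ℝ) 0).symm
        ((s + t) / 2, (1 / 2 : ℝ) • (x + y))
      = (1 / 2 : ℝ) • ((MeasurableEquiv.piFinSuccAbove (fun _ : Fin (n + 1) => ℝ) 0).symm (s, x)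
        + (MeasurableEquiv.piFinSuccAbove (fun _ : Fin (n + 1) => ℝ) 0).symm (t, y)) := by
  funext j
  refine Fin.cases ?_ (fun i => ?_) j
  · simp [MeasurableEquiv.piFinSuccAbove_symm_apply, Fin.insertNthEquiv]
    ring
  · simp [MeasurableEquiv.piFinSuccAbove_symm_apply, Fin.insertNthEquiv]
    ring

/-- **Prekopa-Leindler in `Fin n → ℝ`, `t = 1/2`, squared form.**
Plan: induction on `n`. `n = 0`: the space is a point of volume one (`volume_pi`, `Measure.pi_of_empty`,
`lintegral_unique` / `lintegral_dirac`). Step: use `MeasurableEquiv.piFinSuccAbove (fun _ => ℝ) 0` with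
`volume_preserving_piFinSuccAbove (fun _ => ℝ) 0` and `lintegral_prod` to write
`∫⁻ F = ∫⁻ s, ∫⁻ x', F (Fin.cons s x')` (or `Fin.insertNth 0 s x'`); for fixed `s, t` the induction hypothesis applied to the sections
gives `F1 s * G1 t ≤ H1 ((s + t)/2) ^ 2` for the marginals `F1 s = ∫⁻ x', F (cons s x')`, which are
measurable (`Measurable.lintegral_prod_right'`); conclude with `pl_one_dim`. -/
theorem pl_pi (n : ℕ) (F G H : (Fin n → ℝ) → ℝ≥0∞) (hF : Measurable F) (hG : Measurable G)
    (hH : Measurable H) (h : ∀ x y, F x * G y ≤ H ((1 / 2 : ℝ) • (x + y)) ^ 2) :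
    (∫⁻ x, F x) * (∫⁻ y, G y) ≤ (∫⁻ z, H z) ^ 2 := by
  induction n with
  | zero =>
    have hv : (volume : Measure (Fin 0 → ℝ)) = Measure.dirac 0 := Measure.volume_pi_eq_dirac 0
    rw [hv, lintegral_dirac, lintegral_dirac, lintegral_dirac]
    have := h 0 0
    simpa using this
  | succ n ih =>
    set e := (MeasurableEquiv.piFinSuccAbove (fun _ : Fin (n + 1) => ℝ) 0).symm with he
    rw [lintegral_pi_succ n F hF, lintegral_pi_succ n G hG, lintegral_pi_succ n H hH]
    have hm : ∀ K : (Fin (n + 1) → ℝ) → ℝ≥0∞, Measurable K →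
        Measurable (fun s : ℝ => ∫⁻ x' : Fin n → ℝ, K (e (s, x'))) := by
      intro K hK
      exact (hK.comp e.measurable).lintegral_prod_right'
    have hsec : ∀ K : (Fin (n + 1) → ℝ) → ℝ≥0∞, Measurable K → ∀ s : ℝ,
        Measurable (fun x' : Fin n → ℝ => K (e (s, x'))) := by
      intro K hK s
      exact (hK.comp e.measurable).comp measurable_prodMk_left
    refine pl_one_dim _ _ _ (hm F hF) (hm G hG) (hm H hH) ?_
    intro s t
    refine ih _ _ _ (hsec F hF s) (hsec G hG t) (hsec H hH _) ?_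
    intro x y
    rw [piFinSucc_symm_mid]
    exact h _ _

/-- **Prekopa-Leindler in Euclidean space, `t = 1/2`, squared form.**
Plan: transfer `pl_pi` along `EuclideanSpace.measurableEquiv (Fin n)` which is volume preserving
(`EuclideanSpace.volume_preserving_measurableEquiv`) and linear. -/
theorem pl_euclidean (n : ℕ) (F G H : EuclideanSpace ℝ (Fin n) → ℝ≥0∞) (hF : Measurable F)
    (hG : Measurable G) (hH : Measurable H)
    (h : ∀ x y, F x * G y ≤ H ((1 / 2 : ℝ) • (x + y)) ^ 2) :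
    (∫⁻ x, F x) * (∫⁻ y, G y) ≤ (∫⁻ z, H z) ^ 2 := by
  have mp := PiLp.volume_preserving_toLp (Fin n)
  have hmeas : Measurable (@WithLp.toLp 2 (Fin n → ℝ)) := mp.measurable
  rw [← mp.lintegral_comp hF, ← mp.lintegral_comp hG, ← mp.lintegral_comp hH]
  refine pl_pi n _ _ _ (hF.comp hmeas) (hG.comp hmeas) (hH.comp hmeas) ?_
  intro x y
  have := h (WithLp.toLp 2 x) (WithLp.toLp 2 y)
  rwa [← WithLp.toLp_add, ← WithLp.toLp_smul] at this

end Vale.Agent.Lib.P074.Third
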