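import Vale.Agent.Lib.P074.Third.Src

/-!
# P074 / Third: homothetic shrinking of the body (to control the boundary layer)
-/

open MeasureTheory Set Metric
open scoped ENNReal NNReal

namespace Vale.Agent.Lib.P074.Third

open Vale.Agent.Lib.P074

variable {d : ℕ}

/-- the homothetic copy `x0 + (1 - lam) (K - x0)` -/
def shrink (x0 : E d) (lam : ℝ) (K : Set (E d)) : Set (E d) :=
  (fun x => x0 + (1 - lam) • (x - x0)) '' K

lemma isCompact_shrink {K : Set (E d)} (hK : IsCompact K) (x0 : E d) (lam : ℝ) :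
    IsCompact (shrink x0 lam K) :=
  hK.image (by fun_prop)

lemma measurableSet_shrink {K : Set (E d)} (hK : IsCompact K) (x0 : E d) (lam : ℝ) :
    MeasurableSet (shrink x0 lam K) := (isCompact_shrink hK x0 lam).isClosed.measurableSet

lemma shrink_subset {K : Set (E d)} (hK : Convex ℝ K) {x0 : E d} (hx0 : x0 ∈ K) {lam : ℝ}
    (h0 : 0 ≤ lam) (h1 : lam ≤ 1) : shrink x0 lam K ⊆ K := by
  rintro _ ⟨k, hk, rfl⟩
  have h := hK hx0 hk h0 (by linarith : (0 : ℝ) ≤ 1 - lam) (by ring)
  have e : x0 + (1 - lam) • (k - x0) = lam • x0 + (1 - lam) • k := by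
    rw [smul_sub, sub_smul, sub_smul, one_smul, one_smul]
    abel
  simpa only [e] using h

/-- `x = (1-lam) k + lam x0`, so `x + v = (1-lam) k + lam (x0 + v/lam)` -/
lemma add_mem_of_mem_shrink {K : Set (E d)} (hK : Convex ℝ K) {x0 : E d} {r : ℝ}
    (hball : closedBall x0 r ⊆ K) (hr : 0 ≤ r) {lam : ℝ} (h0 : 0 ≤ lam) (h1 : lam ≤ 1) {x v : E d}
    (hx : x ∈ shrink x0 lam K) (hv : ‖v‖ ≤ lam * r) : x + v ∈ K := by
  obtain ⟨k, hk, rfl⟩ := hx
  rcases h0.eq_or_lt with h | h
  · subst h
    have hv0 : v = 0 := by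
      have : ‖v‖ ≤ 0 := by simpa using hv
      exact norm_le_zero_iff.1 this
    subst hv0
    simpa using hk
  · have hmem : x0 + lam⁻¹ • v ∈ K := by
      apply hball
      rw [mem_closedBall, dist_eq_norm, add_sub_cancel_left, norm_smul, norm_inv,
        Real.norm_of_nonneg h.le, inv_mul_le_iff₀ h]
      exact hv
    have hc := hK hmem hk h.le (by linarith : (0 : ℝ) ≤ 1 - lam) (by ring)
    have e : x0 + (1 - lam) • (k - x0) + v = lam • (x0 + lam⁻¹ • v) + (1 - lam) • k := by
      rw [smul_add, smul_smul, mul_inv_cancel₀ h.ne', one_smul, smul_sub, sub_smul, sub_smul,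
        one_smul, one_smul]
      abel
    simpa only [e] using hc

/-- `vol (shrink) = (1-lam)^d vol K` (`Measure.addHaar_image_homothety`, `finrank_euclideanSpace`) and
Bernoulli `1 - d lam ≤ (1-lam)^d` (`one_add_mul_le_pow`) -/
lemma unif_compl_shrink {K : Set (E d)} {RK : ℝ≥0} (hK : IsBody K RK) {x0 : E d} (hx0 : x0 ∈ K)
    {lam : ℝ} (h0 : 0 ≤ lam) (h1 : lam ≤ 1) :
    (unif K).real (shrink x0 lam K)ᶜ ≤ d * lam := by
  have := hK.isProb
  have hm := measurableSet_shrink hK.compact x0 lam
  have hsub := shrink_subset hK.convex hx0 h0 h1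
  have hvol : volume (shrink x0 lam K) = ENNReal.ofReal ((1 - lam) ^ d) * volume K := by
    have e : shrink x0 lam K = AffineMap.homothety x0 (1 - lam) '' K := by
      unfold shrink
      apply Set.image_congr
      intro x _
      simp [AffineMap.homothety_apply, add_comm]
    rw [e, Measure.addHaar_image_homothety, finrank_euclideanSpace, Fintype.card_fin,
      abs_of_nonneg (pow_nonneg (by linarith) d)]
  have hK0 := hK.volume_ne_zero
  have hKtop : volume K ≠ ∞ := hK.compact.measure_lt_top.ne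
  have hS : unif K (shrink x0 lam K) = ENNReal.ofReal ((1 - lam) ^ d) := by
    unfold unif
    rw [Measure.smul_apply, Measure.restrict_apply hm, Set.inter_eq_left.2 hsub, hvol, smul_eq_mul,
      mul_comm, mul_assoc, ENNReal.mul_inv_cancel hK0 hKtop, mul_one]
  have hSr : (unif K).real (shrink x0 lam K) = (1 - lam) ^ d := by
    rw [Measure.real, hS, ENNReal.toReal_ofReal (pow_nonneg (by linarith) d)]
  have hc : (unif K).real (shrink x0 lam K)ᶜ = 1 - (unif K).real (shrink x0 lam K) :=
    probReal_compl_eq_one_sub hm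
  rw [hc, hSr]
  have hb := one_add_mul_le_pow (a := -lam) (by linarith) d
  have e2 : (1 + -lam) = 1 - lam := by ring
  rw [e2] at hb
  linarith

end Vale.Agent.Lib.P074.Third
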