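import Vale.Agent.Lib.P074.Third.Moment
import Vale.Agent.Lib.P074.Third.Exist

/-!
# P074 / Third: optimal data for arbitrary (possibly repeated) sites, for the two sources at once
-/

open MeasureTheory Set
open scoped ENNReal NNReal

namespace Vale.Agent.Lib.P074.Third

open Vale.Agent.Lib.P074

variable {d : ℕ} {ι : Type*} [Fintype ι]

/-- summation over the fibres of `σ` -/
lemma sum_fiber_aux {κ : Type*} [Fintype κ] [DecidableEq κ] {M : Type*} [AddCommMonoid M]
    (σ : ι → κ) (f : ι → M) : ∑ i, f i = ∑ k, ∑ i, if σ i = k then f i else 0 := by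
  rw [Finset.sum_comm]
  refine Finset.sum_congr rfl fun i _ => ?_
  rw [Finset.sum_ite_eq]
  simp

lemma sum_weighted_fiber {κ : Type*} [Fintype κ] [DecidableEq κ]
    (π : ι → ℝ) (σ : ι → κ) (m : κ → ℝ) (hm : ∀ k, m k = ∑ i, if σ i = k then π i else 0)
    (hmpos : ∀ k, 0 < m k) (Q : κ → ℝ) :
    ∑ i, π i / m (σ i) * Q (σ i) = ∑ k, Q k := by
  rw [sum_fiber_aux σ]
  refine Finset.sum_congr rfl fun k _ => ?_
  have h : ∀ i, (if σ i = k then π i / m (σ i) * Q (σ i) else 0) =
      (if σ i = k then π i else 0) * (Q k / m k) := by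
    intro i
    split_ifs with h
    · rw [h]; ring
    · simp
  simp_rw [h]
  rw [← Finset.sum_mul, ← hm k]
  have := (hmpos k).ne'
  field_simp

lemma fiber_mass_pos {κ : Type*} [DecidableEq κ] (π : ι → ℝ) (hπ : ∀ i, 0 < π i)
    (σ : ι → κ) (hσ : Function.Surjective σ) (k : κ) :
    0 < ∑ i, if σ i = k then π i else 0 := by
  obtain ⟨i, hi⟩ := hσ k
  apply Finset.sum_pos'
  · intro j _
    split_ifs
    · exact (hπ j).le
    · exact le_rfl
  · exact ⟨i, Finset.mem_univ _, by rw [if_pos hi]; exact hπ i⟩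

lemma pot_reindex {κ : Type*} [Fintype κ] [Nonempty κ] [Nonempty ι] (s : κ → E d) (α : κ → ℝ)
    (σ : ι → κ) (hσ : Function.Surjective σ) (x : E d) :
    pot (fun i => s (σ i)) (fun i => α (σ i)) x = pot s α x := by
  apply le_antisymm
  · apply pot_le
    intro i
    exact le_pot s α x (σ i)
  · apply pot_le
    intro k
    obtain ⟨i, rfl⟩ := hσ k
    exact le_pot (fun i => s (σ i)) (fun i => α (σ i)) x i

lemma discMeas_reindex {κ : Type*} [Fintype κ] [DecidableEq κ]
    (π : ι → ℝ) (hπ : ∀ i, 0 < π i) (s : κ → E d) (σ : ι → κ) (m : κ → ℝ)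
    (hm : ∀ k, m k = ∑ i, if σ i = k then π i else 0) :
    discMeas m s = discMeas π (fun i => s (σ i)) := by
  unfold discMeas
  rw [sum_fiber_aux σ (fun i => ENNReal.ofReal (π i) • Measure.dirac (s (σ i)))]
  refine Finset.sum_congr rfl fun k _ => ?_
  have h : ∀ i, (if σ i = k then ENNReal.ofReal (π i) • Measure.dirac (s (σ i)) else 0) =
      (ENNReal.ofReal (if σ i = k then π i else 0)) • Measure.dirac (s k) := by
    intro i
    split_ifs with h
    · rw [h]
    · simp
  simp_rw [h]
  rw [← Finset.sum_smul, hm k, ENNReal.ofReal_sum_of_nonneg]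
  intro i _
  split_ifs
  · exact (hπ i).le
  · exact le_rfl

/-- **Package from weights, distinct sites reindexed.**
`σ : ι → κ` is a surjection onto the index type of the distinct sites `s : κ → E d` (`y = s ∘ σ`),
`m k = ∑_{σ i = k} π i`, `α` weights with `(src K g)(cell K s α k) = m k`. Then
`a i = α (σ i)` and `b i = (π i / m (σ i)) • ∫_{cell K s α (σ i)} x d(src K g)` form a package.
Proofs: `pot y a = pot s α` (same set of values, `σ` surjective).
`weak`: `∑_i <b_i, y'_i> = ∑_i (π_i/m_{σ i}) ∫_{cell (σ i)} <x, y'_i> ≤ ∑_i (π_i/m_{σ i}) ∫_{cell (σ i)} (pot y' a' + a'_i)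
 = ∑_k ∫_{cell k} pot y' a' + ∑_i π_i a'_i = ∫ pot y' a' + ∑ π_i a'_i` (`le_pot`, `Finset.sum_fiberwise`, `integral_eq_sum_cell`).
`strong`: same computation with equality (`pot_eq_of_mem_cell`).
`bound`: `|∫_{cell k} x| ≤ RK m_k` (`norm_setIntegral_le_of_norm_le_const`).
`map`: `T = cellMap s α` (`measurable_cellMap`, `cellMap_subgradient_ae`, `map_cellMap`, and
`discMeas m s = discMeas π y` by `Finset.sum_fiberwise`). -/
theorem package_of_weights {κ : Type*} [Fintype κ] [DecidableEq κ] [Nonempty κ] [Nonempty ι]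
    {K : Set (E d)} {RK : ℝ≥0} (hK : IsBody K RK) {g : E d → ℝ} (hg : IsPert K g)
    (π : ι → ℝ) (hπ : ∀ i, 0 < π i) (s : κ → E d) (hs : Function.Injective s)
    (σ : ι → κ) (hσ : Function.Surjective σ) (m : κ → ℝ)
    (hm : ∀ k, m k = ∑ i, if σ i = k then π i else 0)
    (α : κ → ℝ) (hα : ∀ k, (src K g).real (cell K s α k) = m k) :
    IsPackage K RK g π (fun i => s (σ i)) (fun i => α (σ i))
      (fun i => (π i / m (σ i)) • ∫ x in cell K s α (σ i), x ∂(src K g)) := by
  have hKm : MeasurableSet K := hK.compact.measurableSet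
  have hprob : IsProbabilityMeasure (src K g) := src_isProb hK hg
  have hac := src_ac K g
  have hsupp := src_compl hK g
  have hmpos : ∀ k, 0 < m k := fun k => by rw [hm k]; exact fiber_mass_pos π hπ σ hσ k
  have hCm : ∀ k, MeasurableSet (cell K s α k) := fun k => measurableSet_cell hKm s α k
  -- integrability of the identity on the cells
  have hid : ∀ k, IntegrableOn (fun x : E d => x) (cell K s α k) (src K g) := by
    intro k
    refine Measure.integrableOn_of_bounded (M := RK) (measure_ne_top _ _)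
      measurable_id.aestronglyMeasurable ?_
    filter_upwards [ae_restrict_mem (hCm k)] with x hx
    exact hK.bound x hx.1
  have hinner : ∀ i (v : E d),
      inner ℝ ((π i / m (σ i)) • ∫ x in cell K s α (σ i), x ∂(src K g)) v =
        π i / m (σ i) * ∫ x in cell K s α (σ i), inner ℝ x v ∂(src K g) := by
    intro i v
    rw [real_inner_smul_left, real_inner_comm, ← integral_inner (hid (σ i)) v]
    congr 1
    apply integral_congr_ae
    filter_upwards with x
    exact real_inner_comm _ _
  have hkey : ∀ (y' : ι → E d) (a' : ι → ℝ),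
      ∑ i, π i / m (σ i) * ∫ x in cell K s α (σ i), (pot y' a' x + a' i) ∂(src K g) =
        dualF (src K g) π y' a' := by
    intro y' a'
    have hpi : Integrable (pot y' a') (src K g) :=
      integrable_src_of_continuous hK hg (continuous_pot y' a')
    have h1 : ∀ i, ∫ x in cell K s α (σ i), (pot y' a' x + a' i) ∂(src K g) =
        (∫ x in cell K s α (σ i), pot y' a' x ∂(src K g)) + m (σ i) * a' i := by
      intro i
      rw [integral_add hpi.integrableOn (integrable_const _), setIntegral_const, hα, smul_eq_mul]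
    simp_rw [h1, mul_add]
    rw [Finset.sum_add_distrib, sum_weighted_fiber π σ m hm hmpos
      (fun k => ∫ x in cell K s α k, pot y' a' x ∂(src K g)),
      ← integral_eq_sum_cell hKm hs α (src K g) hac hsupp _ hpi]
    unfold dualF
    congr 1
    refine Finset.sum_congr rfl fun i _ => ?_
    have := (hmpos (σ i)).ne'
    field_simp
  have hinnint : ∀ k (v : E d), IntegrableOn (fun x : E d => inner ℝ x v) (cell K s α k) (src K g) := by
    intro k v
    exact (integrable_src_of_continuous hK hg (by fun_prop)).integrableOn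
  refine ⟨?_, ?_, ?_, ?_⟩
  · intro y' a'
    rw [← hkey y' a']
    refine Finset.sum_le_sum fun i _ => ?_
    rw [hinner]
    refine mul_le_mul_of_nonneg_left ?_ (div_nonneg (hπ i).le (hmpos _).le)
    have hpi : Integrable (pot y' a') (src K g) :=
      integrable_src_of_continuous hK hg (continuous_pot y' a')
    refine integral_mono (hinnint _ _) (hpi.integrableOn.add (integrable_const _)) ?_
    intro x
    have := le_pot y' a' x i
    show inner ℝ x (y' i) ≤ pot y' a' x + a' i
    linarith
  · rw [← hkey]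
    refine Finset.sum_congr rfl fun i _ => ?_
    rw [hinner]
    congr 1
    refine setIntegral_congr_fun (hCm _) ?_
    intro x hx
    show inner ℝ x (s (σ i)) = pot (fun i => s (σ i)) (fun i => α (σ i)) x + α (σ i)
    rw [pot_reindex s α σ hσ x, pot_eq_of_mem_cell hx]
    ring
  · intro i
    rw [norm_smul, Real.norm_eq_abs, abs_of_nonneg (div_nonneg (hπ i).le (hmpos _).le)]
    have h1 : ‖∫ x in cell K s α (σ i), x ∂(src K g)‖ ≤ RK * (src K g).real (cell K s α (σ i)) :=
      norm_setIntegral_le_of_norm_le_const (measure_lt_top _ _) (fun x hx => hK.bound x hx.1)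
    rw [hα] at h1
    calc π i / m (σ i) * ‖∫ x in cell K s α (σ i), x ∂(src K g)‖
        ≤ π i / m (σ i) * (RK * m (σ i)) :=
          mul_le_mul_of_nonneg_left h1 (div_nonneg (hπ i).le (hmpos _).le)
      _ = RK * π i := by
          have := (hmpos (σ i)).ne'
          field_simp
  · refine ⟨cellMap s α, measurable_cellMap s α, ?_, ?_⟩
    · have h := (unif_ac K).ae_le (cellMap_subgradient_ae hs α)
      filter_upwards [h] with x hx z
      rw [pot_reindex s α σ hσ x, pot_reindex s α σ hσ z]
      exact hx z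
    · rw [map_cellMap hKm hs α (src K g) hac hsupp m hα]
      exact discMeas_reindex π hπ s σ m hm

/-- **Optimal data for the two sources.** Take `κ = Set.range y` (a `Fintype` by classical choice), `s = Subtype.val`,
`σ = Set.rangeFactorization y`, `m k = ∑_{σ i = k} π i > 0`, `∑ m = 1`; `exists_weights` for `unif K = src K 0`
and for `src K g` (`src_isProb`, `src_ac`, `src_compl`); `package_of_weights` twice. For the last inequality, with
`ΔB_k` the difference of the two cell moments, `b1 i - b0 i = (π_i/m_{σ i}) ΔB_{σ i}`, so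
`∑_i |b1 i - b0 i|^2/π_i = ∑_i π_i |ΔB_{σ i}|^2/m_{σ i}^2 = ∑_k |ΔB_k|^2/m_k`, and `moment_bound` applies. -/
theorem step_pair [Nonempty ι] {K : Set (E d)} {RK : ℝ≥0} (hK : IsBody K RK) {g : E d → ℝ}
    (hg : IsPert K g) (π : ι → ℝ) (hπ : ∀ i, 0 < π i) (hsum : ∑ i, π i = 1) (y : ι → E d) :
    ∃ (a0 a1 : ι → ℝ) (b0 b1 : ι → E d),
      IsPackage K RK (0 : E d → ℝ) π y a0 b0 ∧ IsPackage K RK g π y a1 b1 ∧
      ∑ i, ‖b1 i - b0 i‖ ^ 2 / π i ≤ 100000 * (RK : ℝ) ^ 2 * ∫ x, g x ^ 2 ∂(unif K) := by
  classical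
  have hfin : Fintype (Set.range y) := Fintype.ofFinite _
  have hne : Nonempty (Set.range y) := ⟨⟨y (Classical.arbitrary ι), Set.mem_range_self _⟩⟩
  set s : Set.range y → E d := Subtype.val with hsdef
  have hs : Function.Injective s := Subtype.val_injective
  set σ : ι → Set.range y := Set.rangeFactorization y with hσdef
  have hσ : Function.Surjective σ := Set.rangeFactorization_surjective
  set m : Set.range y → ℝ := fun k => ∑ i, if σ i = k then π i else 0 with hmdef
  have hm : ∀ k, m k = ∑ i, if σ i = k then π i else 0 := fun k => rfl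
  have hmpos : ∀ k, 0 < m k := fun k => fiber_mass_pos π hπ σ hσ k
  have hmsum : ∑ k, m k = 1 := by
    rw [← hsum, sum_fiber_aux σ π]
  have hp0 : IsProbabilityMeasure (unif K) := hK.isProb
  have hp1 : IsProbabilityMeasure (src K g) := src_isProb hK hg
  have hc0 : unif K Kᶜ = 0 := by
    have := src_compl hK (0 : E d → ℝ)
    rwa [src_zero] at this
  obtain ⟨α0, hα0⟩ := exists_weights hK.compact (unif K) (unif_ac K) hc0 s hs m hmpos hmsum
  obtain ⟨α1, hα1⟩ := exists_weights hK.compact (src K g) (src_ac K g) (src_compl hK g) s hs m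
    hmpos hmsum
  have hα0' : ∀ k, (src K (0 : E d → ℝ)).real (cell K s α0 k) = m k := by
    intro k
    rw [src_zero]
    exact hα0 k
  have P0 := package_of_weights hK (isPert_zero K) π hπ s hs σ hσ m hm α0 hα0'
  have P1 := package_of_weights hK hg π hπ s hs σ hσ m hm α1 hα1
  refine ⟨_, _, _, _, P0, P1, ?_⟩
  have hmb := moment_bound hK hg hs α0 α1 m hmpos hα0 hα1
  refine le_trans (le_of_eq ?_) hmb
  rw [← sum_weighted_fiber π σ m hm hmpos (fun k =>
    ‖(∫ x in cell K s α1 k, x ∂(src K g)) - ∫ x in cell K s α0 k, x ∂(unif K)‖ ^ 2 / m k)]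
  refine Finset.sum_congr rfl fun i _ => ?_
  rw [src_zero, ← smul_sub, norm_smul, Real.norm_eq_abs,
    abs_of_nonneg (div_nonneg (hπ i).le (hmpos _).le)]
  have h1 := (hmpos (σ i)).ne'
  have h2 := (hπ i).ne'
  field_simp

end Vale.Agent.Lib.P074.Third
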