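import Vale.Agent.Lib.P074.Third.ClaimA
import Vale.Agent.Lib.P074.Third.Shrink

/-!
# P074 / Third: the `L^2` bound of one signed coordinate of `Tμ - Tν` on the shrunken body
-/

open MeasureTheory Set Metric
open scoped ENNReal NNReal

namespace Vale.Agent.Lib.P074.Third

open Vale.Agent.Lib.P074

variable {d : ℕ}

/-- elementary: `h S ≤ a sqrt S + C h^2` implies `S ≤ 4 a^2/h^2 + 2 C h`
(if `a sqrt S ≤ h S/2` then `S ≤ 2 C h`, otherwise `sqrt S < 2 a/h`) -/
lemma quad_solve {h S a C : ℝ} (hh : 0 < h) (hS : 0 ≤ S) (ha : 0 ≤ a) (hC : 0 ≤ C)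
    (H : h * S ≤ a * Real.sqrt S + C * h ^ 2) : S ≤ 4 * a ^ 2 / h ^ 2 + 2 * C * h := by
  obtain ⟨s, hs0, rfl⟩ : ∃ s : ℝ, 0 ≤ s ∧ S = s ^ 2 :=
    ⟨Real.sqrt S, Real.sqrt_nonneg S, (Real.sq_sqrt hS).symm⟩
  rw [Real.sqrt_sq hs0] at H
  have hh2 : 0 < h ^ 2 := by positivity
  rw [div_add' _ _ _ hh2.ne', le_div_iff₀ hh2]
  have H2 : h * (h * s ^ 2) ≤ h * (a * s + C * h ^ 2) := mul_le_mul_of_nonneg_left H hh.le
  nlinarith [sq_nonneg (h * s - a), sq_nonneg a, mul_nonneg hC (pow_pos hh 3).le]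

/-- **Step B.** `D x = (Tμ x - Tν x) k`, `v = h • EuclideanSpace.single k 1` (`|v| = h`, `<v, w> = h w_k`),
`q = (shrink x0 (h/r) K).indicator (fun x => min (max (D x) 0) (2 M))`, `Q = 2 M`.
`q` vanishes off `K` (`shrink_subset`), `q (· - v)` vanishes off `K` (`add_mem_of_mem_shrink`, `|v| = (h/r) r`).
A.e. `|D x| ≤ 2 M` (`IsBr.ae_bound`), so a.e. `q x * <v, Tμ x - Tν x> = h q(x)^2` and `S := ∫ q^2 dρ` is the left side of the claim.
`∫ (q(x - v) - q x)^2 ≤ 2 ∫ q(x-v)^2 + 2 ∫ q^2 = 4 S` (`integral_shift` applied to `q^2` and `u = 1`).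
`claimA`: `h S ≤ A sqrt(4 S) sqrt(2 c0) + 2 M secC h^2`, `A = sqrt 100000 RK`. `quad_solve` with `a = 2 A sqrt(2 c0)`:
`4 a^2 = 32 A^2 c0 = 3200000 RK^2 c0`. -/
theorem stepB {K : Set (E d)} {RK M : ℝ≥0} (hK : IsBody K RK) {x0 : E d} {r : ℝ} (hr : 0 < r)
    (hball : closedBall x0 r ⊆ K) {Y : Set (E d)}
    (hY : IsCompact Y) (hYne : Y.Nonempty) (hYM : ∀ y ∈ Y, ‖y‖ ≤ M) {μ ν : Measure (E d)}
    [IsProbabilityMeasure μ] [IsProbabilityMeasure ν] (hμ : μ Yᶜ = 0) (hν : ν Yᶜ = 0)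
    {φμ φν : E d → ℝ} {Tμ Tν : E d → E d} (hBμ : IsBr K M (0 : E d → ℝ) μ φμ Tμ)
    (hBν : IsBr K M (0 : E d → ℝ) ν φν Tν) (π0 : Measure (E d × E d))
    (h1 : π0.map Prod.fst = μ) (h2 : π0.map Prod.snd = ν) (k : Fin d) {h : ℝ} (hh : 0 < h)
    (hh1 : h ≤ 1) (hhr : h ≤ r) :
    ∫ x in shrink x0 (h / r) K, (max ((Tμ x - Tν x) k) 0) ^ 2 ∂(unif K) ≤
      3200000 * (RK : ℝ) ^ 2 * (∫⁻ p, ‖p.1 - p.2‖ₑ ^ 2 ∂π0).toReal / h ^ 2 +
        4 * M * secC K RK M * h := by
  have : IsProbabilityMeasure (unif K) := hK.isProb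
  set c0 : ℝ := (∫⁻ p, ‖p.1 - p.2‖ₑ ^ 2 ∂π0).toReal with hc0
  have hc0nn : 0 ≤ c0 := ENNReal.toReal_nonneg
  set A : Set (E d) := shrink x0 (h / r) K with hA
  have hAm : MeasurableSet A := measurableSet_shrink hK.compact x0 (h / r)
  have hlam0 : 0 ≤ h / r := (div_pos hh hr).le
  have hlam1 : h / r ≤ 1 := (div_le_one hr).2 hhr
  have hx0 : x0 ∈ K := hball (mem_closedBall_self hr.le)
  have hAK : A ⊆ K := shrink_subset hK.convex hx0 hlam0 hlam1
  set D : E d → ℝ := fun x => (Tμ x - Tν x) k with hD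
  have hDm : Measurable D := by
    have : Measurable fun w : E d => w k := (EuclideanSpace.proj k).continuous.measurable
    exact this.comp (hBμ.meas.sub hBν.meas)
  set q : E d → ℝ := A.indicator (fun x => min (max (D x) 0) (2 * M)) with hq
  set v : E d := h • EuclideanSpace.single k (1 : ℝ) with hv
  have hM0 : (0 : ℝ) ≤ 2 * M := by positivity
  have hqm : Measurable q := ((hDm.max measurable_const).min measurable_const).indicator hAm
  have hq0 : ∀ x, 0 ≤ q x := fun x =>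
    indicator_nonneg (fun y _ => le_min (le_max_right _ _) hM0) x
  have hqQ : ∀ x, q x ≤ 2 * M := by
    intro x
    by_cases hx : x ∈ A
    · simp only [hq, indicator_of_mem hx]; exact min_le_right _ _
    · simp only [hq, indicator_of_notMem hx]; exact hM0
  have hvn : ‖v‖ = h := by
    rw [hv, norm_smul, EuclideanSpace.norm_single, norm_one, mul_one, Real.norm_of_nonneg hh.le]
  have hqK : ∀ x, x ∉ K → q x = 0 := fun x hx => indicator_of_notMem (fun hxA => hx (hAK hxA)) _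
  have hqv : ∀ x, x ∉ K → q (x - v) = 0 := by
    intro x hx
    apply indicator_of_notMem
    intro hxA
    apply hx
    have := add_mem_of_mem_shrink hK.convex hball hr.le hlam0 hlam1 hxA
      (v := v) (by rw [hvn, div_mul_cancel₀ _ hr.ne'])
    simpa using this
  have key := claimA hK hY hYne hYM hμ hν hBμ hBν π0 h1 h2 q hqm hq0 hqQ v (by rw [hvn]; exact hh1)
    hqK hqv
  have hae : ∀ᵐ x ∂(unif K), |D x| ≤ 2 * M := by
    filter_upwards [hBμ.ae_bound, hBν.ae_bound] with x hx1 hx2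
    have e1 : |D x| ≤ ‖Tμ x - Tν x‖ := by
      have := PiLp.norm_apply_le (Tμ x - Tν x) k
      simpa [hD, Real.norm_eq_abs] using this
    have e2 : ‖Tμ x - Tν x‖ ≤ ‖Tμ x‖ + ‖Tν x‖ := norm_sub_le _ _
    linarith
  have hinner : ∀ w : E d, inner ℝ v w = h * w k := by
    intro w
    rw [hv, inner_smul_left, EuclideanSpace.inner_single_left]
    simp
  have hqae : ∀ᵐ x ∂(unif K), q x = A.indicator (fun x => max (D x) 0) x := by
    filter_upwards [hae] with x hx
    by_cases hxA : x ∈ A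
    · simp only [hq, indicator_of_mem hxA]
      apply min_eq_left
      exact max_le (le_trans (le_abs_self _) hx) hM0
    · simp only [hq, indicator_of_notMem hxA]
  set S : ℝ := ∫ x, q x ^ 2 ∂(unif K) with hSdef
  have hS0 : 0 ≤ S := integral_nonneg (fun x => sq_nonneg _)
  have hS : ∫ x in A, (max (D x) 0) ^ 2 ∂(unif K) = S := by
    rw [← integral_indicator hAm, hSdef]
    apply integral_congr_ae
    filter_upwards [hqae] with x hx
    rw [hx]
    by_cases hxA : x ∈ A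
    · simp only [indicator_of_mem hxA]
    · simp only [indicator_of_notMem hxA]; norm_num
  have hL : ∫ x, q x * inner ℝ v (Tμ x - Tν x) ∂(unif K) = h * S := by
    rw [hSdef, ← integral_const_mul]
    apply integral_congr_ae
    filter_upwards [hqae] with x hx
    rw [hinner, hx]
    by_cases hxA : x ∈ A
    · simp only [indicator_of_mem hxA]
      change max (D x) 0 * (h * D x) = h * max (D x) 0 ^ 2
      rcases le_total 0 (D x) with h0 | h0
      · rw [max_eq_left h0]; ring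
      · rw [max_eq_right h0]; ring
    · simp only [indicator_of_notMem hxA]; ring
  have hbd : ∀ f : E d → ℝ, Measurable f → (∀ x, 0 ≤ f x) → (∀ x, f x ≤ 2 * M) →
      Integrable (fun x => f x ^ 2) (unif K) := by
    intro f hf hf0 hfQ
    refine Integrable.of_bound (hf.pow_const 2).aestronglyMeasurable ((2 * M) ^ 2 : ℝ) ?_
    filter_upwards with x
    rw [Real.norm_of_nonneg (sq_nonneg _)]
    exact pow_le_pow_left₀ (hf0 x) (hfQ x) 2
  have hqvm : Measurable fun x => q (x - v) := hqm.comp (measurable_id.sub_const v)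
  have hi1 := hbd q hqm hq0 hqQ
  have hi2 := hbd (fun x => q (x - v)) hqvm (fun x => hq0 _) (fun x => hqQ _)
  have hshift : ∫ x, q (x - v) ^ 2 ∂(unif K) = S := by
    have := integral_shift (K := K) (fun x => q x ^ 2) (fun _ => (1 : ℝ)) v
      (fun x hx => by simp only [hqK x hx]; norm_num) (fun x hx => by simp only [hqv x hx]; norm_num)
    simp only [mul_one] at this
    rw [hSdef, this]
  have h4 : ∫ x, (q (x - v) - q x) ^ 2 ∂(unif K) ≤ 4 * S := by
    have : ∫ x, (q (x - v) - q x) ^ 2 ∂(unif K) ≤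
        ∫ x, (2 * q (x - v) ^ 2 + 2 * q x ^ 2) ∂(unif K) := by
      apply integral_mono_of_nonneg
      · filter_upwards with x; exact sq_nonneg _
      · exact (hi2.const_mul 2).add (hi1.const_mul 2)
      · filter_upwards with x
        nlinarith [sq_nonneg (q (x - v) + q x)]
    rw [integral_add (hi2.const_mul 2) (hi1.const_mul 2), integral_const_mul, integral_const_mul,
      hshift] at this
    linarith
  have hsq : Real.sqrt (∫ x, (q (x - v) - q x) ^ 2 ∂(unif K)) ≤ 2 * Real.sqrt S := by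
    calc Real.sqrt (∫ x, (q (x - v) - q x) ^ 2 ∂(unif K)) ≤ Real.sqrt (4 * S) := Real.sqrt_le_sqrt h4
      _ = 2 * Real.sqrt S := by
        rw [Real.sqrt_mul (by norm_num), show (4 : ℝ) = 2 ^ 2 by norm_num,
          Real.sqrt_sq (by norm_num)]
  rw [hL, hvn] at key
  have hsec := secC_nonneg K RK M
  have H : h * S ≤ (2 * Real.sqrt 100000 * RK * Real.sqrt (2 * c0)) * Real.sqrt S +
      (2 * M * secC K RK M) * h ^ 2 := by
    refine key.trans ?_
    have : Real.sqrt 100000 * RK * Real.sqrt (∫ x, (q (x - v) - q x) ^ 2 ∂(unif K)) *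
        Real.sqrt (2 * c0) ≤ Real.sqrt 100000 * RK * (2 * Real.sqrt S) * Real.sqrt (2 * c0) := by
      gcongr
    linarith
  have := quad_solve hh hS0 (by positivity) (by positivity) H
  rw [hS]
  refine this.trans (le_of_eq ?_)
  have e1 : Real.sqrt 100000 ^ 2 = 100000 := Real.sq_sqrt (by norm_num)
  have e2 : Real.sqrt (2 * c0) ^ 2 = 2 * c0 := Real.sq_sqrt (by positivity)
  have : (2 * Real.sqrt 100000 * RK * Real.sqrt (2 * c0)) ^ 2 = 800000 * (RK : ℝ) ^ 2 * c0 := by
    rw [mul_pow, mul_pow, mul_pow, e1, e2]; ring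
  rw [this]
  ring

end Vale.Agent.Lib.P074.Third
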