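import Vale.Agent.Lib.P074.Third.Src

/-!
# P074 / Third: `W_1` distance between the images of `unif K` and of `(1 + g) unif K` under one map
-/

open MeasureTheory Set
open scoped ENNReal NNReal

namespace Vale.Agent.Lib.P074.Third

open Vale.Agent.Lib.P074

variable {d : ℕ}

/-- abstract coupling bound: `ρ` a probability measure, `u + n = 1`, the measures with densities
`n` and `p` have the same finite mass `t` -/
lemma W1_pert_aux (ρ : Measure (E d)) [IsProbabilityMeasure ρ] {u n p : E d → ℝ≥0∞}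
    (hu : Measurable u) (hn : Measurable n) (hp : Measurable p) (t : ℝ≥0∞) (ht : t ≠ ∞)
    (hnt : ∫⁻ x, n x ∂ρ = t) (hpt : ∫⁻ x, p x ∂ρ = t)
    {T : E d → E d} (hT : Measurable T) {M : ℝ≥0} (hTM : ∀ᵐ x ∂ρ, ‖T x‖ ≤ M) :
    W1 ((ρ.withDensity (u + n)).map T) ((ρ.withDensity (u + p)).map T) ≤ 2 * M * t := by
  set A := ρ.withDensity n with hA
  set B := ρ.withDensity p with hB
  set D := ρ.withDensity u with hD
  have hAu : A univ = t := by rw [hA, withDensity_apply _ MeasurableSet.univ]; simpa using hnt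
  have hBu : B univ = t := by rw [hB, withDensity_apply _ MeasurableSet.univ]; simpa using hpt
  have : IsFiniteMeasure A := ⟨by rw [hAu]; exact ht.lt_top⟩
  have : IsFiniteMeasure B := ⟨by rw [hBu]; exact ht.lt_top⟩
  have hdiag : Measurable (fun x : E d => (x, x)) := by fun_prop
  set γ : Measure (E d × E d) := D.map (fun x => (x, x)) + t⁻¹ • (A.prod B) with hγ
  have hscale : ∀ C : Measure (E d), C univ = t → t⁻¹ • (t • C) = C := by
    intro C hC
    by_cases h0 : t = 0
    · have : C = 0 := by rw [← Measure.measure_univ_eq_zero, hC, h0]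
      rw [this]; simp
    · rw [smul_smul, ENNReal.inv_mul_cancel h0 ht, one_smul]
  have hfst : γ.map Prod.fst = ρ.withDensity (u + n) := by
    rw [hγ, Measure.map_add _ _ measurable_fst, Measure.map_smul, Measure.map_fst_prod,
      Measure.map_map measurable_fst hdiag, hBu, hscale A hAu, withDensity_add_left hu]
    congr 1
    exact Measure.map_id
  have hsnd : γ.map Prod.snd = ρ.withDensity (u + p) := by
    rw [hγ, Measure.map_add _ _ measurable_snd, Measure.map_smul, Measure.map_snd_prod,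
      Measure.map_map measurable_snd hdiag, hAu, hscale B hBu, withDensity_add_left hu]
    congr 1
    exact Measure.map_id
  have hTT : Measurable (Prod.map T T) := hT.prodMap hT
  have h1 : (γ.map (Prod.map T T)).map Prod.fst = (ρ.withDensity (u + n)).map T := by
    rw [Measure.map_map measurable_fst hTT, ← hfst, Measure.map_map hT measurable_fst]
    rfl
  have h2 : (γ.map (Prod.map T T)).map Prod.snd = (ρ.withDensity (u + p)).map T := by
    rw [Measure.map_map measurable_snd hTT, ← hsnd, Measure.map_map hT measurable_snd]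
    rfl
  have hW : W1 ((ρ.withDensity (u + n)).map T) ((ρ.withDensity (u + p)).map T)
      ≤ ∫⁻ q, enorm (q.1 - q.2) ∂(γ.map (Prod.map T T)) :=
    iInf_le (fun π : {π : Measure (E d × E d) // π.map Prod.fst = (ρ.withDensity (u + n)).map T ∧
      π.map Prod.snd = (ρ.withDensity (u + p)).map T} => ∫⁻ q, enorm (q.1 - q.2) ∂π.1)
      ⟨γ.map (Prod.map T T), h1, h2⟩
  refine hW.trans ?_
  have hmeas : Measurable (fun q : E d × E d => enorm (q.1 - q.2)) := by fun_prop
  rw [lintegral_map hmeas hTT]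
  have hmeas2 : Measurable (fun z : E d × E d => enorm ((Prod.map T T z).1 - (Prod.map T T z).2)) :=
    hmeas.comp hTT
  rw [hγ, lintegral_add_measure, lintegral_smul_measure, lintegral_map hmeas2 hdiag]
  have hz : ∫⁻ x, enorm ((Prod.map T T (x, x)).1 - (Prod.map T T (x, x)).2) ∂D = 0 := by
    simp
  rw [hz, zero_add, lintegral_prod _ hmeas2.aemeasurable]
  have hAac : ∀ᵐ x ∂A, ‖T x‖ ≤ M := (withDensity_absolutelyContinuous ρ n) hTM
  have hBac : ∀ᵐ x ∂B, ‖T x‖ ≤ M := (withDensity_absolutelyContinuous ρ p) hTM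
  have hin : ∀ᵐ x ∂A, ∫⁻ y, enorm ((Prod.map T T (x, y)).1 - (Prod.map T T (x, y)).2) ∂B
      ≤ 2 * M * t := by
    filter_upwards [hAac] with x hx
    calc ∫⁻ y, enorm ((Prod.map T T (x, y)).1 - (Prod.map T T (x, y)).2) ∂B
        ≤ ∫⁻ _, (2 * M : ℝ≥0∞) ∂B := by
          apply lintegral_mono_ae
          filter_upwards [hBac] with y hy
          have h3 : ‖T x - T y‖ ≤ ((2 * M : ℝ≥0) : ℝ) := by
            have := norm_sub_le (T x) (T y)
            push_cast
            linarith
          have h4 : enorm (T x - T y) ≤ ((2 * M : ℝ≥0) : ℝ≥0∞) := by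
            rw [← ofReal_norm, ← ENNReal.ofReal_coe_nnreal]
            exact ENNReal.ofReal_le_ofReal h3
          simpa using h4
      _ = 2 * M * t := by rw [lintegral_const, hBu]
  calc t⁻¹ • ∫⁻ x, ∫⁻ y, enorm ((Prod.map T T (x, y)).1 - (Prod.map T T (x, y)).2) ∂B ∂A
      ≤ t⁻¹ • ∫⁻ _, (2 * M * t : ℝ≥0∞) ∂A := by
        exact smul_le_smul_of_nonneg_left (lintegral_mono_ae hin) zero_le
    _ = t⁻¹ * (2 * M * t * t) := by rw [lintegral_const, hAu, smul_eq_mul]
    _ = (2 * M * t) * (t⁻¹ * t) := by ring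
    _ ≤ (2 * M * t) * 1 := by gcongr; exact ENNReal.inv_mul_le_one t
    _ = 2 * M * t := mul_one _

/-- **Images of the two sources are `W_1`-close.**
Plan: `ρ = unif K`, `gp = max g 0`, `gn = max (-g) 0`, `t = ∫ gp dρ = ∫ gn dρ ≤ δ` (mean zero).
If `t = 0` then `g = 0` a.e., `src K g = ρ`, use the diagonal coupling `(ρ.map T).map (fun y => (y, y))`.
Otherwise let
`γ = (ρ.withDensity (ofReal (1 - gn))).map (fun x => (x, x)) + (ofReal t)⁻¹ • ((ρ.withDensity (ofReal gn)).prod (ρ.withDensity (ofReal gp)))`;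
its marginals are `ρ` and `src K g`; the coupling `γ.map (Prod.map T T)` has cost
`≤ (1/t) ∫∫ |T x - T x'| gn(x) gp(x') ≤ 2 M t ≤ 2 M δ`. -/
theorem W1_pert {K : Set (E d)} {RK : ℝ≥0} (hK : IsBody K RK) {g : E d → ℝ} (hg : IsPert K g)
    {δ : ℝ} (hδ : ∀ x, |g x| ≤ δ) {T : E d → E d} (hT : Measurable T) {M : ℝ≥0}
    (hTM : ∀ᵐ x ∂(unif K), ‖T x‖ ≤ M) :
    W1 ((unif K).map T) ((src K g).map T) ≤ ENNReal.ofReal (2 * M * δ) := by
  have : IsProbabilityMeasure (unif K) := hK.isProb
  have hδ0 : 0 ≤ δ := (abs_nonneg _).trans (hδ 0)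
  set n : E d → ℝ≥0∞ := fun x => ENNReal.ofReal (-g x) with hn
  set p : E d → ℝ≥0∞ := fun x => ENNReal.ofReal (g x) with hp
  set u : E d → ℝ≥0∞ := fun x => ENNReal.ofReal (min 1 (1 + g x)) with hu
  have hnm : Measurable n := (hg.meas.neg).ennreal_ofReal
  have hpm : Measurable p := hg.meas.ennreal_ofReal
  have hum : Measurable u := (measurable_const.min (measurable_const.add hg.meas)).ennreal_ofReal
  have hun : u + n = 1 := by
    funext x
    have hb := abs_le.mp (hg.bound x)
    simp only [Pi.add_apply, Pi.one_apply, hu, hn]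
    rcases le_total 0 (g x) with h | h
    · rw [min_eq_left (by linarith), ENNReal.ofReal_of_nonpos (show -g x ≤ 0 by linarith)]
      simp
    · rw [min_eq_right (by linarith), ← ENNReal.ofReal_add (by linarith) (by linarith)]
      simp
  have hup : u + p = fun x => ENNReal.ofReal (1 + g x) := by
    funext x
    have hb := abs_le.mp (hg.bound x)
    simp only [Pi.add_apply, hu, hp]
    rcases le_total 0 (g x) with h | h
    · rw [min_eq_left (by linarith), ← ENNReal.ofReal_add (by linarith) h]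
    · rw [min_eq_right (by linarith), ENNReal.ofReal_of_nonpos h, add_zero]
  have hple : ∀ x, p x ≤ ENNReal.ofReal δ := fun x =>
    ENNReal.ofReal_le_ofReal ((le_abs_self _).trans (hδ x))
  have hnle : ∀ x, n x ≤ ENNReal.ofReal δ := fun x =>
    ENNReal.ofReal_le_ofReal ((neg_le_abs _).trans (hδ x))
  have hpt : ∫⁻ x, p x ∂(unif K) ≤ ENNReal.ofReal δ := by
    calc ∫⁻ x, p x ∂(unif K) ≤ ∫⁻ _, ENNReal.ofReal δ ∂(unif K) := lintegral_mono hple
      _ = ENNReal.ofReal δ := by simp
  have hnt : ∫⁻ x, n x ∂(unif K) ≤ ENNReal.ofReal δ := by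
    calc ∫⁻ x, n x ∂(unif K) ≤ ∫⁻ _, ENNReal.ofReal δ ∂(unif K) := lintegral_mono hnle
      _ = ENNReal.ofReal δ := by simp
  have hpfin : ∫⁻ x, p x ∂(unif K) ≠ ∞ := (hpt.trans_lt ENNReal.ofReal_lt_top).ne
  have hnfin : ∫⁻ x, n x ∂(unif K) ≠ ∞ := (hnt.trans_lt ENNReal.ofReal_lt_top).ne
  have hgint : Integrable g (unif K) := by
    refine Integrable.of_bound hg.meas.aestronglyMeasurable (1 / 3) (Filter.Eventually.of_forall ?_)
    intro x
    rw [Real.norm_eq_abs]
    exact hg.bound x
  have heq : ∫⁻ x, n x ∂(unif K) = ∫⁻ x, p x ∂(unif K) := by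
    have h := integral_eq_lintegral_pos_part_sub_lintegral_neg_part hgint
    rw [hg.mean] at h
    have h' : (∫⁻ x, p x ∂(unif K)).toReal = (∫⁻ x, n x ∂(unif K)).toReal := by
      simp only [hp, hn]
      linarith
    exact ((ENNReal.toReal_eq_toReal_iff' hpfin hnfin).mp h').symm
  have key := W1_pert_aux (unif K) hum hnm hpm (∫⁻ x, p x ∂(unif K)) hpfin heq rfl hT hTM
  rw [hun, hup] at key
  have h1 : (unif K).withDensity 1 = unif K := withDensity_one
  rw [h1] at key
  refine key.trans ?_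
  calc 2 * (M : ℝ≥0∞) * ∫⁻ x, p x ∂(unif K) ≤ 2 * (M : ℝ≥0∞) * ENNReal.ofReal δ := by gcongr
    _ = ENNReal.ofReal (2 * M * δ) := by
        rw [ENNReal.ofReal_mul (by positivity), ENNReal.ofReal_mul (by norm_num)]
        simp

end Vale.Agent.Lib.P074.Third
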